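import Vale.Agent.Lib.P007.Composite

namespace Vale.Agent.Lib.P007

open IntermediateField NumberField Polynomial Filter MeasureTheory Topology

/-- The subfield `F + F α` of `ℝ`, for an intermediate field `F` and a real `α` with
`α ^ 2 ∈ F`. -/
def quadExt (F : IntermediateField ℚ ℝ) (α : ℝ) (hα : α ^ 2 ∈ F) : IntermediateField ℚ ℝ where
  carrier := {x | ∃ u ∈ F, ∃ v ∈ F, x = u + v * α}
  mul_mem' := by
    rintro _ _ ⟨u, hu, v, hv, rfl⟩ ⟨u', hu', v', hv', rfl⟩
    exact ⟨u * u' + v * v' * α ^ 2,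
      F.add_mem (F.mul_mem hu hu') (F.mul_mem (F.mul_mem hv hv') hα),
      u * v' + v * u', F.add_mem (F.mul_mem hu hv') (F.mul_mem hv hu'), by ring⟩
  one_mem' := ⟨1, F.one_mem, 0, F.zero_mem, by ring⟩
  add_mem' := by
    rintro _ _ ⟨u, hu, v, hv, rfl⟩ ⟨u', hu', v', hv', rfl⟩
    exact ⟨u + u', F.add_mem hu hu', v + v', F.add_mem hv hv', by ring⟩
  zero_mem' := ⟨0, F.zero_mem, 0, F.zero_mem, by ring⟩
  algebraMap_mem' := fun r => ⟨algebraMap ℚ ℝ r, F.algebraMap_mem r, 0, F.zero_mem, by ring⟩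
  inv_mem' := by
    rintro _ ⟨u, hu, v, hv, rfl⟩
    by_cases hαF : α ∈ F
    · exact ⟨(u + v * α)⁻¹, F.inv_mem (F.add_mem hu (F.mul_mem hv hαF)), 0, F.zero_mem,
        by ring⟩
    · by_cases hx : u + v * α = 0
      · rw [hx, inv_zero]
        exact ⟨0, F.zero_mem, 0, F.zero_mem, by ring⟩
      · have hN : u ^ 2 - v ^ 2 * α ^ 2 ≠ 0 := by
          intro hN
          have h1 : (u - v * α) * (u + v * α) = 0 := by
            have : (u - v * α) * (u + v * α) = u ^ 2 - v ^ 2 * α ^ 2 := by ring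
            rw [this, hN]
          rcases mul_eq_zero.mp h1 with h2 | h2
          · have hv0 : v ≠ 0 := by
              rintro rfl
              apply hx
              have : u = 0 := by simpa using h2
              simp [this]
            apply hαF
            have hαe : α = u / v := by
              field_simp
              linarith
            rw [hαe]
            exact F.div_mem hu hv
          · exact hx h2
        have hNF : u ^ 2 - v ^ 2 * α ^ 2 ∈ F :=
          F.sub_mem (F.pow_mem hu 2) (F.mul_mem (F.pow_mem hv 2) hα)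
        refine ⟨u / (u ^ 2 - v ^ 2 * α ^ 2), F.div_mem hu hNF,
          -v / (u ^ 2 - v ^ 2 * α ^ 2), F.div_mem (F.neg_mem hv) hNF, ?_⟩
        have hmul : (u + v * α) * (u / (u ^ 2 - v ^ 2 * α ^ 2) +
            -v / (u ^ 2 - v ^ 2 * α ^ 2) * α) = 1 := by
          field_simp
          ring
        exact (eq_inv_of_mul_eq_one_right hmul).symm

theorem mem_quadExt {F : IntermediateField ℚ ℝ} {α : ℝ} {hα : α ^ 2 ∈ F} {x : ℝ} :
    x ∈ quadExt F α hα ↔ ∃ u ∈ F, ∃ v ∈ F, x = u + v * α := Iff.rfl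

theorem le_quadExt (F : IntermediateField ℚ ℝ) (α : ℝ) (hα : α ^ 2 ∈ F) :
    F ≤ quadExt F α hα := fun u hu => ⟨u, hu, 0, F.zero_mem, by ring⟩

theorem self_mem_quadExt (F : IntermediateField ℚ ℝ) (α : ℝ) (hα : α ^ 2 ∈ F) :
    α ∈ quadExt F α hα := ⟨0, F.zero_mem, 1, F.one_mem, by ring⟩

/-- A real number with square in `F` that lies in `F + F α` lies in `F` or in `F α`. -/
theorem sqrt_mem_quadExt {F : IntermediateField ℚ ℝ} {α : ℝ} {hα : α ^ 2 ∈ F} (hαF : α ∉ F)
    {γ : ℝ} (hγ : γ ^ 2 ∈ F) (h : γ ∈ quadExt F α hα) : γ ∈ F ∨ γ * α ∈ F := by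
  obtain ⟨u, hu, v, hv, rfl⟩ := h
  by_cases huv : u * v = 0
  · rcases mul_eq_zero.mp huv with rfl | rfl
    · right
      have : (0 + v * α) * α = v * α ^ 2 := by ring
      rw [this]
      exact F.mul_mem hv hα
    · left
      have : u + 0 * α = u := by ring
      rw [this]
      exact hu
  · exfalso
    apply hαF
    have h2 : (2 : ℝ) ∈ F := by
      have h := F.algebraMap_mem (2 : ℚ)
      have e : algebraMap ℚ ℝ (2 : ℚ) = (2 : ℝ) := by norm_num
      rw [e] at h
      exact h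
    have hu0 : u ≠ 0 := fun h => huv (by simp [h])
    have hv0 : v ≠ 0 := fun h => huv (by simp [h])
    have hαe : α = ((u + v * α) ^ 2 - u ^ 2 - v ^ 2 * α ^ 2) / (2 * (u * v)) := by
      field_simp
      ring
    rw [hαe]
    exact F.div_mem (F.sub_mem (F.sub_mem hγ (F.pow_mem hu 2)) (F.mul_mem (F.pow_mem hv 2) hα))
      (F.mul_mem h2 (F.mul_mem hu hv))


/-- Uniqueness of the representation `u + v α` when `α ∉ F`. -/
theorem quadExt_repr_unique {F : IntermediateField ℚ ℝ} {α : ℝ} (hαF : α ∉ F)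
    {u v u' v' : ℝ} (hu : u ∈ F) (hv : v ∈ F) (hu' : u' ∈ F) (hv' : v' ∈ F)
    (h : u + v * α = u' + v' * α) : u = u' ∧ v = v' := by
  have hvv : v = v' := by
    by_contra hne
    apply hαF
    have hsub : v - v' ≠ 0 := sub_ne_zero.mpr hne
    have hαe : α = (u' - u) / (v - v') := by
      field_simp
      linarith
    rw [hαe]
    exact F.div_mem (F.sub_mem hu' hu) (F.sub_mem hv hv')
  refine ⟨?_, hvv⟩
  rw [hvv] at h
  linarith

/-- `F + F α` is linearly isomorphic to `F × F` when `α ∉ F`. -/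
noncomputable def quadExtEquiv (F : IntermediateField ℚ ℝ) (α : ℝ) (hα : α ^ 2 ∈ F)
    (hαF : α ∉ F) : (F × F) ≃ₗ[ℚ] quadExt F α hα :=
  LinearEquiv.ofBijective
    { toFun := fun p => ⟨(p.1 : ℝ) + (p.2 : ℝ) * α, p.1, p.1.2, p.2, p.2.2, rfl⟩
      map_add' := fun p p' => by
        apply Subtype.ext
        simp only [Prod.fst_add, Prod.snd_add, IntermediateField.coe_add]
        ring
      map_smul' := fun c p => by
        apply Subtype.ext
        simp only [Prod.smul_fst, Prod.smul_snd, IntermediateField.coe_smul, RingHom.id_apply]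
        simp only [Algebra.smul_def]
        ring }
    (by
      constructor
      · rintro ⟨⟨u, hu⟩, ⟨v, hv⟩⟩ ⟨⟨u', hu'⟩, ⟨v', hv'⟩⟩ h
        have h' : u + v * α = u' + v' * α := congrArg Subtype.val h
        obtain ⟨h1, h2⟩ := quadExt_repr_unique hαF hu hv hu' hv' h'
        subst h1
        subst h2
        rfl
      · rintro ⟨x, u, hu, v, hv, rfl⟩
        exact ⟨(⟨u, hu⟩, ⟨v, hv⟩), rfl⟩)

theorem finrank_quadExt (F : IntermediateField ℚ ℝ) [FiniteDimensional ℚ F] (α : ℝ)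
    (hα : α ^ 2 ∈ F) (hαF : α ∉ F) :
    Module.finrank ℚ (quadExt F α hα) = 2 * Module.finrank ℚ F := by
  rw [← (quadExtEquiv F α hα hαF).finrank_eq, Module.finrank_prod]
  ring

theorem finiteDimensional_quadExt (F : IntermediateField ℚ ℝ) [FiniteDimensional ℚ F] (α : ℝ)
    (hα : α ^ 2 ∈ F) (hαF : α ∉ F) : FiniteDimensional ℚ (quadExt F α hα) :=
  Module.Finite.equiv (quadExtEquiv F α hα hαF)


/-- A complex number whose square is a natural number is real. -/
theorem conj_eq_of_sq_eq_natCast {z : ℂ} {m : ℕ} (h : z ^ 2 = (m : ℂ)) :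
    (starRingEnd ℂ) z = z := by
  have ht : ((Real.sqrt m : ℝ) : ℂ) ^ 2 = (m : ℂ) := by
    have : (Real.sqrt m) ^ 2 = (m : ℝ) := Real.sq_sqrt (Nat.cast_nonneg m)
    exact_mod_cast this
  have hprod : (z - (Real.sqrt m : ℝ)) * (z + (Real.sqrt m : ℝ)) = 0 := by
    linear_combination h - ht
  rcases mul_eq_zero.mp hprod with h1 | h1
  · have : z = ((Real.sqrt m : ℝ) : ℂ) := by linear_combination h1
    rw [this, Complex.conj_ofReal]
  · have : z = ((-Real.sqrt m : ℝ) : ℂ) := by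
      push_cast
      linear_combination h1
    rw [this, Complex.conj_ofReal]

/-- Every embedding into `ℂ` of a field containing `E` takes real values on `E`. -/
def RealOn (E : IntermediateField ℚ ℝ) : Prop :=
  ∀ (L : IntermediateField ℚ ℝ) (hle : E ≤ L) (φ : L →+* ℂ) (x : ℝ) (hx : x ∈ E),
    (starRingEnd ℂ) (φ ⟨x, hle hx⟩) = φ ⟨x, hle hx⟩

theorem realOn_bot : RealOn ⊥ := by
  intro L hle φ x hx
  obtain ⟨r, hr⟩ := IntermediateField.mem_bot.mp hx
  have h1 : (⟨x, hle hx⟩ : L) = algebraMap ℚ L r := Subtype.ext hr.symm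
  have h2 : φ (algebraMap ℚ L r) = (r : ℂ) := by
    rw [eq_ratCast (algebraMap ℚ L) r]
    exact map_ratCast φ r
  rw [h1, h2]
  exact map_ratCast (starRingEnd ℂ) r

theorem realOn_quadExt {F : IntermediateField ℚ ℝ} (hF : RealOn F) {α : ℝ} {m : ℕ}
    (hαm : α ^ 2 = (m : ℝ)) (hα : α ^ 2 ∈ F) : RealOn (quadExt F α hα) := by
  intro L hle φ x hx
  obtain ⟨u, hu, v, hv, hxe⟩ := id hx
  subst hxe
  have hFL : F ≤ L := (le_quadExt F α hα).trans hle
  have hαL : α ∈ L := hle (self_mem_quadExt F α hα)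
  have hdecomp : (⟨u + v * α, hle hx⟩ : L) = ⟨u, hFL hu⟩ + ⟨v, hFL hv⟩ * ⟨α, hαL⟩ := rfl
  have hφα : (φ ⟨α, hαL⟩) ^ 2 = (m : ℂ) := by
    rw [← map_pow]
    have : (⟨α, hαL⟩ : L) ^ 2 = (m : L) := Subtype.ext (by simpa using hαm)
    rw [this, map_natCast]
  rw [hdecomp, map_add, map_mul, map_add, map_mul, hF L hFL φ u hu, hF L hFL φ v hv,
    conj_eq_of_sq_eq_natCast hφα]

theorem isTotallyReal_of_realOn (E : IntermediateField ℚ ℝ) [NumberField E] (h : RealOn E) :
    IsTotallyReal E := by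
  rw [← maximalRealSubfield_eq_top_iff_isTotallyReal, eq_top_iff]
  intro x _
  rw [mem_maximalRealSubfield_iff]
  intro φ
  exact h E le_rfl φ x.1 x.2


theorem natCast_mem_field (F : IntermediateField ℚ ℝ) (m : ℕ) : (m : ℝ) ∈ F := by
  have h := F.algebraMap_mem (m : ℚ)
  have e : algebraMap ℚ ℝ (m : ℚ) = (m : ℝ) := by simp
  rw [e] at h
  exact h

theorem sqrt_sq_mem (F : IntermediateField ℚ ℝ) (m : ℕ) : (Real.sqrt m) ^ 2 ∈ F := by
  rw [Real.sq_sqrt (Nat.cast_nonneg m)]
  exact natCast_mem_field F m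

/-- The field `Q(sqrt 2)` inside `ℝ`. -/
noncomputable def fieldSqrt2 : IntermediateField ℚ ℝ :=
  quadExt ⊥ (Real.sqrt (2 : ℕ)) (sqrt_sq_mem ⊥ 2)

/-- The field `Q(sqrt 2, sqrt q)` inside `ℝ`. -/
noncomputable def biquad (q : ℕ) : IntermediateField ℚ ℝ :=
  quadExt fieldSqrt2 (Real.sqrt q) (sqrt_sq_mem fieldSqrt2 q)

theorem not_isSquare_prime_mul {q m : ℕ} (hq : q.Prime) (hm : ¬ q ∣ m) : ¬ IsSquare (q * m) := by
  rintro ⟨r, hr⟩
  have hqr : q ∣ r := by
    have h1 : q ∣ r * r := ⟨m, hr.symm⟩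
    exact (hq.dvd_mul.mp h1).elim id id
  obtain ⟨s, rfl⟩ := hqr
  apply hm
  refine ⟨s * s, ?_⟩
  apply Nat.eq_of_mul_eq_mul_left hq.pos
  rw [hr]
  ring

theorem sqrt_nat_notMem_bot {m : ℕ} (hm : ¬ IsSquare m) :
    Real.sqrt m ∉ (⊥ : IntermediateField ℚ ℝ) := by
  intro h
  obtain ⟨r, hr⟩ := IntermediateField.mem_bot.mp h
  have hirr : Irrational (Real.sqrt m) := irrational_sqrt_natCast_iff.mpr hm
  exact hirr ⟨r, by rw [← hr]; simp⟩

theorem not_isSquare_two : ¬ IsSquare (2 : ℕ) := by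
  have := not_isSquare_prime_mul (q := 2) (m := 1) Nat.prime_two (by norm_num)
  simpa using this

theorem sqrt_two_notMem_bot : Real.sqrt (2 : ℕ) ∉ (⊥ : IntermediateField ℚ ℝ) :=
  sqrt_nat_notMem_bot not_isSquare_two

theorem sqrt_nat_mem_fieldSqrt2 {m : ℕ} (h : Real.sqrt m ∈ fieldSqrt2) :
    IsSquare m ∨ IsSquare (2 * m) := by
  by_contra hcon
  have h1 : ¬ IsSquare m := fun h' => hcon (Or.inl h')
  have h2 : ¬ IsSquare (2 * m) := fun h' => hcon (Or.inr h')
  rcases sqrt_mem_quadExt sqrt_two_notMem_bot (sqrt_sq_mem ⊥ m) h with h3 | h3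
  · exact sqrt_nat_notMem_bot h1 h3
  · have e : Real.sqrt m * Real.sqrt (2 : ℕ) = Real.sqrt ((2 * m : ℕ)) := by
      rw [← Real.sqrt_mul (Nat.cast_nonneg m)]
      congr 1
      push_cast
      ring
    rw [e] at h3
    exact sqrt_nat_notMem_bot h2 h3

theorem prime_not_dvd_two {q : ℕ} (hq : q.Prime) (hq2 : q ≠ 2) : ¬ q ∣ 2 := by
  intro h
  exact hq2 ((Nat.prime_dvd_prime_iff_eq hq Nat.prime_two).mp h)

theorem sqrt_prime_notMem_fieldSqrt2 {q : ℕ} (hq : q.Prime) (hq2 : q ≠ 2) :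
    Real.sqrt q ∉ fieldSqrt2 := by
  intro h
  rcases sqrt_nat_mem_fieldSqrt2 h with h1 | h1
  · have := not_isSquare_prime_mul (q := q) (m := 1) hq (by
      intro h'
      exact hq.one_lt.ne' (Nat.dvd_one.mp h'))
    rw [mul_one] at this
    exact this h1
  · have := not_isSquare_prime_mul (q := q) (m := 2) hq (prime_not_dvd_two hq hq2)
    rw [mul_comm] at this
    exact this h1

theorem sqrt_prime_notMem_biquad {q q' : ℕ} (hq : q.Prime) (hq' : q'.Prime) (hq2 : q ≠ 2)
    (hq'2 : q' ≠ 2) (hne : q ≠ q') : Real.sqrt q' ∉ biquad q := by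
  intro h
  have hndvd : ¬ q ∣ q' := fun h' => hne ((Nat.prime_dvd_prime_iff_eq hq hq').mp h')
  rcases sqrt_mem_quadExt (sqrt_prime_notMem_fieldSqrt2 hq hq2) (sqrt_sq_mem fieldSqrt2 q') h
    with h1 | h1
  · exact sqrt_prime_notMem_fieldSqrt2 hq' hq'2 h1
  · have e : Real.sqrt q' * Real.sqrt q = Real.sqrt ((q * q' : ℕ)) := by
      rw [← Real.sqrt_mul (Nat.cast_nonneg q')]
      congr 1
      push_cast
      ring
    rw [e] at h1
    rcases sqrt_nat_mem_fieldSqrt2 h1 with h2 | h2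
    · exact not_isSquare_prime_mul hq hndvd h2
    · have h3 : ¬ q ∣ 2 * q' := by
        intro h'
        rcases hq.dvd_mul.mp h' with h4 | h4
        · exact prime_not_dvd_two hq hq2 h4
        · exact hndvd h4
      have := not_isSquare_prime_mul hq h3
      have e2 : q * (2 * q') = 2 * (q * q') := by ring
      rw [e2] at this
      exact this h2

theorem biquad_ne {q q' : ℕ} (hq : q.Prime) (hq' : q'.Prime) (hq2 : q ≠ 2)
    (hq'2 : q' ≠ 2) (hne : q ≠ q') : biquad q ≠ biquad q' := by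
  intro h
  apply sqrt_prime_notMem_biquad hq hq' hq2 hq'2 hne
  rw [h]
  exact self_mem_quadExt fieldSqrt2 (Real.sqrt q') (sqrt_sq_mem fieldSqrt2 q')

instance finiteDimensional_fieldSqrt2 : FiniteDimensional ℚ fieldSqrt2 :=
  finiteDimensional_quadExt ⊥ _ _ sqrt_two_notMem_bot

theorem finrank_fieldSqrt2 : Module.finrank ℚ fieldSqrt2 = 2 := by
  unfold fieldSqrt2
  rw [finrank_quadExt ⊥ _ _ sqrt_two_notMem_bot, IntermediateField.finrank_bot]

theorem finiteDimensional_biquad {q : ℕ} (hq : q.Prime) (hq2 : q ≠ 2) :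
    FiniteDimensional ℚ (biquad q) :=
  finiteDimensional_quadExt fieldSqrt2 _ _ (sqrt_prime_notMem_fieldSqrt2 hq hq2)

theorem finrank_biquad {q : ℕ} (hq : q.Prime) (hq2 : q ≠ 2) :
    Module.finrank ℚ (biquad q) = 4 := by
  unfold biquad
  rw [finrank_quadExt fieldSqrt2 _ _ (sqrt_prime_notMem_fieldSqrt2 hq hq2), finrank_fieldSqrt2]

theorem realOn_biquad (q : ℕ) : RealOn (biquad q) := by
  unfold biquad
  refine realOn_quadExt ?_ (Real.sq_sqrt (Nat.cast_nonneg q)) _
  unfold fieldSqrt2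
  exact realOn_quadExt realOn_bot (Real.sq_sqrt (Nat.cast_nonneg 2)) _


theorem numberField_biquad {q : ℕ} (hq : q.Prime) (hq2 : q ≠ 2) : NumberField (biquad q) :=
  @NumberField.mk _ _ inferInstance (finiteDimensional_biquad hq hq2)

/-- Hermite: the discriminants of the fields `Q(sqrt 2, sqrt q_i)`, for distinct odd primes
`q_i`, tend to infinity. -/
theorem tendsto_discr_biquad (q : ℕ → ℕ) (hq : ∀ i, (q i).Prime) (hq2 : ∀ i, q i ≠ 2)
    (hinj : Function.Injective q) :
    Tendsto (fun i => haveI := numberField_biquad (hq i) (hq2 i)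
      (discr (biquad (q i))).natAbs) atTop atTop := by
  rw [Filter.tendsto_atTop_atTop]
  intro N
  have hfin := NumberField.finite_of_discr_bdd ℝ N
  let KK : ℕ → {F : IntermediateField ℚ ℝ // FiniteDimensional ℚ F} :=
    fun i => ⟨biquad (q i), finiteDimensional_biquad (hq i) (hq2 i)⟩
  have hKinj : Function.Injective KK := by
    intro i j hij
    by_contra hne
    have h1 : biquad (q i) = biquad (q j) := congrArg Subtype.val hij
    exact biquad_ne (hq i) (hq j) (hq2 i) (hq2 j) (fun h => hne (hinj h)) h1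
  have hpre := hfin.preimage (f := KK) hKinj.injOn
  obtain ⟨b, hb⟩ := hpre.bddAbove
  refine ⟨b + 1, fun i hi => ?_⟩
  by_contra hlt
  haveI := numberField_biquad (hq i) (hq2 i)
  have hle : |discr (biquad (q i))| ≤ (N : ℤ) := by
    rw [Int.abs_eq_natAbs]
    have h1 : (discr (biquad (q i))).natAbs ≤ N := by
      have := not_le.mp hlt
      omega
    exact_mod_cast h1
  have hmem : i ∈ KK ⁻¹' {K : {F : IntermediateField ℚ ℝ // FiniteDimensional ℚ F} |
      haveI : NumberField K := @NumberField.mk _ _ inferInstance K.prop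
      |discr K| ≤ N} := hle
  have := hb hmem
  omega

theorem discOrder_top (K : Type*) [Field K] [NumberField K] :
    discOrder (⊤ : Subring (𝓞 K)) = (discr K).natAbs := by
  unfold discOrder
  have h : (⊤ : Subring (𝓞 K)).toAddSubgroup = ⊤ := rfl
  rw [h, AddSubgroup.index_top]
  ring

/-- The odd primes, enumerated. -/
noncomputable def oddPrime (i : ℕ) : ℕ := Nat.nth Nat.Prime (i + 1)

theorem oddPrime_prime (i : ℕ) : (oddPrime i).Prime := Nat.prime_nth_prime (i + 1)

theorem oddPrime_injective : Function.Injective oddPrime := by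
  intro i j h
  have := (Nat.nth_strictMono Nat.infinite_setOfPred_prime).injective h
  omega

theorem oddPrime_ne_two (i : ℕ) : oddPrime i ≠ 2 := by
  have h : Nat.nth Nat.Prime 0 < Nat.nth Nat.Prime (i + 1) :=
    Nat.nth_strictMono Nat.infinite_setOfPred_prime (Nat.succ_pos i)
  rw [Nat.nth_prime_zero_eq_two] at h
  exact (ne_of_gt h)

/-- The polynomial `X^2 - 2` over the integers. -/
noncomputable def sqTwoPoly : ℤ[X] := X ^ 2 - C 2

theorem sqTwoPoly_monic : sqTwoPoly.Monic := monic_X_pow_sub_C 2 (by norm_num)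

theorem sqTwoPoly_eval (z : ℤ) : sqTwoPoly.eval z ≠ 0 := by
  unfold sqTwoPoly
  simp only [eval_sub, eval_pow, eval_X, eval_C]
  intro h
  have h2 : z ^ 2 = 2 := by linarith
  rcases le_or_gt z 1 with h1 | h1
  · rcases le_or_gt (-1) z with h3 | h3
    · nlinarith
    · nlinarith
  · nlinarith

theorem sqrt_two_mem_biquad (q : ℕ) : Real.sqrt (2 : ℕ) ∈ biquad q :=
  le_quadExt fieldSqrt2 _ _ (self_mem_quadExt ⊥ _ _)

theorem exists_root_biquad {q : ℕ} (hq : q.Prime) (hq2 : q ≠ 2) :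
    haveI := numberField_biquad hq hq2
    ∃ β : 𝓞 (biquad q), β ∈ (⊤ : Subring (𝓞 (biquad q))) ∧
      Polynomial.aeval (β : biquad q) sqTwoPoly = 0 := by
  haveI := numberField_biquad hq hq2
  have hsq : (⟨Real.sqrt (2 : ℕ), sqrt_two_mem_biquad q⟩ : biquad q) ^ 2 =
      ((2 : ℕ) : biquad q) := by
    apply Subtype.ext
    rw [IntermediateField.coe_pow, SubringClass.coe_natCast]
    exact Real.sq_sqrt (Nat.cast_nonneg 2)
  have haev : Polynomial.aeval (⟨Real.sqrt (2 : ℕ), sqrt_two_mem_biquad q⟩ : biquad q)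
      sqTwoPoly = 0 := by
    unfold sqTwoPoly
    rw [map_sub, map_pow, aeval_X, aeval_C, hsq]
    simp
  have hint : IsIntegral ℤ (⟨Real.sqrt (2 : ℕ), sqrt_two_mem_biquad q⟩ : biquad q) :=
    ⟨sqTwoPoly, sqTwoPoly_monic, by rw [← Polynomial.aeval_def]; exact haev⟩
  exact ⟨⟨_, hint⟩, Subring.mem_top _, haev⟩

/-- Degree four with maximal orders: the fields `K_i = Q(sqrt 2, sqrt q_i)`, `q_i` the odd
primes, are totally real quartic fields whose discriminants tend to infinity, and one test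
function `f` has integral zero against the packet measures of all their maximal orders but
positive integral against every invariant probability measure. -/
theorem quartic_fields_counterexample :
    ∃ (K : ℕ → Type) (_ : ∀ i, Field (K i)) (_ : ∀ i, NumberField (K i))
      (_ : ∀ i, IsTotallyReal (K i)),
      (∀ i, Module.finrank ℚ (K i) = 4) ∧ (∀ i, Nonempty (Fin 4 ≃ (K i →+* ℝ))) ∧
      Tendsto (fun i => discOrder (⊤ : Subring (𝓞 (K i)))) atTop atTop ∧
      ∃ f : XSpace 4 → ℝ, Continuous f ∧ HasCompactSupport f ∧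
        ∀ σ : ∀ i, Fin 4 ≃ (K i →+* ℝ),
          (∀ i, ∫ x, f x ∂(packetMeasure (⊤ : Subring (𝓞 (K i))) (σ i)) = 0) ∧
          (∀ i, ∀ μ : Measure (XSpace 4),
            μ (packetSupport (⊤ : Subring (𝓞 (K i))) (σ i))ᶜ = 0 → ∫ x, f x ∂μ = 0) ∧
          ∀ m : Measure (XSpace 4), IsProbabilityMeasure m →
            (∀ h, m.map (XSpace.rmul h) = m) →
            0 < ∫ x, f x ∂m ∧
            ¬ Tendsto (fun i => ∫ x, f x ∂(packetMeasure (⊤ : Subring (𝓞 (K i))) (σ i)))
              atTop (𝓝 (∫ x, f x ∂m)) := by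
  have hNF : ∀ i, NumberField (biquad (oddPrime i)) :=
    fun i => numberField_biquad (oddPrime_prime i) (oddPrime_ne_two i)
  have hTR : ∀ i, IsTotallyReal (biquad (oddPrime i)) :=
    fun i => isTotallyReal_of_realOn _ (realOn_biquad (oddPrime i))
  have hdeg : ∀ i, Module.finrank ℚ (biquad (oddPrime i)) = 4 :=
    fun i => finrank_biquad (oddPrime_prime i) (oddPrime_ne_two i)
  obtain ⟨f, hf1, hf2, hf4, hf5⟩ :=
    common_root_sequences 4 (by norm_num) sqTwoPoly sqTwoPoly_monic.ne_zero sqTwoPoly_eval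
  refine ⟨fun i => biquad (oddPrime i), fun i => inferInstance, hNF, hTR, hdeg,
    fun i => nonempty_sigma _ (hdeg i), ?_, f, hf1, hf2, fun σ => ?_⟩
  · have h := tendsto_discr_biquad oddPrime oddPrime_prime oddPrime_ne_two oddPrime_injective
    have e : (fun i => discOrder (⊤ : Subring (𝓞 (biquad (oddPrime i))))) =
        fun i => (discr (biquad (oddPrime i))).natAbs := funext fun i => discOrder_top _
    rw [e]
    exact h
  · obtain ⟨h1, h2, h3⟩ := hf5 (fun i => biquad (oddPrime i)) σ (fun i => ⊤)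
      (fun i => exists_root_biquad (oddPrime_prime i) (oddPrime_ne_two i))
    exact ⟨h2, fun i μ hμ => integral_eq_zero_of_carried (h1 i) μ hμ,
      fun m hm hinv => ⟨hf4 m hm hinv, h3 m hm hinv⟩⟩

end Vale.Agent.Lib.P007
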