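import Vale.Agent.Lib.P007.Compositum

namespace Vale.Agent.Lib.P007

open Matrix MeasureTheory Topology NumberField Filter Polynomial

/-- The real roots of the nonzero integer polynomials of degree at most `n` with coefficients
of absolute value at most `C` form a finite set. -/
theorem finite_bounded_roots (n : ℕ) (C : ℕ) :
    {x : ℝ | ∃ P : ℤ[X], P.natDegree ≤ n ∧ (∀ i, P.coeff i ∈ Set.Icc (-(C : ℤ)) C) ∧ P ≠ 0 ∧
      Polynomial.aeval x P = 0}.Finite := by
  classical
  have h := Polynomial.bUnion_roots_finite (Int.castRingHom ℝ) n (Set.finite_Icc (-(C : ℤ)) C)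
  refine h.subset ?_
  rintro x ⟨P, hdeg, hcoeff, hP0, hroot⟩
  simp only [Set.mem_iUnion]
  refine ⟨P, ⟨hdeg, hcoeff⟩, ?_⟩
  have hmap : P.map (Int.castRingHom ℝ) ≠ 0 :=
    (Polynomial.map_ne_zero_iff (RingHom.injective_int (Int.castRingHom ℝ))).mpr hP0
  simp only [Finset.mem_coe, Multiset.mem_toFinset]
  rw [Polynomial.mem_roots hmap, Polynomial.IsRoot, Polynomial.eval_map]
  rw [Polynomial.aeval_def] at hroot
  have e : Int.castRingHom ℝ = algebraMap ℤ ℝ := Subsingleton.elim _ _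
  rw [e]
  exact hroot

variable {K : Type*} [Field K] [NumberField K]

omit [NumberField K] in
/-- Every complex embedding of a totally real field is a real embedding. -/
theorem exists_real_embedding [IsTotallyReal K] (φ : K →+* ℂ) :
    ∃ ψ : K →+* ℝ, ∀ x, φ x = ((ψ x : ℝ) : ℂ) :=
  ⟨(IsTotallyReal.complexEmbedding_isReal φ).embedding,
    fun x => (ComplexEmbedding.IsReal.coe_embedding_apply _ x).symm⟩

/-- If all real conjugates of an integer `beta` of a totally real field of degree `n` are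
bounded by `B`, each conjugate is a root of a nonzero integer polynomial of degree at most
`n` with coefficients bounded in terms of `B` and `n` only. -/
theorem conjugate_mem_bounded_roots [IsTotallyReal K] {n : ℕ}
    (hn : Module.finrank ℚ K = n) (β : 𝓞 K) (B : ℝ) (hB : ∀ φ : K →+* ℝ, |φ (β : K)| ≤ B)
    (ψ : K →+* ℝ) :
    ψ (β : K) ∈ {x : ℝ | ∃ P : ℤ[X], P.natDegree ≤ n ∧
      (∀ i, P.coeff i ∈ Set.Icc (-((Nat.ceil (max B 1 ^ n * (n.choose (n / 2) : ℝ)) : ℕ) : ℤ))
        (Nat.ceil (max B 1 ^ n * (n.choose (n / 2) : ℝ)) : ℕ)) ∧ P ≠ 0 ∧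
      Polynomial.aeval x P = 0} := by
  have hint : IsIntegral ℤ (β : K) := β.2
  have hBC : ∀ φ : K →+* ℂ, ‖φ (β : K)‖ ≤ B := by
    intro φ
    obtain ⟨ψ', hψ'⟩ := exists_real_embedding φ
    rw [hψ', Complex.norm_real, Real.norm_eq_abs]
    exact hB ψ'
  have h_map := minpoly.isIntegrallyClosed_eq_field_fractions' ℚ hint
  refine ⟨minpoly ℤ (β : K), ?_, fun i => ?_, minpoly.ne_zero hint, ?_⟩
  · rw [← (minpoly.monic hint).natDegree_map (algebraMap ℤ ℚ), ← h_map, ← hn]
    exact minpoly.natDegree_le (β : K)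
  · rw [Set.mem_Icc, ← abs_le, ← @Int.cast_le ℝ]
    have h1 := NumberField.Embeddings.coeff_bdd_of_norm_le (A := ℂ) hBC i
    rw [hn] at h1
    refine (Eq.trans_le ?_ h1).trans (by exact_mod_cast Nat.le_ceil _)
    rw [h_map, coeff_map, eq_intCast, Int.norm_cast_rat, Int.norm_eq_abs, Int.cast_abs]
  · rw [aeval_map_ringHom, minpoly.aeval, map_zero]

/-- One normalised test function for all totally real fields of degree `n`, all orders and
all orderings: it vanishes on the packet of every order containing a nonrational integer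
all of whose real conjugates are bounded by `B`. -/
theorem obstruction_bounded_one (n : ℕ) (hn : 0 < n) (B : ℝ) :
    ∃ f : XSpace n → ℝ, Continuous f ∧ HasCompactSupport f ∧ (∀ x, 0 ≤ f x) ∧
      f (XSpace.mk 1) = 1 ∧
      (∀ m : Measure (XSpace n), IsProbabilityMeasure m →
        (∀ h, m.map (XSpace.rmul h) = m) → 0 < ∫ x, f x ∂m) ∧
      ∀ (K : Type) [Field K] [NumberField K] [IsTotallyReal K] (σ : Fin n ≃ (K →+* ℝ))
        (O : Subring (𝓞 K)) (β : 𝓞 K), β ∈ O → (∀ k : ℤ, (β : K) ≠ (k : K)) →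
        (∀ φ : K →+* ℝ, |φ (β : K)| ≤ B) → ∀ x ∈ packetSupport O σ, f x = 0 := by
  set C : ℕ := Nat.ceil (max B 1 ^ n * (n.choose (n / 2) : ℝ)) with hC
  set R : Set ℝ := {x : ℝ | ∃ P : ℤ[X], P.natDegree ≤ n ∧
      (∀ i, P.coeff i ∈ Set.Icc (-(C : ℤ)) C) ∧ P ≠ 0 ∧ Polynomial.aeval x P = 0} with hR
  have hRfin : R.Finite := finite_bounded_roots n C
  set S : Set (Fin n → ℝ) :=
    {ρ | (∀ j, ρ j ∈ R) ∧ ∃ j, ρ j ∉ Set.range ((↑) : ℤ → ℝ)} with hS
  have hSfin : S.Finite :=
    (Set.Finite.pi' (ι := Fin n) fun _ => hRfin).subset fun ρ hρ j => hρ.1 j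
  have hSρ : ∀ ρ ∈ S, ∃ j, ρ j ∉ Set.range ((↑) : ℤ → ℝ) := fun ρ hρ => hρ.2
  obtain ⟨f, hf1, hf2, hf3, hone, hf4, hf5⟩ := exists_test_function_finite_one n S hSfin hSρ
  refine ⟨f, hf1, hf2, hf3, hone, hf4, ?_⟩
  intro K _ _ _ σ O β hβ hnr hbd x hx
  obtain ⟨L, hL, hstab⟩ := packetSupport_stable σ O β hβ hx
  have hdeg : Module.finrank ℚ K = n := finrank_eq_of_sigma σ
  refine hf5 x L hL ⟨fun j => σ j (β : K), ⟨fun j => ?_, ⟨0, hn⟩, ?_⟩, hstab⟩
  · exact conjugate_mem_bounded_roots hdeg β B hbd (σ j)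
  · rintro ⟨k, hk⟩
    apply hnr k
    apply (σ ⟨0, hn⟩).injective
    simp only [map_intCast]
    exact hk.symm

/-- Every composite degree `n`: totally real fields `K_i` of degree `n` whose discriminants
tend to infinity and whose rings of integers all contain a root of one fixed nonzero integer
polynomial without integer roots. -/
theorem composite_fields_common_root (n : ℕ) (hn : ∃ a b : ℕ, 1 < a ∧ 1 < b ∧ n = a * b) :
    ∃ P : ℤ[X], P ≠ 0 ∧ (∀ z : ℤ, P.eval z ≠ 0) ∧
      ∃ (K : ℕ → Type) (_ : ∀ i, Field (K i)) (_ : ∀ i, NumberField (K i))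
        (_ : ∀ i, IsTotallyReal (K i)),
        (∀ i, Module.finrank ℚ (K i) = n) ∧ (∀ i, Nonempty (Fin n ≃ (K i →+* ℝ))) ∧
        Tendsto (fun i => (discr (K i)).natAbs) atTop atTop ∧
        ∀ i, ∃ β : 𝓞 (K i), Polynomial.aeval (β : K i) P = 0 := by
  obtain ⟨a, b, ha, hb, rfl⟩ := hn
  obtain ⟨p₀, F, hF1, hF2, hF3, hp₀, -, hFdeg, k₀, hk₀, hFdisc⟩ := exists_field_complex a ha 0
  have hE := fun i : ℕ => exists_field_complex b hb (i + p₀)
  choose p E hE1 hE2 hE3 hpE hpgt hEdeg kE hkE hEdisc using hE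
  have hcop : ∀ i, IsCoprime (discr F) (discr (E i)) := by
    intro i
    rw [Int.isCoprime_iff_gcd_eq_one, Int.gcd_eq_natAbs, hFdisc, hEdisc i]
    apply Nat.Coprime.pow
    rw [Nat.coprime_primes hp₀ (hpE i)]
    have := hpgt i
    omega
  have hM := fun i => compositum_props F (E i) (hcop i)
  choose hMnf hMdeg hMreal hMdisc using hM
  have hdeg : ∀ i, Module.finrank ℚ ↥(F ⊔ E i) = a * b := fun i => by
    rw [hMdeg i, hFdeg, hEdeg i]
  have htop : (⊤ : IntermediateField ℚ F) ≠ ⊥ := by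
    intro h
    have h1 := IntermediateField.finrank_top' (F := ℚ) (E := F)
    rw [h, IntermediateField.finrank_bot, hFdeg] at h1
    omega
  obtain ⟨β, -, hβ⟩ := exists_nonrational_integer (⊤ : IntermediateField ℚ F) htop
  have hβint : IsIntegral ℤ (β : F) := β.2
  set P : ℤ[X] := minpoly ℤ (β : F) with hP
  have hPne : P ≠ 0 := (minpoly.monic hβint).ne_zero
  have hProot : ∀ z : ℤ, P.eval z ≠ 0 := minpoly_int_no_int_root (β : F) hβint hβ
  refine ⟨P, hPne, hProot, fun i => ↥(F ⊔ E i), fun i => inferInstance, hMnf, hMreal, hdeg,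
    fun i => nonempty_sigma _ (hdeg i), ?_, fun i => ?_⟩
  · apply tendsto_atTop_mono (f := fun i : ℕ => i) _ tendsto_id
    intro i
    have h1 : (discr (E i)).natAbs ∣ (discr ↥(F ⊔ E i)).natAbs :=
      Int.natAbs_dvd_natAbs.mpr (hMdisc i)
    have h2 : 0 < (discr ↥(F ⊔ E i)).natAbs := Int.natAbs_pos.mpr (discr_ne_zero _)
    have h3 := Nat.le_of_dvd h2 h1
    rw [hEdisc i] at h3
    have h4 : p i ≤ p i ^ kE i := Nat.le_self_pow (hkE i).ne' _
    have := hpgt i
    change i ≤ (discr ↥(F ⊔ E i)).natAbs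
    omega
  · let ι : F →+* ↥(F ⊔ E i) :=
      (IntermediateField.inclusion (le_sup_left : F ≤ F ⊔ E i)).toRingHom
    have hint : IsIntegral ℤ (ι (β : F)) := map_isIntegral_int ι hβint
    refine ⟨⟨ι (β : F), hint⟩, ?_⟩
    change Polynomial.aeval (ι (β : F)) P = 0
    rw [aeval_map_ringHom, hP, minpoly.aeval, map_zero]

/-- A root, in a number field, of an integer polynomial without integer roots is not a
rational integer, and its real conjugates are bounded by a constant depending only on the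
polynomial. -/
theorem root_bounded (P : ℤ[X]) (hP : P ≠ 0) (hroot : ∀ z : ℤ, P.eval z ≠ 0) :
    ∃ B : ℝ, ∀ (K : Type) [Field K] [NumberField K] (β : 𝓞 K),
      Polynomial.aeval (β : K) P = 0 →
      (∀ k : ℤ, (β : K) ≠ (k : K)) ∧ ∀ φ : K →+* ℝ, |φ (β : K)| ≤ B := by
  have hfin : (P.rootSet ℝ).Finite := Polynomial.rootSet_finite P ℝ
  obtain ⟨B, hB⟩ := (hfin.image (fun x : ℝ => |x|)).bddAbove
  refine ⟨B, fun K _ _ β hβ => ⟨fun k hk => ?_, fun φ => ?_⟩⟩
  · apply hroot k
    rw [hk] at hβ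
    have h3 : Polynomial.aeval ((k : ℤ) : K) P = ((P.eval k : ℤ) : K) := by
      rw [Polynomial.aeval_def, Polynomial.eval₂_at_intCast]
      simp
    rw [h3] at hβ
    exact_mod_cast hβ
  · apply hB
    refine ⟨φ (β : K), ?_, rfl⟩
    rw [Polynomial.mem_rootSet]
    refine ⟨hP, ?_⟩
    rw [aeval_map_ringHom, hβ, map_zero]

end Vale.Agent.Lib.P007
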