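import Mathlib

open NumberField IntermediateField

namespace Vale.Agent.Lib.P007

theorem index_comap_pow_ker {G : Type*} [Group G] (p : ℕ) [Fact p.Prime] (e : G ≃* (ZMod p)ˣ)
    (N k : ℕ) (hk : 0 < k) (hN : Nat.card (ZMod p)ˣ = N * k) :
    (((powMonoidHom k : (ZMod p)ˣ →* (ZMod p)ˣ).ker).comap e.toMonoidHom).index = N := by
  rw [Subgroup.index_comap_of_surjective _ e.surjective, IsCyclic.index_powMonoidHom_ker, hN,
    Nat.gcd_mul_left_left, Nat.mul_div_cancel _ hk]

/-- Inside the `p`-th cyclotomic field, `p = 2 a b d + 1` prime: a totally real subfield of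
degree `a b` with a subfield of degree `a`. -/
theorem cyclotomic_subfields (p : ℕ) [Fact p.Prime] (L : Type) [Field L] [NumberField L]
    [IsCyclotomicExtension {p} ℚ L] (a b d : ℕ) (ha : 1 < a) (hb : 1 < b)
    (hp : p - 1 = 2 * (a * b) * d) :
    ∃ K F : IntermediateField ℚ L, F ≤ K ∧ Module.finrank ℚ K = a * b ∧
      Module.finrank ℚ F = a ∧ IsTotallyReal K := by
  have hpp : p.Prime := Fact.out
  have : NeZero p := ⟨hpp.ne_zero⟩
  have hd : 0 < d := by
    rcases Nat.eq_zero_or_pos d with h | h
    · subst h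
      have := hpp.two_le
      omega
    · exact h
  have hp3 : 2 < p := by
    have h4 : 2 * 2 ≤ a * b := Nat.mul_le_mul (show 2 ≤ a by omega) (show 2 ≤ b by omega)
    have h8 : 2 * (2 * 2) * 1 ≤ 2 * (a * b) * d :=
      Nat.mul_le_mul (Nat.mul_le_mul_left 2 h4) hd
    omega
  have i3 : IsGalois ℚ L := IsCyclotomicExtension.isGalois {p} ℚ L
  have : IsCMField L := IsCyclotomicExtension.Rat.isCMField L (S := {p}) ⟨p, rfl, hp3⟩
  let e : (L ≃ₐ[ℚ] L) ≃* (ZMod p)ˣ := IsCyclotomicExtension.Rat.galEquivZMod p L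
  have hcard : Nat.card (ZMod p)ˣ = 2 * (a * b) * d := by
    rw [Nat.card_eq_fintype_card, ZMod.card_units_eq_totient, Nat.totient_prime hpp, hp]
  let HK : Subgroup (L ≃ₐ[ℚ] L) :=
    ((powMonoidHom (2 * d) : (ZMod p)ˣ →* (ZMod p)ˣ).ker).comap e.toMonoidHom
  let HF : Subgroup (L ≃ₐ[ℚ] L) :=
    ((powMonoidHom (2 * d * b) : (ZMod p)ˣ →* (ZMod p)ˣ).ker).comap e.toMonoidHom
  have hKF : HK ≤ HF := by
    intro g hg
    have hg' : (e g) ^ (2 * d) = 1 := hg
    show (e g) ^ (2 * d * b) = 1
    rw [pow_mul, hg', one_pow]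
  have hiK : HK.index = a * b :=
    index_comap_pow_ker p e (a * b) (2 * d) (by positivity) (by rw [hcard]; ring)
  have hiF : HF.index = a :=
    index_comap_pow_ker p e a (2 * d * b) (by positivity) (by rw [hcard]; ring)
  refine ⟨fixedField HK, fixedField HF, ?_, ?_, ?_, ?_⟩
  · exact IntermediateField.fixedField_antitone hKF
  · rw [IntermediateField.finrank_eq_fixingSubgroup_index, fixingSubgroup_fixedField, hiK]
  · rw [IntermediateField.finrank_eq_fixingSubgroup_index, fixingSubgroup_fixedField, hiF]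
  · let c : L ≃ₐ[ℚ] L := (IsCMField.complexConj L).restrictScalars ℚ
    have hc2 : c * c = 1 := by
      ext x
      exact IsCMField.complexConj_apply_apply L x
    have hcK : c ∈ HK := by
      show (e c) ^ (2 * d) = 1
      rw [pow_mul, pow_two, ← map_mul, hc2, map_one, one_pow]
    have hle : (fixedField HK).toSubfield ≤ maximalRealSubfield L := by
      intro x hx
      have hx' : c x = x := (IntermediateField.mem_fixedField_iff HK x).mp hx c hcK
      rw [mem_maximalRealSubfield_iff]
      intro φ
      have := IsCMField.complexEmbedding_complexConj L φ x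
      have hx'' : IsCMField.complexConj L x = x := hx'
      rw [hx''] at this
      exact this.symm
    exact isTotallyReal_iff_le_maximalRealSubfield.mpr hle


/-- For `a, b > 1` there is a totally real number field of degree `a b` with a subfield
other than `Q` and itself. -/
theorem exists_totallyReal_with_subfield (a b : ℕ) (ha : 1 < a) (hb : 1 < b) :
    ∃ (K : Type) (_ : Field K) (_ : NumberField K) (_ : IsTotallyReal K),
      Module.finrank ℚ K = a * b ∧ ∃ F : IntermediateField ℚ K, F ≠ ⊥ ∧ F ≠ ⊤ := by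
  obtain ⟨p, hpp, -, hmod⟩ := Nat.exists_prime_gt_modEq_one (k := 2 * (a * b)) 3 (by positivity)
  have : Fact p.Prime := ⟨hpp⟩
  have : NeZero p := ⟨hpp.ne_zero⟩
  have hcyc : IsCyclotomicExtension {p} ℚ (CyclotomicField p ℚ) := by
    have h : @IsCyclotomicExtension {p} ℚ (CyclotomicField p ℚ) _ _
        (CyclotomicField.algebra p ℚ) := inferInstance
    have e : (DivisionRing.toRatAlgebra : Algebra ℚ (CyclotomicField p ℚ)) =
        CyclotomicField.algebra p ℚ := Subsingleton.elim _ _
    rw [e]
    exact h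
  obtain ⟨d, hd⟩ : 2 * (a * b) ∣ p - 1 := (Nat.modEq_iff_dvd' hpp.one_le).mp hmod.symm
  obtain ⟨K, F, hFK, hK, hF, hTR⟩ :=
    cyclotomic_subfields p (CyclotomicField p ℚ) a b d ha hb hd
  -- an element of `F` that is not rational
  have hx : ∃ x ∈ F, x ∉ (⊥ : IntermediateField ℚ (CyclotomicField p ℚ)) := by
    by_contra hcon
    have hle : F ≤ ⊥ := fun x hx => by
      by_contra hx'
      exact hcon ⟨x, hx, hx'⟩
    have hbot : F = ⊥ := le_bot_iff.mp hle
    rw [hbot, IntermediateField.finrank_bot] at hF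
    omega
  -- an element of `K` that is not in `F`
  have hy : ∃ y ∈ K, y ∉ F := by
    by_contra hcon
    have hle : K ≤ F := fun y hy => by
      by_contra hy'
      exact hcon ⟨y, hy, hy'⟩
    have hEq : F = K := le_antisymm hFK hle
    rw [hEq, hK] at hF
    have : a * 2 ≤ a * b := Nat.mul_le_mul_left a hb
    omega
  obtain ⟨x, hxF, hxbot⟩ := hx
  obtain ⟨y, hyK, hyF⟩ := hy
  refine ⟨K, inferInstance, inferInstance, hTR, hK,
    (F.toSubfield.comap (K.val : K →+* CyclotomicField p ℚ)).toIntermediateField (fun q => ?_),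
    ?_, ?_⟩
  · show ((algebraMap ℚ K q : K) : CyclotomicField p ℚ) ∈ F
    have h1 : ((algebraMap ℚ K q : K) : CyclotomicField p ℚ) =
        algebraMap ℚ (CyclotomicField p ℚ) q := by
      simp
    rw [h1]
    exact F.algebraMap_mem q
  · intro h
    have hmem : (⟨x, hFK hxF⟩ : K) ∈
        (F.toSubfield.comap (K.val : K →+* CyclotomicField p ℚ)).toIntermediateField
          (fun q => by
            show ((algebraMap ℚ K q : K) : CyclotomicField p ℚ) ∈ F
            have h1 : ((algebraMap ℚ K q : K) : CyclotomicField p ℚ) =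
                algebraMap ℚ (CyclotomicField p ℚ) q := by
              simp
            rw [h1]
            exact F.algebraMap_mem q) := hxF
    rw [h, IntermediateField.mem_bot] at hmem
    obtain ⟨q, hq⟩ := hmem
    apply hxbot
    rw [IntermediateField.mem_bot]
    refine ⟨q, ?_⟩
    have := congrArg Subtype.val hq
    simp at this
    simpa using this
  · intro h
    have hmem : (⟨y, hyK⟩ : K) ∈ (⊤ : IntermediateField ℚ K) := IntermediateField.mem_top
    rw [← h] at hmem
    exact hyF hmem

end Vale.Agent.Lib.P007
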