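import Vale.Agent.Lib.P007.Uniform
import Vale.Agent.Lib.P007.Cyclo

namespace Vale.Agent.Lib.P007

open Matrix MeasureTheory Topology NumberField Filter

/-- A continuous function vanishing on a set that carries the measure `mu` has integral
zero against `mu`. -/
theorem integral_eq_zero_of_carried {n : ℕ} {f : XSpace n → ℝ} {Z : Set (XSpace n)}
    (hf : ∀ x ∈ Z, f x = 0) (μ : Measure (XSpace n)) (hμ : μ Zᶜ = 0) :
    ∫ x, f x ∂μ = 0 := by
  apply integral_eq_zero_of_ae
  rw [Filter.EventuallyEq, ae_iff]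
  refine measure_mono_null (fun x hx => ?_) hμ
  intro hxZ
  exact hx (hf x hxZ)

/-- One test function for all orderings of the real embeddings: the packets of all orders
containing a fixed nonrational integer avoid its support. -/
theorem exists_test_function_field_uniform {K : Type*} [Field K] [NumberField K] (n : ℕ)
    (hn : 0 < n) (β : 𝓞 K) (hβ : ∀ k : ℤ, (β : K) ≠ (k : K)) :
    ∃ f : XSpace n → ℝ, Continuous f ∧ HasCompactSupport f ∧ (∀ x, 0 ≤ f x) ∧
      (∀ m : Measure (XSpace n), IsProbabilityMeasure m →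
        (∀ h, m.map (XSpace.rmul h) = m) → 0 < ∫ x, f x ∂m) ∧
      ∀ (σ : Fin n ≃ (K →+* ℝ)) (O : Subring (𝓞 K)), β ∈ O →
        ∀ x ∈ packetSupport O σ, f x = 0 := by
  set S : Set (Fin n → ℝ) :=
    Set.range fun σ : Fin n ≃ (K →+* ℝ) => fun j => σ j (β : K) with hS
  have hSfin : S.Finite := Set.finite_range _
  have hSρ : ∀ ρ ∈ S, ∃ j, ρ j ∉ Set.range ((↑) : ℤ → ℝ) := by
    rintro ρ ⟨σ, rfl⟩
    refine ⟨⟨0, hn⟩, ?_⟩
    rintro ⟨k, hk⟩
    apply hβ k
    apply (σ ⟨0, hn⟩).injective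
    simp only [map_intCast]
    exact hk.symm
  obtain ⟨f, hf1, hf2, hf3, hf4, hf5⟩ := exists_test_function_finite n S hSfin hSρ
  refine ⟨f, hf1, hf2, hf3, hf4, ?_⟩
  intro σ O hO x hx
  obtain ⟨L, hL, hstab⟩ := packetSupport_stable σ O β hO hx
  exact hf5 x L hL ⟨_, ⟨σ, rfl⟩, hstab⟩

/-- Every composite degree `n`: a totally real field `K` of degree `n`, orders `O_i` of `K`
with discriminant tending to infinity and one test function `f` of positive Haar integral
that vanishes on all packets of all `O_i`, for all orderings of the real embeddings. -/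
theorem composite_counterexample (n : ℕ) (hn : ∃ a b : ℕ, 1 < a ∧ 1 < b ∧ n = a * b) :
    ∃ (K : Type) (_ : Field K) (_ : NumberField K) (_ : IsTotallyReal K),
      Module.finrank ℚ K = n ∧ Nonempty (Fin n ≃ (K →+* ℝ)) ∧
      ∃ O : ℕ → Subring (𝓞 K), (∀ i, (O i).toAddSubgroup.index ≠ 0) ∧
        Tendsto (fun i => discOrder (O i)) atTop atTop ∧
        ∃ f : XSpace n → ℝ, Continuous f ∧ HasCompactSupport f ∧ (∀ x, 0 ≤ f x) ∧
          (∀ m : Measure (XSpace n), IsProbabilityMeasure m →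
            (∀ h, m.map (XSpace.rmul h) = m) → 0 < ∫ x, f x ∂m) ∧
          ∀ (σ : Fin n ≃ (K →+* ℝ)) (i : ℕ), ∀ x ∈ packetSupport (O i) σ, f x = 0 := by
  obtain ⟨a, b, ha, hb, rfl⟩ := hn
  obtain ⟨K, iF, iN, iT, hdeg, F, hF1, hF2⟩ := exists_totallyReal_with_subfield a b ha hb
  have hpos : 0 < a * b := by positivity
  refine ⟨K, iF, iN, iT, hdeg, nonempty_sigma K hdeg, ?_⟩
  obtain ⟨O, hO1, hO2, hO3⟩ := exists_orders F hF2
  refine ⟨O, hO1, hO2, ?_⟩
  obtain ⟨β, hβF, hβ⟩ := exists_nonrational_integer F hF1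
  obtain ⟨f, hf1, hf2, hf3, hf4, hf5⟩ := exists_test_function_field_uniform (a * b) hpos β hβ
  exact ⟨f, hf1, hf2, hf3, hf4, fun σ i x hx => hf5 σ (O i) (hO3 i β hβF) x hx⟩

/-- Every composite degree, with the packet measures: the integrals of `f` against the
packet measures `mu_{O_i,sigma_i}` are all zero, for every sequence of orderings, and do
not converge to the positive integral of `f` against an invariant probability measure;
the same holds for any measures carried by the packets. -/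
theorem composite_counterexample_measure (n : ℕ)
    (hn : ∃ a b : ℕ, 1 < a ∧ 1 < b ∧ n = a * b) :
    ∃ (K : Type) (_ : Field K) (_ : NumberField K) (_ : IsTotallyReal K),
      Module.finrank ℚ K = n ∧ Nonempty (Fin n ≃ (K →+* ℝ)) ∧
      ∃ O : ℕ → Subring (𝓞 K), (∀ i, (O i).toAddSubgroup.index ≠ 0) ∧
        Tendsto (fun i => discOrder (O i)) atTop atTop ∧
        ∃ f : XSpace n → ℝ, Continuous f ∧ HasCompactSupport f ∧
          ∀ σ : ℕ → (Fin n ≃ (K →+* ℝ)),
            (∀ i, ∫ x, f x ∂(packetMeasure (O i) (σ i)) = 0) ∧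
            (∀ i, ∀ μ : Measure (XSpace n), μ (packetSupport (O i) (σ i))ᶜ = 0 →
              ∫ x, f x ∂μ = 0) ∧
            ∀ m : Measure (XSpace n), IsProbabilityMeasure m →
              (∀ h, m.map (XSpace.rmul h) = m) →
              0 < ∫ x, f x ∂m ∧
              ¬ Tendsto (fun i => ∫ x, f x ∂(packetMeasure (O i) (σ i))) atTop
                (𝓝 (∫ x, f x ∂m)) := by
  obtain ⟨K, iF, iN, iT, hdeg, hσ, O, hO1, hO2, f, hf1, hf2, _, hf4, hf5⟩ :=
    composite_counterexample n hn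
  refine ⟨K, iF, iN, iT, hdeg, hσ, O, hO1, hO2, f, hf1, hf2, fun σ => ?_⟩
  have h0 : ∀ i, ∫ x, f x ∂(packetMeasure (O i) (σ i)) = 0 :=
    fun i => integral_packetMeasure_eq_zero (O i) (σ i) hf1 (hf5 (σ i) i)
  refine ⟨h0, fun i μ hμ => integral_eq_zero_of_carried (hf5 (σ i) i) μ hμ, ?_⟩
  intro m hm hinv
  refine ⟨hf4 m hm hinv, fun hT => ?_⟩
  have hfun : (fun i => ∫ x, f x ∂(packetMeasure (O i) (σ i))) = fun _ => (0 : ℝ) :=
    funext h0
  rw [hfun] at hT
  have := tendsto_nhds_unique hT tendsto_const_nhds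
  exact (hf4 m hm hinv).ne this.symm

/-- Sequences of fields: if all the orders `O_i` (of number fields `K_i`) contain a root of
one nonzero integer polynomial `P` without integer roots, the packet measures of the
`(O_i, sigma_i)` do not converge to an invariant probability measure; the test function
depends on `n` and `P` only. -/
theorem common_root_sequences (n : ℕ) (hn : 0 < n) (P : Polynomial ℤ) (hP : P ≠ 0)
    (hroot : ∀ z : ℤ, P.eval z ≠ 0) :
    ∃ f : XSpace n → ℝ, Continuous f ∧ HasCompactSupport f ∧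
      (∀ m : Measure (XSpace n), IsProbabilityMeasure m →
        (∀ h, m.map (XSpace.rmul h) = m) → 0 < ∫ x, f x ∂m) ∧
      ∀ (K : ℕ → Type) [∀ i, Field (K i)] [∀ i, NumberField (K i)]
        (σ : ∀ i, Fin n ≃ (K i →+* ℝ)) (O : ∀ i, Subring (𝓞 (K i))),
        (∀ i, ∃ β : 𝓞 (K i), β ∈ O i ∧ Polynomial.aeval (β : K i) P = 0) →
        (∀ i, ∀ x ∈ packetSupport (O i) (σ i), f x = 0) ∧
        (∀ i, ∫ x, f x ∂(packetMeasure (O i) (σ i)) = 0) ∧
        ∀ m : Measure (XSpace n), IsProbabilityMeasure m →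
          (∀ h, m.map (XSpace.rmul h) = m) →
          ¬ Tendsto (fun i => ∫ x, f x ∂(packetMeasure (O i) (σ i))) atTop
            (𝓝 (∫ x, f x ∂m)) := by
  obtain ⟨f, hf1, hf2, _, hf4, hf5⟩ := common_root_obstruction n hn P hP hroot
  refine ⟨f, hf1, hf2, hf4, ?_⟩
  intro K _ _ σ O hβ
  have hsupp : ∀ i, ∀ x ∈ packetSupport (O i) (σ i), f x = 0 := by
    intro i x hx
    obtain ⟨β, hβO, hβP⟩ := hβ i
    exact hf5 (K i) (σ i) (O i) β hβO hβP x hx
  have h0 : ∀ i, ∫ x, f x ∂(packetMeasure (O i) (σ i)) = 0 :=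
    fun i => integral_packetMeasure_eq_zero (O i) (σ i) hf1 (hsupp i)
  refine ⟨hsupp, h0, fun m hm hinv hT => ?_⟩
  have hfun : (fun i => ∫ x, f x ∂(packetMeasure (O i) (σ i))) = fun _ => (0 : ℝ) :=
    funext h0
  rw [hfun] at hT
  have := tendsto_nhds_unique hT tendsto_const_nhds
  exact (hf4 m hm hinv).ne this.symm

end Vale.Agent.Lib.P007
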