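import Vale.Agent.Lib.P007.Final

namespace Vale.Agent.Lib.P007

open Matrix MeasureTheory Topology NumberField Filter Polynomial IntermediateField

/-- Inside the `p`-th cyclotomic field, `p = 2 d e + 1` prime, `d > 1`: the subfield of degree
`d`, realised inside `ℂ`, is a totally real Galois number field whose discriminant is, up to
sign, a positive power of `p`. -/
theorem cyclotomic_image (p : ℕ) [Fact p.Prime] (L : Type) [Field L] [NumberField L]
    [IsCyclotomicExtension {p} ℚ L] (d e : ℕ) (hd : 1 < d) (hp : p - 1 = 2 * d * e) :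
    ∃ (F : IntermediateField ℚ ℂ) (_ : NumberField F) (_ : IsGalois ℚ F) (_ : IsTotallyReal F),
      Module.finrank ℚ F = d ∧ ∃ k : ℕ, 0 < k ∧ (discr F).natAbs = p ^ k := by
  have hpp : p.Prime := Fact.out
  have : NeZero p := ⟨hpp.ne_zero⟩
  have he : 0 < e := by
    rcases Nat.eq_zero_or_pos e with h | h
    · subst h
      have := hpp.two_le
      omega
    · exact h
  have hp3 : 2 < p := by
    have h4 : 2 * 2 * 1 ≤ 2 * d * e := Nat.mul_le_mul (Nat.mul_le_mul_left 2 (by omega)) he
    omega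
  have i3 : IsGalois ℚ L := IsCyclotomicExtension.isGalois {p} ℚ L
  have : IsCMField L := IsCyclotomicExtension.Rat.isCMField L (S := {p}) ⟨p, rfl, hp3⟩
  let ee : (L ≃ₐ[ℚ] L) ≃* (ZMod p)ˣ := IsCyclotomicExtension.Rat.galEquivZMod p L
  have hcard : Nat.card (ZMod p)ˣ = 2 * d * e := by
    rw [Nat.card_eq_fintype_card, ZMod.card_units_eq_totient, Nat.totient_prime hpp, hp]
  let HK : Subgroup (L ≃ₐ[ℚ] L) :=
    ((powMonoidHom (2 * e) : (ZMod p)ˣ →* (ZMod p)ˣ).ker).comap ee.toMonoidHom
  have hiK : HK.index = d :=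
    index_comap_pow_ker p ee d (2 * e) (by positivity) (by rw [hcard]; ring)
  have hnormal : HK.Normal := (MonoidHom.normal_ker _).comap ee.toMonoidHom
  set T : IntermediateField ℚ L := fixedField HK with hT
  have hTdeg : Module.finrank ℚ T = d := by
    rw [IntermediateField.finrank_eq_fixingSubgroup_index, fixingSubgroup_fixedField, hiK]
  have hTgal : IsGalois ℚ T := IsGalois.of_fixedField_normal_subgroup HK
  have hTreal : IsTotallyReal T := by
    let c : L ≃ₐ[ℚ] L := (IsCMField.complexConj L).restrictScalars ℚ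
    have hc2 : c * c = 1 := by
      ext x
      exact IsCMField.complexConj_apply_apply L x
    have hcK : c ∈ HK := by
      show (ee c) ^ (2 * e) = 1
      rw [pow_mul, pow_two, ← map_mul, hc2, map_one, one_pow]
    have hle : (fixedField HK).toSubfield ≤ maximalRealSubfield L := by
      intro x hx
      have hx' : c x = x := (IntermediateField.mem_fixedField_iff HK x).mp hx c hcK
      rw [mem_maximalRealSubfield_iff]
      intro φ
      have := IsCMField.complexEmbedding_complexConj L φ x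
      have hx'' : IsCMField.complexConj L x = x := hx'
      rw [hx''] at this
      exact this.symm
    exact isTotallyReal_iff_le_maximalRealSubfield.mpr hle
  -- the discriminant of `T`
  have hdvd : discr T ∣ discr L := discr_dvd_discr T L
  have hdiscL : (discr L).natAbs = p ^ (p - 2) := by
    rw [IsCyclotomicExtension.Rat.discr_prime p L, Int.natAbs_mul, Int.natAbs_pow, Int.natAbs_pow,
      Int.natAbs_neg, Int.natAbs_one, one_pow, one_mul, Int.natAbs_natCast]
  have hdvd' : (discr T).natAbs ∣ p ^ (p - 2) := by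
    rw [← hdiscL]
    exact Int.natAbs_dvd_natAbs.mpr hdvd
  obtain ⟨k, -, hk⟩ := (Nat.dvd_prime_pow hpp).mp hdvd'
  have hk0 : 0 < k := by
    rcases Nat.eq_zero_or_pos k with h | h
    · subst h
      have h2 := abs_discr_gt_two (K := T) (by rw [hTdeg]; exact hd)
      rw [Int.abs_eq_natAbs, hk] at h2
      norm_num at h2
    · exact h
  -- transport to `ℂ`
  let φ : L →ₐ[ℚ] ℂ := (Classical.arbitrary (L →+* ℂ)).toRatAlgHom
  let ε : T ≃ₐ[ℚ] T.map φ := IntermediateField.equivMap T φ
  have hfd : FiniteDimensional ℚ (T.map φ) := Module.Finite.equiv ε.toLinearEquiv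
  have hnf : NumberField (T.map φ) := @NumberField.mk _ _ inferInstance hfd
  refine ⟨T.map φ, hnf, IsGalois.of_algEquiv ε, IsTotallyReal.ofRingEquiv ε.toRingEquiv, ?_,
    k, hk0, ?_⟩
  · rw [← ε.toLinearEquiv.finrank_eq, hTdeg]
  · rw [← discr_eq_discr_of_algEquiv T ε, hk]

/-- For `d > 1` and any bound `N`: a prime `p > N` and a totally real Galois number field of
degree `d` inside `ℂ` whose discriminant is, up to sign, a positive power of `p`. -/
theorem exists_field_complex (d : ℕ) (hd : 1 < d) (N : ℕ) :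
    ∃ (p : ℕ) (F : IntermediateField ℚ ℂ) (_ : NumberField F) (_ : IsGalois ℚ F)
      (_ : IsTotallyReal F), p.Prime ∧ N < p ∧ Module.finrank ℚ F = d ∧
      ∃ k : ℕ, 0 < k ∧ (discr F).natAbs = p ^ k := by
  obtain ⟨p, hpp, hN, hmod⟩ := Nat.exists_prime_gt_modEq_one (k := 2 * d) N (by positivity)
  have : Fact p.Prime := ⟨hpp⟩
  have : NeZero p := ⟨hpp.ne_zero⟩
  have hcyc : IsCyclotomicExtension {p} ℚ (CyclotomicField p ℚ) := by
    have h : @IsCyclotomicExtension {p} ℚ (CyclotomicField p ℚ) _ _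
        (CyclotomicField.algebra p ℚ) := inferInstance
    have e : (DivisionRing.toRatAlgebra : Algebra ℚ (CyclotomicField p ℚ)) =
        CyclotomicField.algebra p ℚ := Subsingleton.elim _ _
    rw [e]
    exact h
  obtain ⟨e, he⟩ : 2 * d ∣ p - 1 := (Nat.modEq_iff_dvd' hpp.one_le).mp hmod.symm
  obtain ⟨F, h1, h2, h3, h4, h5⟩ := cyclotomic_image p (CyclotomicField p ℚ) d e hd he
  exact ⟨p, F, h1, h2, h3, hpp, hN, h4, h5⟩

/-- The compositum of two totally real number fields inside `ℂ` with coprime discriminants,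
the first one Galois: it is totally real, its degree is the product of the degrees, and its
discriminant is a multiple of the discriminant of the second field. -/
theorem compositum_props (F E : IntermediateField ℚ ℂ) [NumberField F] [NumberField E]
    [IsGalois ℚ F] [IsTotallyReal F] [IsTotallyReal E]
    (hcop : IsCoprime (discr F) (discr E)) :
    ∃ (_ : NumberField ↥(F ⊔ E)),
      Module.finrank ℚ ↥(F ⊔ E) = Module.finrank ℚ F * Module.finrank ℚ E ∧
      IsTotallyReal ↥(F ⊔ E) ∧ discr E ∣ discr ↥(F ⊔ E) := by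
  have hfd : FiniteDimensional ℚ ↥(F ⊔ E) := inferInstance
  have hnf : NumberField ↥(F ⊔ E) := @NumberField.mk _ _ inferInstance hfd
  refine ⟨hnf, ?_⟩
  let K₁ : IntermediateField ℚ ↥(F ⊔ E) := IntermediateField.restrict (le_sup_left : F ≤ F ⊔ E)
  let K₂ : IntermediateField ℚ ↥(F ⊔ E) := IntermediateField.restrict (le_sup_right : E ≤ F ⊔ E)
  let e₁ : F ≃ₐ[ℚ] K₁ := IntermediateField.restrictAlgEquiv le_sup_left
  let e₂ : E ≃ₐ[ℚ] K₂ := IntermediateField.restrictAlgEquiv le_sup_right
  have hg : IsGalois ℚ K₁ := IsGalois.of_algEquiv e₁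
  have hd1 : discr K₁ = discr F := (discr_eq_discr_of_algEquiv F e₁).symm
  have hd2 : discr K₂ = discr E := (discr_eq_discr_of_algEquiv E e₂).symm
  have hld : K₁.LinearDisjoint K₂ :=
    linearDisjoint_of_isGalois_isCoprime_discr ↥(F ⊔ E) K₁ K₂ (by rw [hd1, hd2]; exact hcop)
  have hsup' : IntermediateField.restrict (le_sup_left : F ≤ F ⊔ E) ⊔
      IntermediateField.restrict (le_sup_right : E ≤ F ⊔ E) = ⊤ := by
    apply IntermediateField.lift_injective (F ⊔ E)
    rw [IntermediateField.lift_sup, IntermediateField.lift_restrict,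
      IntermediateField.lift_restrict, IntermediateField.lift_top]
  have hsup : K₁ ⊔ K₂ = ⊤ := hsup'
  refine ⟨?_, ?_, ?_⟩
  · rw [← IntermediateField.finrank_top' (F := ℚ) (E := ↥(F ⊔ E)), ← hsup, hld.finrank_sup,
      ← e₁.toLinearEquiv.finrank_eq, ← e₂.toLinearEquiv.finrank_eq]
  · have h1 : IsTotallyReal K₁ := IsTotallyReal.ofRingEquiv e₁.toRingEquiv
    have h2 : IsTotallyReal K₂ := IsTotallyReal.ofRingEquiv e₂.toRingEquiv
    have h1' : K₁.toSubfield ≤ maximalRealSubfield ↥(F ⊔ E) :=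
      (isTotallyReal_iff_le_maximalRealSubfield (E := K₁.toSubfield)).mp h1
    have h2' : K₂.toSubfield ≤ maximalRealSubfield ↥(F ⊔ E) :=
      (isTotallyReal_iff_le_maximalRealSubfield (E := K₂.toSubfield)).mp h2
    let R : IntermediateField ℚ ↥(F ⊔ E) :=
      (maximalRealSubfield ↥(F ⊔ E)).toIntermediateField (fun q => by
        rw [eq_ratCast]
        exact SubfieldClass.ratCast_mem _ q)
    have hR : K₁ ⊔ K₂ ≤ R := sup_le (fun x hx => h1' hx) (fun x hx => h2' hx)
    rw [hsup] at hR
    rw [← maximalRealSubfield_eq_top_iff_isTotallyReal, eq_top_iff]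
    intro x _
    exact hR (IntermediateField.mem_top (x := x))
  · rw [← hd2]
    exact discr_dvd_discr K₂ ↥(F ⊔ E)

/-- The minimal polynomial over `Z` of an integral element that is not an integer has no
integer root. -/
theorem minpoly_int_no_int_root {A : Type*} [Field A] [CharZero A] (β : A)
    (hβ : IsIntegral ℤ β) (hnr : ∀ k : ℤ, β ≠ (k : A)) :
    ∀ z : ℤ, (minpoly ℤ β).eval z ≠ 0 := by
  intro z hz
  have hroot : (minpoly ℤ β).IsRoot z := hz
  obtain ⟨Q, hQ⟩ := Polynomial.dvd_iff_isRoot.mpr hroot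
  have h0 : Polynomial.aeval β (minpoly ℤ β) = 0 := minpoly.aeval ℤ β
  rw [hQ, map_mul] at h0
  have h1 : Polynomial.aeval β (X - C z : ℤ[X]) = β - (z : A) := by simp
  rw [h1] at h0
  have hQβ : Polynomial.aeval β Q = 0 :=
    (mul_eq_zero.mp h0).resolve_left (sub_ne_zero.mpr (hnr z))
  have hdvd := minpoly.isIntegrallyClosed_dvd hβ hQβ
  have hmonic := minpoly.monic hβ
  have hQ0 : Q ≠ 0 := by
    rintro rfl
    rw [mul_zero] at hQ
    exact hmonic.ne_zero hQ
  have hdeg : (minpoly ℤ β).natDegree = 1 + Q.natDegree := by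
    conv_lhs => rw [hQ]
    rw [Polynomial.natDegree_mul (X_sub_C_ne_zero z) hQ0, Polynomial.natDegree_X_sub_C]
  have hle := Polynomial.natDegree_le_of_dvd hdvd hQ0
  omega

theorem aeval_map_ringHom {A B : Type*} [CommRing A] [CommRing B] (g : A →+* B) (x : A)
    (P : ℤ[X]) : Polynomial.aeval (g x) P = g (Polynomial.aeval x P) := by
  rw [Polynomial.aeval_def, Polynomial.aeval_def, Polynomial.hom_eval₂]
  congr 1
  exact Subsingleton.elim _ _

/-- Every composite degree `n`, with maximal orders: totally real fields `K_i` of degree `n`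
whose discriminants tend to infinity, and one normalised test function `f` such that, for
all orderings, the packet measures of the maximal orders are probability measures, `f`
vanishes on the packets, its integrals against the packet measures are zero and its integral
against every invariant probability measure is positive. The `K_i` are the composita of one
field of degree `a` with fields of degree `b` of coprime discriminants. -/
theorem composite_maximal_final (n : ℕ) (hn : ∃ a b : ℕ, 1 < a ∧ 1 < b ∧ n = a * b) :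
    ∃ (K : ℕ → Type) (_ : ∀ i, Field (K i)) (_ : ∀ i, NumberField (K i))
      (_ : ∀ i, IsTotallyReal (K i)),
      (∀ i, Module.finrank ℚ (K i) = n) ∧ (∀ i, Nonempty (Fin n ≃ (K i →+* ℝ))) ∧
      Tendsto (fun i => (discr (K i)).natAbs) atTop atTop ∧
      ∃ f : XSpace n → ℝ, Continuous f ∧ HasCompactSupport f ∧ (∀ x, 0 ≤ f x) ∧
        f (XSpace.mk 1) = 1 ∧
        ∀ σ : ∀ i, Fin n ≃ (K i →+* ℝ),
          (∀ i, IsProbabilityMeasure (packetMeasure (⊤ : Subring (𝓞 (K i))) (σ i))) ∧
          (∀ i, (packetSupport (⊤ : Subring (𝓞 (K i))) (σ i)).Nonempty) ∧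
          (∀ i, ∀ x ∈ packetSupport (⊤ : Subring (𝓞 (K i))) (σ i), f x = 0) ∧
          (∀ i, ∫ x, f x ∂(packetMeasure (⊤ : Subring (𝓞 (K i))) (σ i)) = 0) ∧
          ∀ m : Measure (XSpace n), IsProbabilityMeasure m →
            (∀ h, m.map (XSpace.rmul h) = m) →
            0 < ∫ x, f x ∂m ∧
            ¬ Tendsto (fun i => ∫ x, f x ∂(packetMeasure (⊤ : Subring (𝓞 (K i))) (σ i)))
              atTop (𝓝 (∫ x, f x ∂m)) := by
  obtain ⟨a, b, ha, hb, rfl⟩ := hn
  obtain ⟨p₀, F, hF1, hF2, hF3, hp₀, -, hFdeg, k₀, hk₀, hFdisc⟩ := exists_field_complex a ha 0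
  have hE := fun i : ℕ => exists_field_complex b hb (i + p₀)
  choose p E hE1 hE2 hE3 hpE hpgt hEdeg kE hkE hEdisc using hE
  have hcop : ∀ i, IsCoprime (discr F) (discr (E i)) := by
    intro i
    rw [Int.isCoprime_iff_gcd_eq_one, Int.gcd_eq_natAbs, hFdisc, hEdisc i]
    apply Nat.Coprime.pow
    rw [Nat.coprime_primes hp₀ (hpE i)]
    have := hpgt i
    omega
  have hM := fun i => compositum_props F (E i) (hcop i)
  choose hMnf hMdeg hMreal hMdisc using hM
  have hpos : 0 < a * b := by positivity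
  have hdeg : ∀ i, Module.finrank ℚ ↥(F ⊔ E i) = a * b := fun i => by
    rw [hMdeg i, hFdeg, hEdeg i]
  -- a common root of one integer polynomial without integer roots
  have htop : (⊤ : IntermediateField ℚ F) ≠ ⊥ := by
    intro h
    have h1 := IntermediateField.finrank_top' (F := ℚ) (E := F)
    rw [h, IntermediateField.finrank_bot, hFdeg] at h1
    omega
  obtain ⟨β, -, hβ⟩ := exists_nonrational_integer (⊤ : IntermediateField ℚ F) htop
  have hβint : IsIntegral ℤ (β : F) := β.2
  set P : ℤ[X] := minpoly ℤ (β : F) with hP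
  have hPne : P ≠ 0 := (minpoly.monic hβint).ne_zero
  have hProot : ∀ z : ℤ, P.eval z ≠ 0 := minpoly_int_no_int_root (β : F) hβint hβ
  obtain ⟨f, hf1, hf2, hf3, hone, hf4, hf5⟩ := obstruction_root_one (a * b) hpos P hPne hProot
  have hrootK : ∀ i, ∃ βi : 𝓞 ↥(F ⊔ E i), βi ∈ (⊤ : Subring (𝓞 ↥(F ⊔ E i))) ∧
      Polynomial.aeval (βi : ↥(F ⊔ E i)) P = 0 := by
    intro i
    let ι : F →+* ↥(F ⊔ E i) :=
      (IntermediateField.inclusion (le_sup_left : F ≤ F ⊔ E i)).toRingHom
    have hint : IsIntegral ℤ (ι (β : F)) := map_isIntegral_int ι hβint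
    refine ⟨⟨ι (β : F), hint⟩, Subring.mem_top _, ?_⟩
    change Polynomial.aeval (ι (β : F)) P = 0
    rw [aeval_map_ringHom, hP, minpoly.aeval, map_zero]
  refine ⟨fun i => ↥(F ⊔ E i), fun i => inferInstance, hMnf, hMreal, hdeg,
    fun i => nonempty_sigma _ (hdeg i), ?_, f, hf1, hf2, hf3, hone, fun σ => ?_⟩
  · apply tendsto_atTop_mono (f := fun i : ℕ => i) _ tendsto_id
    intro i
    have h1 : (discr (E i)).natAbs ∣ (discr ↥(F ⊔ E i)).natAbs :=
      Int.natAbs_dvd_natAbs.mpr (hMdisc i)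
    have h2 : 0 < (discr ↥(F ⊔ E i)).natAbs := Int.natAbs_pos.mpr (discr_ne_zero _)
    have h3 := Nat.le_of_dvd h2 h1
    rw [hEdisc i] at h3
    have h4 : p i ≤ p i ^ kE i := Nat.le_self_pow (hkE i).ne' _
    have := hpgt i
    change i ≤ (discr ↥(F ⊔ E i)).natAbs
    omega
  · have htopi : ∀ i, (⊤ : Subring (𝓞 ↥(F ⊔ E i))).toAddSubgroup.index ≠ 0 := by
      intro i
      have h : (⊤ : Subring (𝓞 ↥(F ⊔ E i))).toAddSubgroup = ⊤ := rfl
      rw [h, AddSubgroup.index_top]
      exact one_ne_zero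
    have hsupp : ∀ i, ∀ x ∈ packetSupport (⊤ : Subring (𝓞 ↥(F ⊔ E i))) (σ i), f x = 0 := by
      intro i x hx
      obtain ⟨βi, hβO, hβP⟩ := hrootK i
      exact hf5 ↥(F ⊔ E i) (σ i) ⊤ βi hβO hβP x hx
    have h0 : ∀ i, ∫ x, f x ∂(packetMeasure (⊤ : Subring (𝓞 ↥(F ⊔ E i))) (σ i)) = 0 :=
      fun i => integral_packetMeasure_eq_zero _ (σ i) hf1 (hsupp i)
    refine ⟨fun i => isProbabilityMeasure_packetMeasure _ (htopi i) (σ i),
      fun i => packetSupport_nonempty _ (htopi i) (σ i), hsupp, h0, ?_⟩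
    intro m hm hinv
    refine ⟨hf4 m hm hinv, fun hT => ?_⟩
    have hfun : (fun i => ∫ x, f x ∂(packetMeasure (⊤ : Subring (𝓞 ↥(F ⊔ E i))) (σ i)))
        = fun _ => (0 : ℝ) := funext h0
    rw [hfun] at hT
    have := tendsto_nhds_unique hT tendsto_const_nhds
    exact (hf4 m hm hinv).ne this.symm

end Vale.Agent.Lib.P007
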