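import Mathlib

namespace Vale.Agent.Lib.P007

open Matrix MeasureTheory

/-- The subgroup `SL_n(Z)` of `SL_n(R)`. -/
def GammaSL (n : ℕ) : Subgroup (SpecialLinearGroup (Fin n) ℝ) :=
  (SpecialLinearGroup.map (Int.castRingHom ℝ)).range

/-- `X_n = SL_n(Z)\SL_n(R)`: the orbit space of `SL_n(Z)` acting on `SL_n(R)` by left
multiplication, with the quotient topology and its Borel sigma-algebra. -/
def XSpace (n : ℕ) : Type :=
  MulAction.orbitRel.Quotient (GammaSL n) (SpecialLinearGroup (Fin n) ℝ)

instance instTopologicalSpaceXSpace (n : ℕ) : TopologicalSpace (XSpace n) :=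
  inferInstanceAs (TopologicalSpace
    (MulAction.orbitRel.Quotient (GammaSL n) (SpecialLinearGroup (Fin n) ℝ)))

instance instMeasurableSpaceXSpace (n : ℕ) : MeasurableSpace (XSpace n) := borel (XSpace n)

instance instBorelSpaceXSpace (n : ℕ) : BorelSpace (XSpace n) := ⟨rfl⟩

/-- The class `SL_n(Z) g` of `g`. -/
def XSpace.mk {n : ℕ} (g : SpecialLinearGroup (Fin n) ℝ) : XSpace n :=
  Quotient.mk (MulAction.orbitRel (GammaSL n) (SpecialLinearGroup (Fin n) ℝ)) g

/-- Right translation `SL_n(Z) g ↦ SL_n(Z) g h` on `X_n`. -/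
def XSpace.rmul {n : ℕ} (h : SpecialLinearGroup (Fin n) ℝ) : XSpace n → XSpace n :=
  Quotient.map (fun g => g * h) (by
    rintro a b ⟨γ, rfl⟩
    exact ⟨γ, by simp [Subgroup.smul_def, mul_assoc]⟩)

/-- `x` is the point of `X_n` given by the lattice `L`: some representative `g` of `x`
has rows whose integer span is `L`. -/
def IsLatticeOf {n : ℕ} (x : XSpace n) (L : Set (Fin n → ℝ)) : Prop :=
  ∃ g : SpecialLinearGroup (Fin n) ℝ, x = XSpace.mk g ∧
    (Submodule.span ℤ (Set.range fun i : Fin n => (g : Matrix (Fin n) (Fin n) ℝ) i) :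
      Set (Fin n → ℝ)) = L

section NumberFieldPart

variable {K : Type*} [Field K] [NumberField K]

/-- The additive subgroup `I` of `K` is stable under multiplication by the order `O`. -/
def IsOModule (O : Subring (NumberField.RingOfIntegers K)) (I : Submodule ℤ K) : Prop :=
  ∀ a ∈ O, ∀ x ∈ I, (a : K) * x ∈ I

/-- `I` is a proper invertible fractional ideal of the order `O`: an `O`-submodule of `K`
whose multiplier ring is exactly `O` and with `I * J = O` for some `O`-submodule `J`. -/
def IsProperInvertible (O : Subring (NumberField.RingOfIntegers K)) (I : Submodule ℤ K) :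
    Prop :=
  IsOModule O I ∧
  (∀ α : K, (∀ x ∈ I, α * x ∈ I) → ∃ a ∈ O, (a : K) = α) ∧
  ∃ J : Submodule ℤ K, IsOModule O J ∧ ∀ x : K, x ∈ I * J ↔ ∃ a ∈ O, (a : K) = x

/-- Absolute discriminant of the order `O`: `|Disc K| * [O_K : O]^2`. -/
noncomputable def discOrder (O : Subring (NumberField.RingOfIntegers K)) : ℕ :=
  (NumberField.discr K).natAbs * O.toAddSubgroup.index ^ 2

/-- The lattice `c * sigma(I) * w * a(u)` in `R^n`: all vectors
`(c * sigma_j(y) * w_j * exp(u_j))_j` with `y` in `I`. -/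
def packetLattice {n : ℕ} (σ : Fin n ≃ (K →+* ℝ)) (I : Submodule ℤ K)
    (w u : Fin n → ℝ) (c : ℝ) : Set (Fin n → ℝ) :=
  {v | ∃ y ∈ I, ∀ j, v j = c * σ j y * w j * Real.exp (u j)}

/-- The union of the orbits of the packet of `(O, sigma)`: all points of `X_n` given by a
lattice `c * sigma(I) * w * a(u)` with `I` a proper invertible fractional `O`-ideal,
`w` a diagonal sign matrix, `a(u)` in `A_n` (so the `u_j` sum to zero) and `c > 0`
(the covolume-one normalisation is forced by the representative having determinant one). -/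
def packetSupport {n : ℕ} (O : Subring (NumberField.RingOfIntegers K))
    (σ : Fin n ≃ (K →+* ℝ)) : Set (XSpace n) :=
  {x | ∃ (I : Submodule ℤ K) (w u : Fin n → ℝ) (c : ℝ),
      IsProperInvertible O I ∧ (∀ j, w j = 1 ∨ w j = -1) ∧ ∑ j, u j = 0 ∧ 0 < c ∧
      IsLatticeOf x (packetLattice σ I w u c)}

end NumberFieldPart

end Vale.Agent.Lib.P007
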