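import Vale.Agent.Lib.P007.Prob
import Vale.Agent.Lib.P007.Biquad

namespace Vale.Agent.Lib.P007

open Matrix MeasureTheory Topology NumberField Filter Polynomial

/-- The obstruction for finitely many multipliers, with a normalised test function: `f` is
nonnegative, equals one at the point of the lattice `Z^n` and vanishes at every point whose
lattice is stable under coordinatewise multiplication by a vector of the finite set `S`. -/
theorem exists_test_function_finite_one (n : ℕ) (S : Set (Fin n → ℝ)) (hS : S.Finite)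
    (hρ : ∀ ρ ∈ S, ∃ j, ρ j ∉ Set.range ((↑) : ℤ → ℝ)) :
    ∃ f : XSpace n → ℝ, Continuous f ∧ HasCompactSupport f ∧ (∀ x, 0 ≤ f x) ∧
      f (XSpace.mk 1) = 1 ∧
      (∀ m : Measure (XSpace n), IsProbabilityMeasure m →
        (∀ h, m.map (XSpace.rmul h) = m) → 0 < ∫ x, f x ∂m) ∧
      ∀ (x : XSpace n) (L : Set (Fin n → ℝ)), IsLatticeOf x L →
        (∃ ρ ∈ S, ∀ v ∈ L, (fun j => v j * ρ j) ∈ L) → f x = 0 := by
  set C : Set (SpecialLinearGroup (Fin n) ℝ) := ⋃ ρ ∈ S, stableSet n ρ with hC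
  have hCc : IsClosed C := hS.isClosed_biUnion fun ρ _ => isClosed_stableSet n ρ
  set U : Set (XSpace n) := XSpace.mk '' Cᶜ with hU
  have hUo : IsOpen U := (isOpenQuotientMap_mk n).isOpenMap _ hCc.isOpen_compl
  have hUmem : ∀ g : SpecialLinearGroup (Fin n) ℝ, XSpace.mk g ∈ U → g ∉ C := by
    rintro g ⟨g', hg', hgg'⟩ hg
    obtain ⟨γ, hγ, rfl⟩ := (mk_eq_mk_iff g' g).mp hgg'
    apply hg'
    rw [hC, Set.mem_iUnion₂] at hg ⊢
    obtain ⟨ρ, hρS, hgρ⟩ := hg
    exact ⟨ρ, hρS, stableSet_mul_mem hγ hgρ⟩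
  have hx0 : XSpace.mk (1 : SpecialLinearGroup (Fin n) ℝ) ∈ U := by
    refine ⟨1, ?_, rfl⟩
    intro h1
    rw [hC, Set.mem_iUnion₂] at h1
    obtain ⟨ρ, hρS, h1ρ⟩ := h1
    exact one_notMem_stableSet (hρ ρ hρS) h1ρ
  obtain ⟨f, hf1, hf0, hfc, hf01⟩ := exists_continuous_one_zero_of_isCompact
    (isCompact_singleton (x := XSpace.mk (1 : SpecialLinearGroup (Fin n) ℝ)))
    hUo.isClosed_compl (Set.disjoint_singleton_left.mpr (fun h => h hx0))
  have hone : f (XSpace.mk 1) = 1 := hf1 (Set.mem_singleton _)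
  refine ⟨f, f.continuous, hfc, fun x => (hf01 x).1, hone, ?_, ?_⟩
  · intro m hm hinv
    have hint : Integrable f m := f.continuous.integrable_of_hasCompactSupport hfc
    rw [integral_pos_iff_support_of_nonneg (fun x => (hf01 x).1) hint]
    have hopen : IsOpen (Function.support f) := f.continuous.isOpen_support
    refine measure_pos_of_isOpen m hinv hopen ⟨XSpace.mk 1, ?_⟩
    simp [Function.mem_support, hone]
  · rintro x L ⟨g, rfl, hL⟩ ⟨ρ, hρS, hstab⟩
    apply hf0
    intro hmem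
    refine hUmem g hmem ?_
    rw [hC, Set.mem_iUnion₂]
    refine ⟨ρ, hρS, mem_stableSet_of_rows ?_⟩
    intro v hv
    have hv' : v ∈ L := by rw [← hL]; exact hv
    have := hstab v hv'
    rw [← hL] at this
    exact this

/-- One normalised test function for all orderings of the real embeddings of `K`. -/
theorem obstruction_field_one {K : Type*} [Field K] [NumberField K] (n : ℕ)
    (hn : 0 < n) (β : 𝓞 K) (hβ : ∀ k : ℤ, (β : K) ≠ (k : K)) :
    ∃ f : XSpace n → ℝ, Continuous f ∧ HasCompactSupport f ∧ (∀ x, 0 ≤ f x) ∧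
      f (XSpace.mk 1) = 1 ∧
      (∀ m : Measure (XSpace n), IsProbabilityMeasure m →
        (∀ h, m.map (XSpace.rmul h) = m) → 0 < ∫ x, f x ∂m) ∧
      ∀ (σ : Fin n ≃ (K →+* ℝ)) (O : Subring (𝓞 K)), β ∈ O →
        ∀ x ∈ packetSupport O σ, f x = 0 := by
  set S : Set (Fin n → ℝ) :=
    Set.range fun σ : Fin n ≃ (K →+* ℝ) => fun j => σ j (β : K) with hS
  have hSfin : S.Finite := Set.finite_range _
  have hSρ : ∀ ρ ∈ S, ∃ j, ρ j ∉ Set.range ((↑) : ℤ → ℝ) := by
    rintro ρ ⟨σ, rfl⟩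
    refine ⟨⟨0, hn⟩, ?_⟩
    rintro ⟨k, hk⟩
    apply hβ k
    apply (σ ⟨0, hn⟩).injective
    simp only [map_intCast]
    exact hk.symm
  obtain ⟨f, hf1, hf2, hf3, hone, hf4, hf5⟩ := exists_test_function_finite_one n S hSfin hSρ
  refine ⟨f, hf1, hf2, hf3, hone, hf4, ?_⟩
  intro σ O hO x hx
  obtain ⟨L, hL, hstab⟩ := packetSupport_stable σ O β hO hx
  exact hf5 x L hL ⟨_, ⟨σ, rfl⟩, hstab⟩

/-- One normalised test function for all fields, orders and orderings sharing a root of the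
integer polynomial `P`. -/
theorem obstruction_root_one (n : ℕ) (hn : 0 < n) (P : ℤ[X]) (hP : P ≠ 0)
    (hroot : ∀ z : ℤ, P.eval z ≠ 0) :
    ∃ f : XSpace n → ℝ, Continuous f ∧ HasCompactSupport f ∧ (∀ x, 0 ≤ f x) ∧
      f (XSpace.mk 1) = 1 ∧
      (∀ m : Measure (XSpace n), IsProbabilityMeasure m →
        (∀ h, m.map (XSpace.rmul h) = m) → 0 < ∫ x, f x ∂m) ∧
      ∀ (K : Type) [Field K] [NumberField K] (σ : Fin n ≃ (K →+* ℝ)) (O : Subring (𝓞 K))
        (β : 𝓞 K), β ∈ O → Polynomial.aeval (β : K) P = 0 →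
        ∀ x ∈ packetSupport O σ, f x = 0 := by
  set S : Set (Fin n → ℝ) := {ρ | ∀ j, ρ j ∈ P.rootSet ℝ} with hS
  have hSfin : S.Finite :=
    Set.Finite.pi' (ι := Fin n) fun _ => Polynomial.rootSet_finite P ℝ
  have hSρ : ∀ ρ ∈ S, ∃ j, ρ j ∉ Set.range ((↑) : ℤ → ℝ) := by
    intro ρ hρ
    refine ⟨⟨0, hn⟩, ?_⟩
    rintro ⟨k, hk⟩
    have h1 := hρ ⟨0, hn⟩
    rw [Polynomial.mem_rootSet] at h1
    have h2 : Polynomial.aeval (ρ ⟨0, hn⟩) P = 0 := h1.2
    rw [← hk] at h2
    apply hroot k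
    have h3 : Polynomial.aeval ((k : ℤ) : ℝ) P = ((P.eval k : ℤ) : ℝ) := by
      rw [Polynomial.aeval_def, Polynomial.eval₂_at_intCast]
      simp
    rw [h3] at h2
    exact_mod_cast h2
  obtain ⟨f, hf1, hf2, hf3, hone, hf4, hf5⟩ := exists_test_function_finite_one n S hSfin hSρ
  refine ⟨f, hf1, hf2, hf3, hone, hf4, ?_⟩
  intro K _ _ σ O β hβ hPβ x hx
  obtain ⟨L, hL, hstab⟩ := packetSupport_stable σ O β hβ hx
  refine hf5 x L hL ⟨fun j => σ j (β : K), ?_, hstab⟩
  intro j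
  rw [Polynomial.mem_rootSet]
  refine ⟨hP, ?_⟩
  have h1 : Polynomial.aeval (σ j (β : K)) P = σ j (Polynomial.aeval (β : K) P) := by
    rw [Polynomial.aeval_def, Polynomial.aeval_def, Polynomial.hom_eval₂]
    congr 1
    exact Subsingleton.elim _ _
  rw [h1, hPβ, map_zero]

/-- Every composite degree `n`, in full: a totally real field `K` of degree `n`, orders
`O_i` of `K` with discriminant tending to infinity, and one normalised test function `f`
such that, for all orderings, the packet measures are probability measures, `f` vanishes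
on the packets, its integrals against the packet measures are zero and its integral against
every invariant probability measure is positive. -/
theorem composite_final (n : ℕ) (hn : ∃ a b : ℕ, 1 < a ∧ 1 < b ∧ n = a * b) :
    ∃ (K : Type) (_ : Field K) (_ : NumberField K) (_ : IsTotallyReal K),
      Module.finrank ℚ K = n ∧ Nonempty (Fin n ≃ (K →+* ℝ)) ∧
      ∃ O : ℕ → Subring (𝓞 K), (∀ i, (O i).toAddSubgroup.index ≠ 0) ∧
        Tendsto (fun i => discOrder (O i)) atTop atTop ∧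
        ∃ f : XSpace n → ℝ, Continuous f ∧ HasCompactSupport f ∧ (∀ x, 0 ≤ f x) ∧
          f (XSpace.mk 1) = 1 ∧
          ∀ σ : ℕ → (Fin n ≃ (K →+* ℝ)),
            (∀ i, IsProbabilityMeasure (packetMeasure (O i) (σ i))) ∧
            (∀ i, (packetSupport (O i) (σ i)).Nonempty) ∧
            (∀ i, ∀ x ∈ packetSupport (O i) (σ i), f x = 0) ∧
            (∀ i, ∫ x, f x ∂(packetMeasure (O i) (σ i)) = 0) ∧
            ∀ m : Measure (XSpace n), IsProbabilityMeasure m →
              (∀ h, m.map (XSpace.rmul h) = m) →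
              0 < ∫ x, f x ∂m ∧
              ¬ Tendsto (fun i => ∫ x, f x ∂(packetMeasure (O i) (σ i))) atTop
                (𝓝 (∫ x, f x ∂m)) := by
  obtain ⟨a, b, ha, hb, rfl⟩ := hn
  obtain ⟨K, iF, iN, iT, hdeg, F, hF1, hF2⟩ := exists_totallyReal_with_subfield a b ha hb
  have hpos : 0 < a * b := by positivity
  refine ⟨K, iF, iN, iT, hdeg, nonempty_sigma K hdeg, ?_⟩
  obtain ⟨O, hO1, hO2, hO3⟩ := exists_orders F hF2
  refine ⟨O, hO1, hO2, ?_⟩
  obtain ⟨β, hβF, hβ⟩ := exists_nonrational_integer F hF1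
  obtain ⟨f, hf1, hf2, hf3, hone, hf4, hf5⟩ := obstruction_field_one (a * b) hpos β hβ
  refine ⟨f, hf1, hf2, hf3, hone, fun σ => ?_⟩
  have hsupp : ∀ i, ∀ x ∈ packetSupport (O i) (σ i), f x = 0 :=
    fun i x hx => hf5 (σ i) (O i) (hO3 i β hβF) x hx
  have h0 : ∀ i, ∫ x, f x ∂(packetMeasure (O i) (σ i)) = 0 :=
    fun i => integral_packetMeasure_eq_zero (O i) (σ i) hf1 (hsupp i)
  refine ⟨fun i => isProbabilityMeasure_packetMeasure (O i) (hO1 i) (σ i),
    fun i => packetSupport_nonempty (O i) (hO1 i) (σ i), hsupp, h0, ?_⟩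
  intro m hm hinv
  refine ⟨hf4 m hm hinv, fun hT => ?_⟩
  have hfun : (fun i => ∫ x, f x ∂(packetMeasure (O i) (σ i))) = fun _ => (0 : ℝ) :=
    funext h0
  rw [hfun] at hT
  have := tendsto_nhds_unique hT tendsto_const_nhds
  exact (hf4 m hm hinv).ne this.symm

/-- Degree four with maximal orders, in full. -/
theorem quartic_final :
    ∃ (K : ℕ → Type) (_ : ∀ i, Field (K i)) (_ : ∀ i, NumberField (K i))
      (_ : ∀ i, IsTotallyReal (K i)),
      (∀ i, Module.finrank ℚ (K i) = 4) ∧ (∀ i, Nonempty (Fin 4 ≃ (K i →+* ℝ))) ∧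
      Tendsto (fun i => discOrder (⊤ : Subring (𝓞 (K i)))) atTop atTop ∧
      ∃ f : XSpace 4 → ℝ, Continuous f ∧ HasCompactSupport f ∧ (∀ x, 0 ≤ f x) ∧
        f (XSpace.mk 1) = 1 ∧
        ∀ σ : ∀ i, Fin 4 ≃ (K i →+* ℝ),
          (∀ i, IsProbabilityMeasure (packetMeasure (⊤ : Subring (𝓞 (K i))) (σ i))) ∧
          (∀ i, (packetSupport (⊤ : Subring (𝓞 (K i))) (σ i)).Nonempty) ∧
          (∀ i, ∀ x ∈ packetSupport (⊤ : Subring (𝓞 (K i))) (σ i), f x = 0) ∧
          (∀ i, ∫ x, f x ∂(packetMeasure (⊤ : Subring (𝓞 (K i))) (σ i)) = 0) ∧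
          ∀ m : Measure (XSpace 4), IsProbabilityMeasure m →
            (∀ h, m.map (XSpace.rmul h) = m) →
            0 < ∫ x, f x ∂m ∧
            ¬ Tendsto (fun i => ∫ x, f x ∂(packetMeasure (⊤ : Subring (𝓞 (K i))) (σ i)))
              atTop (𝓝 (∫ x, f x ∂m)) := by
  have hNF : ∀ i, NumberField (biquad (oddPrime i)) :=
    fun i => numberField_biquad (oddPrime_prime i) (oddPrime_ne_two i)
  have hTR : ∀ i, IsTotallyReal (biquad (oddPrime i)) :=
    fun i => isTotallyReal_of_realOn _ (realOn_biquad (oddPrime i))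
  have hdeg : ∀ i, Module.finrank ℚ (biquad (oddPrime i)) = 4 :=
    fun i => finrank_biquad (oddPrime_prime i) (oddPrime_ne_two i)
  obtain ⟨f, hf1, hf2, hf3, hone, hf4, hf5⟩ :=
    obstruction_root_one 4 (by norm_num) sqTwoPoly sqTwoPoly_monic.ne_zero sqTwoPoly_eval
  refine ⟨fun i => biquad (oddPrime i), fun i => inferInstance, hNF, hTR, hdeg,
    fun i => nonempty_sigma _ (hdeg i), ?_, f, hf1, hf2, hf3, hone, fun σ => ?_⟩
  · have h := tendsto_discr_biquad oddPrime oddPrime_prime oddPrime_ne_two oddPrime_injective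
    have e : (fun i => discOrder (⊤ : Subring (𝓞 (biquad (oddPrime i))))) =
        fun i => (discr (biquad (oddPrime i))).natAbs := funext fun i => discOrder_top _
    rw [e]
    exact h
  · have htop : ∀ i, (⊤ : Subring (𝓞 (biquad (oddPrime i)))).toAddSubgroup.index ≠ 0 := by
      intro i
      have h : (⊤ : Subring (𝓞 (biquad (oddPrime i)))).toAddSubgroup = ⊤ := rfl
      rw [h, AddSubgroup.index_top]
      exact one_ne_zero
    have hsupp : ∀ i, ∀ x ∈ packetSupport (⊤ : Subring (𝓞 (biquad (oddPrime i)))) (σ i),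
        f x = 0 := by
      intro i x hx
      obtain ⟨β, hβO, hβP⟩ := exists_root_biquad (oddPrime_prime i) (oddPrime_ne_two i)
      exact hf5 (biquad (oddPrime i)) (σ i) ⊤ β hβO hβP x hx
    have h0 : ∀ i, ∫ x, f x ∂(packetMeasure (⊤ : Subring (𝓞 (biquad (oddPrime i)))) (σ i)) = 0 :=
      fun i => integral_packetMeasure_eq_zero _ (σ i) hf1 (hsupp i)
    refine ⟨fun i => isProbabilityMeasure_packetMeasure _ (htop i) (σ i),
      fun i => packetSupport_nonempty _ (htop i) (σ i), hsupp, h0, ?_⟩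
    intro m hm hinv
    refine ⟨hf4 m hm hinv, fun hT => ?_⟩
    have hfun : (fun i => ∫ x, f x ∂(packetMeasure (⊤ : Subring (𝓞 (biquad (oddPrime i)))) (σ i)))
        = fun _ => (0 : ℝ) := funext h0
    rw [hfun] at hT
    have := tendsto_nhds_unique hT tendsto_const_nhds
    exact (hf4 m hm hinv).ne this.symm

end Vale.Agent.Lib.P007
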