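import Vale.Agent.Lib.P007.Units

namespace Vale.Agent.Lib.P007

open Matrix MeasureTheory NumberField

section

variable {K : Type*} [Field K] [NumberField K]

/-- The subgroups of `K` between `m O_K` and `O_K`. -/
def betweenSet (K : Type*) [Field K] [NumberField K] (m : ℕ) : Set (Submodule ℤ K) :=
  {H | (∀ z : 𝓞 K, (m : K) * algebraMap (𝓞 K) K z ∈ H) ∧
    ∀ y ∈ H, ∃ z : 𝓞 K, algebraMap (𝓞 K) K z = y}

theorem betweenSet_finite (m : ℕ) (hm : m ≠ 0) : (betweenSet K m).Finite := by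
  set J : Ideal (𝓞 K) := Ideal.span {(m : 𝓞 K)} with hJ
  have hJ0 : J ≠ ⊥ := by
    rw [hJ, Ne, Ideal.span_singleton_eq_bot]
    exact Nat.cast_ne_zero.mpr hm
  have hfin : Finite (𝓞 K ⧸ J) := Ideal.finiteQuotientOfFreeOfNeBot J hJ0
  let Φ : Submodule ℤ K → Set (𝓞 K ⧸ J) := fun H =>
    (Ideal.Quotient.mk J) '' {z : 𝓞 K | algebraMap (𝓞 K) K z ∈ H}
  have key : ∀ H₁ ∈ betweenSet K m, ∀ H₂ ∈ betweenSet K m, Φ H₁ = Φ H₂ → H₁ ≤ H₂ := by
    intro H₁ h₁ H₂ h₂ hΦ y hy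
    obtain ⟨z, rfl⟩ := h₁.2 y hy
    have hz : Ideal.Quotient.mk J z ∈ Φ H₂ := by
      rw [← hΦ]
      exact ⟨z, hy, rfl⟩
    obtain ⟨z', hz', hzz'⟩ := hz
    have hdiff : z - z' ∈ J := by
      rw [← Ideal.Quotient.eq_zero_iff_mem, map_sub, hzz', sub_self]
    rw [hJ, Ideal.mem_span_singleton'] at hdiff
    obtain ⟨q, hq⟩ := hdiff
    have h3 : z = z' + (m : 𝓞 K) * q := by
      rw [mul_comm, hq]
      ring
    have h4 : algebraMap (𝓞 K) K z =
        algebraMap (𝓞 K) K z' + (m : K) * algebraMap (𝓞 K) K q := by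
      rw [h3, map_add, map_mul, map_natCast]
    rw [h4]
    exact H₂.add_mem hz' (h₂.1 q)
  have hinj : Set.InjOn Φ (betweenSet K m) := fun H₁ h₁ H₂ h₂ hΦ =>
    le_antisymm (key H₁ h₁ H₂ h₂ hΦ) (key H₂ h₂ H₁ h₁ hΦ.symm)
  exact Set.Finite.of_injOn (f := Φ) (t := Set.univ) (fun _ _ => Set.mem_univ _) hinj
    Set.finite_univ

/-- Finiteness of the class number, for lattices stable under an order: up to scaling by
`K^*` there are finitely many of them. -/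
theorem exists_finite_shapes (O : Subring (𝓞 K)) (hO : O.toAddSubgroup.index ≠ 0) :
    ∃ S : Set (Submodule ℤ K), S.Finite ∧
      ∀ I : Submodule ℤ K, IsOModule O I → (∃ y ∈ I, y ≠ 0) →
        (∃ d : ℤ, d ≠ 0 ∧ ∀ y ∈ I, ∃ z : 𝓞 K, algebraMap (𝓞 K) K z = d * y) →
        ∃ H ∈ S, ∃ β : K, β ≠ 0 ∧ ∀ y, y ∈ I ↔ ∃ h ∈ H, y = β * h := by
  classical
  set f : ℕ := O.toAddSubgroup.index with hf
  let rep : ClassGroup (𝓞 K) → nonZeroDivisors (Ideal (𝓞 K)) :=
    Function.surjInv ClassGroup.mk0_surjective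
  have hrep : ∀ κ, ClassGroup.mk0 (rep κ) = κ := Function.surjInv_eq ClassGroup.mk0_surjective
  set P : ℕ := ∏ κ, Ideal.absNorm (rep κ : Ideal (𝓞 K)) with hP
  have hP0 : P ≠ 0 := by
    rw [hP, Finset.prod_ne_zero_iff]
    intro κ _
    rw [Ne, Ideal.absNorm_eq_zero_iff]
    exact nonZeroDivisors.coe_ne_zero (rep κ)
  have hPmem : ∀ κ, (P : 𝓞 K) ∈ (rep κ : Ideal (𝓞 K)) := by
    intro κ
    obtain ⟨q, hq⟩ := Finset.dvd_prod_of_mem
      (fun κ => Ideal.absNorm (rep κ : Ideal (𝓞 K))) (Finset.mem_univ κ)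
    rw [hP, hq]
    push_cast
    exact Ideal.mul_mem_right _ _ (Ideal.absNorm_mem _)
  refine ⟨betweenSet K (f * P), betweenSet_finite _ (mul_ne_zero hO hP0), ?_⟩
  rintro I hI ⟨y₁, hy₁, hy₁0⟩ ⟨d, hd, hdI⟩
  have hd' : (d : K) ≠ 0 := Int.cast_ne_zero.mpr hd
  have hinjK : Function.Injective (algebraMap (𝓞 K) K) :=
    FaithfulSMul.algebraMap_injective (𝓞 K) K
  let A : Set (𝓞 K) := {z | ∃ y ∈ I, algebraMap (𝓞 K) K z = d * y}
  set 𝔞 : Ideal (𝓞 K) := Ideal.span A with h𝔞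
  have hA_O : ∀ a ∈ O, ∀ z ∈ A, a * z ∈ A := by
    rintro a ha z ⟨y, hy, hzy⟩
    refine ⟨(a : K) * y, hI a ha y hy, ?_⟩
    rw [map_mul, hzy, RingOfIntegers.coe_eq_algebraMap]
    ring
  have hA_add : ∀ z₁ ∈ A, ∀ z₂ ∈ A, z₁ + z₂ ∈ A := by
    rintro z₁ ⟨y₁, hy₁, h₁⟩ z₂ ⟨y₂, hy₂, h₂⟩
    exact ⟨y₁ + y₂, I.add_mem hy₁ hy₂, by rw [map_add, h₁, h₂]; ring⟩
  have hA_zero : (0 : 𝓞 K) ∈ A := ⟨0, I.zero_mem, by simp⟩
  have hfr : ∀ r : 𝓞 K, (f : 𝓞 K) * r ∈ O := by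
    intro r
    have := AddSubgroup.nsmul_index_mem O.toAddSubgroup r
    rw [nsmul_eq_mul] at this
    exact this
  have hfa' : ∀ z ∈ 𝔞, ∀ r : 𝓞 K, ((f : 𝓞 K) * r) * z ∈ A := by
    intro z hz
    rw [h𝔞] at hz
    refine Submodule.span_induction ?_ ?_ ?_ ?_ hz
    · intro a ha r
      exact hA_O _ (hfr r) a ha
    · intro r
      rw [mul_zero]
      exact hA_zero
    · intro z₁ z₂ _ _ h₁ h₂ r
      rw [mul_add]
      exact hA_add _ (h₁ r) _ (h₂ r)
    · intro r' z _ hz' r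
      have := hz' (r * r')
      rw [smul_eq_mul]
      have e : (f : 𝓞 K) * r * (r' * z) = (f : 𝓞 K) * (r * r') * z := by ring
      rw [e]
      exact this
  have hfa : ∀ z ∈ 𝔞, (f : 𝓞 K) * z ∈ A := by
    intro z hz
    have := hfa' z hz 1
    rwa [mul_one] at this
  have h𝔞0 : 𝔞 ≠ ⊥ := by
    rw [Submodule.ne_bot_iff]
    obtain ⟨z, hz⟩ := hdI y₁ hy₁
    refine ⟨z, Ideal.subset_span ⟨y₁, hy₁, hz⟩, ?_⟩
    intro hz0
    rw [hz0, map_zero] at hz
    exact mul_ne_zero hd' hy₁0 hz.symm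
  have h𝔞mem : 𝔞 ∈ nonZeroDivisors (Ideal (𝓞 K)) := mem_nonZeroDivisors_iff_ne_zero.mpr h𝔞0
  set κ := ClassGroup.mk0 ⟨𝔞, h𝔞mem⟩ with hκdef
  have hκ : ClassGroup.mk0 ⟨𝔞, h𝔞mem⟩ = ClassGroup.mk0 (rep κ) := (hrep κ).symm
  obtain ⟨x, y, hx, hy, hxy⟩ := ClassGroup.mk0_eq_mk0_iff.mp hκ
  have hxy' : Ideal.span {x} * 𝔞 = Ideal.span {y} * (rep κ : Ideal (𝓞 K)) := hxy
  have hx' : algebraMap (𝓞 K) K x ≠ 0 := fun h => hx (hinjK (by rw [h, map_zero]))
  have hy' : algebraMap (𝓞 K) K y ≠ 0 := fun h => hy (hinjK (by rw [h, map_zero]))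
  set θ : K := algebraMap (𝓞 K) K x / algebraMap (𝓞 K) K y * d with hθ
  have hθ0 : θ ≠ 0 := mul_ne_zero (div_ne_zero hx' hy') hd'
  let H : Submodule ℤ K := I.map (LinearMap.mulLeft ℤ θ)
  have hHmem : ∀ h, h ∈ H ↔ ∃ y ∈ I, θ * y = h := fun h => by
    simp only [H, Submodule.mem_map, LinearMap.mulLeft_apply]
  refine ⟨H, ⟨?_, ?_⟩, θ⁻¹, inv_ne_zero hθ0, ?_⟩
  · intro z
    have hb : (P : 𝓞 K) * z ∈ (rep κ : Ideal (𝓞 K)) := Ideal.mul_mem_right _ _ (hPmem κ)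
    have h1 : y * ((P : 𝓞 K) * z) ∈ Ideal.span {y} * (rep κ : Ideal (𝓞 K)) :=
      Ideal.mem_span_singleton_mul.mpr ⟨_, hb, rfl⟩
    rw [← hxy', Ideal.mem_span_singleton_mul] at h1
    obtain ⟨a', ha', hxa⟩ := h1
    obtain ⟨y₀, hy₀, hfy₀⟩ := hfa a' ha'
    refine (hHmem _).mpr ⟨y₀, hy₀, ?_⟩
    have h2 := congrArg (algebraMap (𝓞 K) K) hxa
    simp only [map_mul, map_natCast] at h2 hfy₀
    rw [hθ]
    push_cast
    field_simp
    linear_combination (f : K) * h2 - (algebraMap (𝓞 K) K x) * hfy₀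
  · intro h hh
    obtain ⟨y₀, hy₀, rfl⟩ := (hHmem h).mp hh
    obtain ⟨z, hz⟩ := hdI y₀ hy₀
    have hzA : z ∈ 𝔞 := Ideal.subset_span ⟨y₀, hy₀, hz⟩
    have h1 : x * z ∈ Ideal.span {x} * 𝔞 := Ideal.mem_span_singleton_mul.mpr ⟨z, hzA, rfl⟩
    rw [hxy', Ideal.mem_span_singleton_mul] at h1
    obtain ⟨b, hb, hyb⟩ := h1
    refine ⟨b, ?_⟩
    have h2 := congrArg (algebraMap (𝓞 K) K) hyb
    simp only [map_mul] at h2
    rw [hθ, mul_assoc, ← hz]
    field_simp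
    linear_combination h2
  · intro y₀
    constructor
    · intro hy₀
      exact ⟨θ * y₀, (hHmem _).mpr ⟨y₀, hy₀, rfl⟩, by rw [inv_mul_cancel_left₀ hθ0]⟩
    · rintro ⟨h, hh, rfl⟩
      obtain ⟨y₂, hy₂, rfl⟩ := (hHmem _).mp hh
      rw [inv_mul_cancel_left₀ hθ0]
      exact hy₂

/-- `x` is the point of a lattice `c sigma(H) w a(u)`, for some `u` of sum zero and some
`c > 0`. -/
def HasShape {n : ℕ} (σ : Fin n ≃ (K →+* ℝ)) (x : XSpace n) (H : Submodule ℤ K)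
    (w : Fin n → ℝ) : Prop :=
  ∃ (u : Fin n → ℝ) (c : ℝ), ∑ j, u j = 0 ∧ 0 < c ∧ IsLatticeOf x (packetLattice σ H w u c)

omit [NumberField K] in
/-- A group `I` whose image is a lattice of `X_n` is generated by `n` elements and is not
zero. -/
theorem lattice_generators {n : ℕ} (hn : 0 < n) (σ : Fin n ≃ (K →+* ℝ)) {I : Submodule ℤ K}
    {w u : Fin n → ℝ} {c : ℝ} (hc : c ≠ 0) (hw : ∀ j, w j ≠ 0) {x : XSpace n}
    (hL : IsLatticeOf x (packetLattice σ I w u c)) :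
    (∃ b : Fin n → K, (∀ i, b i ∈ I) ∧ ∀ y ∈ I, ∃ k : Fin n → ℤ, y = ∑ i, k i • b i) ∧
      ∃ y ∈ I, y ≠ 0 := by
  obtain ⟨g, -, hg⟩ := hL
  have hrow : ∀ i, ∃ y ∈ I, ∀ j,
      (g : Matrix (Fin n) (Fin n) ℝ) i j = c * σ j y * w j * Real.exp (u j) := by
    intro i
    have : (g : Matrix (Fin n) (Fin n) ℝ) i ∈ packetLattice σ I w u c := by
      rw [← hg]
      exact Submodule.subset_span ⟨i, rfl⟩
    exact this
  choose b hbI hb using hrow
  let j₀ : Fin n := ⟨0, hn⟩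
  have hcoef : ∀ j, c * w j * Real.exp (u j) ≠ 0 := fun j =>
    mul_ne_zero (mul_ne_zero hc (hw j)) (Real.exp_ne_zero _)
  refine ⟨⟨b, hbI, fun y hy => ?_⟩, ?_⟩
  · have hv : (fun j => c * σ j y * w j * Real.exp (u j)) ∈
        (Submodule.span ℤ (Set.range fun i => (g : Matrix (Fin n) (Fin n) ℝ) i) :
          Set (Fin n → ℝ)) := by
      rw [hg]
      exact ⟨y, hy, fun j => rfl⟩
    obtain ⟨k, hk⟩ := (Submodule.mem_span_range_iff_exists_fun ℤ).mp hv
    refine ⟨k, ?_⟩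
    have h1 := congrFun hk j₀
    rw [Finset.sum_apply] at h1
    simp only [Pi.smul_apply, hb, zsmul_eq_mul] at h1
    have h2 : σ j₀ (∑ i, k i • b i) = σ j₀ y := by
      have h3 : σ j₀ (∑ i, k i • b i) = ∑ i, (k i : ℝ) * σ j₀ (b i) := by simp [map_sum]
      rw [h3]
      apply mul_left_cancel₀ (hcoef j₀)
      rw [Finset.mul_sum]
      calc ∑ i, c * w j₀ * Real.exp (u j₀) * ((k i : ℝ) * σ j₀ (b i))
          = ∑ i, (k i : ℝ) * (c * σ j₀ (b i) * w j₀ * Real.exp (u j₀)) :=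
            Finset.sum_congr rfl fun i _ => by ring
        _ = c * σ j₀ y * w j₀ * Real.exp (u j₀) := h1
        _ = c * w j₀ * Real.exp (u j₀) * σ j₀ y := by ring
    exact ((σ j₀).injective h2).symm
  · by_contra hcon
    have hcon' : ∀ y ∈ I, y = 0 := by
      intro y hy
      by_contra hy0
      exact hcon ⟨y, hy, hy0⟩
    have hzero : (g : Matrix (Fin n) (Fin n) ℝ) = 0 := by
      ext i j
      rw [hb i j, hcon' (b i) (hbI i)]
      simp
    have hdet := g.2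
    rw [hzero] at hdet
    have hne : Nonempty (Fin n) := ⟨j₀⟩
    rw [Matrix.det_zero] at hdet
    exact zero_ne_one hdet

/-- A finitely generated subgroup of `K` has a common denominator. -/
theorem exists_denominator {n : ℕ} {I : Submodule ℤ K} (b : Fin n → K)
    (hb : ∀ y ∈ I, ∃ k : Fin n → ℤ, y = ∑ i, k i • b i) :
    ∃ d : ℤ, d ≠ 0 ∧ ∀ y ∈ I, ∃ z : 𝓞 K, algebraMap (𝓞 K) K z = d * y := by
  have h := fun i => exists_int_mul_integer (b i)
  choose a dd hdd hda using h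
  refine ⟨∏ i, dd i, Finset.prod_ne_zero_iff.mpr fun i _ => hdd i, fun y hy => ?_⟩
  obtain ⟨k, rfl⟩ := hb y hy
  have hq : ∀ i, ∃ q : ℤ, ∏ i, dd i = dd i * q := fun i =>
    Finset.dvd_prod_of_mem dd (Finset.mem_univ i)
  choose q hq using hq
  refine ⟨∑ i, (k i * q i) • a i, ?_⟩
  rw [map_sum, Finset.mul_sum]
  refine Finset.sum_congr rfl fun i _ => ?_
  have h1 : ((∏ i, dd i : ℤ) : K) = (dd i : K) * (q i : K) := by
    rw [hq i]
    push_cast
    ring
  have h2 := hda i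
  rw [RingOfIntegers.coe_eq_algebraMap] at h2
  rw [h1, zsmul_eq_mul, zsmul_eq_mul, map_mul, map_intCast, ← h2]
  push_cast
  ring

omit [NumberField K] in
/-- Replacing the ideal `I = beta H` by `H` changes the signs, the point of `A_n` and the
normalisation, but not the point of `X_n`. -/
theorem hasShape_of_scaled {n : ℕ} (hn : 0 < n) (σ : Fin n ≃ (K →+* ℝ)) {I H : Submodule ℤ K}
    {w u : Fin n → ℝ} {c : ℝ} (hc : 0 < c) (hu : ∑ j, u j = 0) (hw : ∀ j, w j = 1 ∨ w j = -1)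
    {x : XSpace n} (hL : IsLatticeOf x (packetLattice σ I w u c)) (β : K) (hβ : β ≠ 0)
    (hIH : ∀ y, y ∈ I ↔ ∃ h ∈ H, y = β * h) :
    ∃ w' : Fin n → ℝ, (∀ j, w' j = 1 ∨ w' j = -1) ∧ HasShape σ x H w' := by
  have hσβ : ∀ j, σ j β ≠ 0 := fun j => by
    rw [Ne, map_eq_zero]
    exact hβ
  let sg : Fin n → ℝ := fun j => if 0 < σ j β then 1 else -1
  have hsg : ∀ j, sg j = 1 ∨ sg j = -1 := by
    intro j
    by_cases h : 0 < σ j β
    · left; simp [sg, h]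
    · right; simp [sg, h]
  have habs : ∀ j, sg j * |σ j β| = σ j β := by
    intro j
    by_cases h : 0 < σ j β
    · simp [sg, h, abs_of_pos h]
    · have h' : σ j β < 0 := lt_of_le_of_ne (not_lt.mp h) (hσβ j)
      simp [sg, h, abs_of_neg h']
  let a : Fin n → ℝ := fun j => Real.log |σ j β|
  let abar : ℝ := (∑ j, a j) / n
  have hnR : (n : ℝ) ≠ 0 := Nat.cast_ne_zero.mpr hn.ne'
  refine ⟨fun j => w j * sg j, ?_, fun j => u j + a j - abar, c * Real.exp abar, ?_,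
    by positivity, ?_⟩
  · intro j
    rcases hw j with h | h <;> rcases hsg j with h' | h' <;> simp [h, h']
  · rw [Finset.sum_sub_distrib, Finset.sum_add_distrib, hu, Finset.sum_const, Finset.card_univ,
      Fintype.card_fin, nsmul_eq_mul]
    simp only [abar]
    field_simp
    ring
  · have hcomp : ∀ (h : K) (j : Fin n),
        c * Real.exp abar * σ j h * (w j * sg j) * Real.exp (u j + a j - abar) =
          c * σ j (β * h) * w j * Real.exp (u j) := by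
      intro h j
      rw [Real.exp_sub, Real.exp_add, map_mul]
      have h1 : Real.exp (a j) = |σ j β| := Real.exp_log (abs_pos.mpr (hσβ j))
      rw [h1]
      have h2 := habs j
      have h3 : Real.exp abar ≠ 0 := Real.exp_ne_zero _
      field_simp
      linear_combination (σ j h * w j) * h2
    have hset : packetLattice σ H (fun j => w j * sg j) (fun j => u j + a j - abar)
        (c * Real.exp abar) = packetLattice σ I w u c := by
      ext v
      constructor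
      · rintro ⟨h, hh, hv⟩
        exact ⟨β * h, (hIH _).mpr ⟨h, hh, rfl⟩, fun j => by rw [hv j, hcomp]⟩
      · rintro ⟨y, hy, hv⟩
        obtain ⟨h, hh, rfl⟩ := (hIH y).mp hy
        exact ⟨h, hh, fun j => by rw [hv j, hcomp]⟩
    rw [hset]
    exact hL

omit [NumberField K] in
/-- Two points of the same shape lie on the same orbit of `A_n`. -/
theorem torusOrbit_eq_of_hasShape {n : ℕ} (hn : n ≠ 0) (σ : Fin n ≃ (K →+* ℝ))
    {H : Submodule ℤ K} {w : Fin n → ℝ} {x x₀ : XSpace n} (hx : HasShape σ x H w)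
    (hx₀ : HasShape σ x₀ H w) : torusOrbit x = torusOrbit x₀ := by
  obtain ⟨u, c, hu, hc, hL⟩ := hx
  obtain ⟨u₀, c₀, hu₀, hc₀, hL₀⟩ := hx₀
  set d : Fin n → ℝ := fun j => u j - u₀ j with hd
  have hdsum : ∑ j, d j = 0 := by
    simp only [hd, Finset.sum_sub_distrib, hu, hu₀, sub_zero]
  set t : Fin (n - 1) → ℝ := fun k => d ⟨k, by have := k.2; omega⟩ with ht
  have hext : extendZeroSum t = d := extendZeroSum_restrict d hdsum
  have h1 := isLatticeOf_rmul_diagExp hL₀ (extendZeroSum t) (extendZeroSum_sum t)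
  have hexp : ∀ j, Real.exp (u₀ j) * Real.exp (extendZeroSum t j) = Real.exp (u j) := by
    intro j
    rw [hext, ← Real.exp_add]
    congr 1
    simp only [hd]
    ring
  have hset1 : {v | ∃ l ∈ packetLattice σ H w u₀ c₀,
      v = fun j => l j * Real.exp (extendZeroSum t j)} = packetLattice σ H w u c₀ := by
    ext v
    constructor
    · rintro ⟨l, ⟨y, hy, hl⟩, rfl⟩
      refine ⟨y, hy, fun j => ?_⟩
      simp only [hl j]
      rw [mul_assoc, hexp]
    · rintro ⟨y, hy, hv⟩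
      refine ⟨fun j => c₀ * σ j y * w j * Real.exp (u₀ j), ⟨y, hy, fun j => rfl⟩, ?_⟩
      funext j
      rw [hv j]
      change c₀ * σ j y * w j * Real.exp (u j) =
        c₀ * σ j y * w j * Real.exp (u₀ j) * Real.exp (extendZeroSum t j)
      rw [mul_assoc (c₀ * σ j y * w j), hexp]
  rw [hset1] at h1
  have hscale : packetLattice σ H w u c =
      {v | ∃ l ∈ packetLattice σ H w u c₀, v = (c / c₀) • l} := by
    ext v
    constructor
    · rintro ⟨y, hy, hv⟩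
      refine ⟨fun j => c₀ * σ j y * w j * Real.exp (u j), ⟨y, hy, fun j => rfl⟩, ?_⟩
      funext j
      rw [hv j, Pi.smul_apply, smul_eq_mul]
      field_simp
    · rintro ⟨l, ⟨y, hy, hl⟩, rfl⟩
      refine ⟨y, hy, fun j => ?_⟩
      rw [Pi.smul_apply, smul_eq_mul, hl j]
      field_simp
  have hs := scale_eq_one hn hL h1 (div_pos hc hc₀) hscale
  have hcc : c = c₀ := (div_eq_one_iff_eq hc₀.ne').mp hs
  rw [hcc] at hL
  have hxeq : x = torusAct t x₀ := eq_of_isLatticeOf hL h1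
  rw [hxeq]
  ext z
  constructor
  · rintro ⟨s, rfl⟩
    exact ⟨t + s, torusAct_add t s x₀⟩
  · rintro ⟨s, rfl⟩
    refine ⟨s - t, ?_⟩
    change torusAct (s - t) (torusAct t x₀) = torusAct s x₀
    rw [← torusAct_add]
    congr 1
    abel

/-- The packet of an order of finite index in a totally real field is finite. -/
theorem packet_finite [IsTotallyReal K] {n : ℕ} (O : Subring (𝓞 K))
    (hO : O.toAddSubgroup.index ≠ 0) (σ : Fin n ≃ (K →+* ℝ)) : (packet O σ).Finite := by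
  classical
  have hn : Module.finrank ℚ K = n := finrank_eq_of_sigma σ
  have hnpos : 0 < n := by rw [← hn]; exact Module.finrank_pos
  obtain ⟨S, hS, hprop⟩ := exists_finite_shapes O hO
  set W : Set (Fin n → ℝ) := Set.univ.pi fun _ => ({1, -1} : Set ℝ) with hW
  have hWfin : W.Finite := Set.Finite.pi fun _ => Set.toFinite _
  let F : Submodule ℤ K × (Fin n → ℝ) → Set (XSpace n) := fun p =>
    if h : ∃ x, HasShape σ x p.1 p.2 then torusOrbit h.choose else ∅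
  refine ((hS.prod hWfin).image F).subset ?_
  rintro T ⟨x, hx, rfl⟩
  obtain ⟨I, w, u, c, hI, hw, hu, hc, hL⟩ := hx
  have hw0 : ∀ j, w j ≠ 0 := fun j => by
    rcases hw j with h | h <;> rw [h] <;> norm_num
  obtain ⟨⟨b, hbI, hb⟩, hI0⟩ := lattice_generators hnpos σ hc.ne' hw0 hL
  obtain ⟨H, hH, β, hβ, hIH⟩ := hprop I hI.1 hI0 (exists_denominator b hb)
  obtain ⟨w', hw', hshape⟩ := hasShape_of_scaled hnpos σ hc hu hw hL β hβ hIH
  refine ⟨(H, w'), ⟨hH, ?_⟩, ?_⟩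
  · rw [hW, Set.mem_univ_pi]
    intro j
    rcases hw' j with h | h <;> simp [h]
  · have hex : ∃ x, HasShape σ x H w' := ⟨x, hshape⟩
    simp only [F, hex, dif_pos]
    exact torusOrbit_eq_of_hasShape hnpos.ne' σ hex.choose_spec hshape

end

end Vale.Agent.Lib.P007
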