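import Vale.Agent.Lib.P007.PacketProof

namespace Vale.Agent.Lib.P007

open Matrix MeasureTheory Topology

/-- If the rows of `g'` are integer combinations of the rows of `g`, with coefficient matrix
`A`, then `g' = A g`. -/
theorem exists_int_matrix {n : ℕ} (M M' : Matrix (Fin n) (Fin n) ℝ)
    (h : ∀ i, M' i ∈ Submodule.span ℤ (Set.range fun i => M i)) :
    ∃ A : Matrix (Fin n) (Fin n) ℤ, M' = A.map (Int.castRingHom ℝ) * M := by
  have h' : ∀ i, ∃ c : Fin n → ℤ, ∑ k, c k • M k = M' i := fun i =>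
    (Submodule.mem_span_range_iff_exists_fun ℤ).mp (h i)
  choose A hA using h'
  refine ⟨Matrix.of A, ?_⟩
  ext i j
  rw [← hA i, Matrix.mul_apply, Finset.sum_apply]
  refine Finset.sum_congr rfl fun k _ => ?_
  simp

/-- Two matrices of determinant one whose rows span the same lattice give the same point of
`X_n`. -/
theorem mk_eq_of_rows_mem {n : ℕ} (g g' : SpecialLinearGroup (Fin n) ℝ)
    (h : ∀ i, (g' : Matrix (Fin n) (Fin n) ℝ) i ∈
      Submodule.span ℤ (Set.range fun i => (g : Matrix (Fin n) (Fin n) ℝ) i)) :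
    XSpace.mk g' = XSpace.mk g := by
  obtain ⟨A, hA⟩ := exists_int_matrix _ _ h
  have hdet : A.det = 1 := by
    have h1 := congrArg Matrix.det hA
    rw [Matrix.det_mul, g.2, g'.2, mul_one] at h1
    have h2 : (A.map (Int.castRingHom ℝ)).det = ((A.det : ℤ) : ℝ) := by
      have := (Int.castRingHom ℝ).map_det A
      simpa using this.symm
    rw [h2] at h1
    exact_mod_cast h1.symm
  rw [mk_eq_mk_iff]
  refine ⟨SpecialLinearGroup.map (Int.castRingHom ℝ) ⟨A, hdet⟩, ⟨⟨A, hdet⟩, rfl⟩, ?_⟩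
  apply Subtype.ext
  change A.map (Int.castRingHom ℝ) * (g : Matrix (Fin n) (Fin n) ℝ) = _
  exact hA.symm

theorem eq_of_isLatticeOf {n : ℕ} {x y : XSpace n} {L : Set (Fin n → ℝ)}
    (hx : IsLatticeOf x L) (hy : IsLatticeOf y L) : x = y := by
  obtain ⟨g, rfl, hg⟩ := hx
  obtain ⟨g', rfl, hg'⟩ := hy
  apply mk_eq_of_rows_mem
  intro i
  have : (g : Matrix (Fin n) (Fin n) ℝ) i ∈ L := by
    rw [← hg]
    exact Submodule.subset_span ⟨i, rfl⟩
  rw [← hg'] at this
  exact this

/-- Two covolume-one lattices that differ by a positive scalar are equal. -/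
theorem scale_eq_one {n : ℕ} (hn : n ≠ 0) {x x' : XSpace n} {L L' : Set (Fin n → ℝ)}
    (hx : IsLatticeOf x L) (hx' : IsLatticeOf x' L') {s : ℝ} (hs : 0 < s)
    (hL : L = {v | ∃ l ∈ L', v = s • l}) : s = 1 := by
  obtain ⟨g, rfl, hg⟩ := hx
  obtain ⟨g', rfl, hg'⟩ := hx'
  -- rows of `s⁻¹ g` lie in the span of the rows of `g'`
  have h1 : ∀ i, (s⁻¹ • (g : Matrix (Fin n) (Fin n) ℝ)) i ∈
      Submodule.span ℤ (Set.range fun i => (g' : Matrix (Fin n) (Fin n) ℝ) i) := by
    intro i
    have hi : (g : Matrix (Fin n) (Fin n) ℝ) i ∈ L := by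
      rw [← hg]; exact Submodule.subset_span ⟨i, rfl⟩
    rw [hL] at hi
    obtain ⟨l, hl, hil⟩ := hi
    have : (s⁻¹ • (g : Matrix (Fin n) (Fin n) ℝ)) i = l := by
      change s⁻¹ • (g : Matrix (Fin n) (Fin n) ℝ) i = l
      rw [hil, smul_smul, inv_mul_cancel₀ hs.ne', one_smul]
    rw [this]
    have hl' : l ∈ (Submodule.span ℤ (Set.range fun i => (g' : Matrix (Fin n) (Fin n) ℝ) i) :
        Set (Fin n → ℝ)) := by rw [hg']; exact hl
    exact hl'
  have h2 : ∀ i, (s • (g' : Matrix (Fin n) (Fin n) ℝ)) i ∈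
      Submodule.span ℤ (Set.range fun i => (g : Matrix (Fin n) (Fin n) ℝ) i) := by
    intro i
    have hi : (g' : Matrix (Fin n) (Fin n) ℝ) i ∈ L' := by
      rw [← hg']; exact Submodule.subset_span ⟨i, rfl⟩
    have : (s • (g' : Matrix (Fin n) (Fin n) ℝ)) i ∈ L := by
      rw [hL]; exact ⟨_, hi, rfl⟩
    rw [← hg] at this
    exact this
  obtain ⟨A, hA⟩ := exists_int_matrix _ _ h1
  obtain ⟨B, hB⟩ := exists_int_matrix _ _ h2
  have hcast : ∀ C : Matrix (Fin n) (Fin n) ℤ,
      (C.map (Int.castRingHom ℝ)).det = ((C.det : ℤ) : ℝ) := by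
    intro C
    have := (Int.castRingHom ℝ).map_det C
    simpa using this.symm
  have hA' := congrArg Matrix.det hA
  have hB' := congrArg Matrix.det hB
  rw [Matrix.det_smul, Fintype.card_fin, Matrix.det_mul, g.2, g'.2, mul_one, mul_one, hcast]
    at hA' hB'
  -- `s⁻¹ ^ n = det A`, `s ^ n = det B`
  have hprod : ((B.det * A.det : ℤ) : ℝ) = 1 := by
    rw [Int.cast_mul, ← hA', ← hB', ← mul_pow, mul_inv_cancel₀ hs.ne', one_pow]
  have hprod' : B.det * A.det = 1 := by exact_mod_cast hprod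
  have hBpos : (0 : ℝ) < (B.det : ℝ) := by rw [← hB']; exact pow_pos hs n
  have hB1 : B.det = 1 := by
    rcases Int.eq_one_or_neg_one_of_mul_eq_one hprod' with h | h
    · exact h
    · rw [h] at hBpos
      norm_num at hBpos
  rw [hB1] at hB'
  have : s ^ n = 1 := by rw [hB']; simp
  exact (pow_eq_one_iff_of_nonneg hs.le hn).mp this

theorem extendZeroSum_add {n : ℕ} (s t : Fin (n - 1) → ℝ) :
    extendZeroSum (s + t) = fun j => extendZeroSum s j + extendZeroSum t j := by
  funext j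
  by_cases h : (j : ℕ) < n - 1
  · simp [extendZeroSum, h]
  · simp only [extendZeroSum, h, dif_neg, not_false_eq_true, Pi.add_apply,
      Finset.sum_add_distrib]
    ring

theorem extendZeroSum_zero {n : ℕ} : extendZeroSum (0 : Fin (n - 1) → ℝ) = fun _ : Fin n => 0 := by
  funext j
  by_cases h : (j : ℕ) < n - 1
  · simp [extendZeroSum, h]
  · simp [extendZeroSum, h]

theorem torusAct_mk {n : ℕ} (t : Fin (n - 1) → ℝ) (g : SpecialLinearGroup (Fin n) ℝ) :
    torusAct t (XSpace.mk g) =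
      XSpace.mk (g * diagExp (extendZeroSum t) (extendZeroSum_sum t)) := rfl

theorem diagExp_mul {n : ℕ} (u v : Fin n → ℝ) (hu : ∑ j, u j = 0) (hv : ∑ j, v j = 0)
    (huv : ∑ j, (u j + v j) = 0) :
    diagExp (fun j => u j + v j) huv = diagExp u hu * diagExp v hv := by
  apply Subtype.ext
  change Matrix.diagonal (fun j => Real.exp (u j + v j)) =
    Matrix.diagonal (fun j => Real.exp (u j)) * Matrix.diagonal (fun j => Real.exp (v j))
  rw [Matrix.diagonal_mul_diagonal]
  congr 1
  funext j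
  exact Real.exp_add _ _

theorem torusAct_zero {n : ℕ} (x : XSpace n) : torusAct 0 x = x := by
  obtain ⟨g, rfl⟩ := mk_surjective n x
  rw [torusAct_mk]
  congr 1
  have : diagExp (extendZeroSum (0 : Fin (n - 1) → ℝ)) (extendZeroSum_sum 0) = 1 := by
    apply Subtype.ext
    change Matrix.diagonal (fun j => Real.exp (extendZeroSum (0 : Fin (n - 1) → ℝ) j)) = 1
    rw [extendZeroSum_zero]
    simp
  rw [this, mul_one]

theorem torusAct_add {n : ℕ} (s t : Fin (n - 1) → ℝ) (x : XSpace n) :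
    torusAct (s + t) x = torusAct t (torusAct s x) := by
  obtain ⟨g, rfl⟩ := mk_surjective n x
  rw [torusAct_mk, torusAct_mk, torusAct_mk]
  congr 1
  have h1 : ∑ j, (extendZeroSum s j + extendZeroSum t j) = 0 := by
    rw [Finset.sum_add_distrib, extendZeroSum_sum, extendZeroSum_sum, add_zero]
  have h2 : diagExp (extendZeroSum (s + t)) (extendZeroSum_sum (s + t)) =
      diagExp (fun j => extendZeroSum s j + extendZeroSum t j) h1 := by
    apply Subtype.ext
    change Matrix.diagonal (fun j => Real.exp (extendZeroSum (s + t) j)) =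
      Matrix.diagonal (fun j => Real.exp (extendZeroSum s j + extendZeroSum t j))
    rw [extendZeroSum_add]
  rw [h2, diagExp_mul _ _ (extendZeroSum_sum s) (extendZeroSum_sum t), mul_assoc]

theorem continuous_extendZeroSum {n : ℕ} (j : Fin n) :
    Continuous fun t : Fin (n - 1) → ℝ => extendZeroSum t j := by
  by_cases h : (j : ℕ) < n - 1
  · simp only [extendZeroSum, h, dif_pos]
    exact continuous_apply _
  · simp only [extendZeroSum, h, dif_neg, not_false_eq_true]
    exact (continuous_finsetSum _ fun k _ => continuous_apply k).neg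

theorem continuous_diagExp {n : ℕ} :
    Continuous fun t : Fin (n - 1) → ℝ => diagExp (extendZeroSum t) (extendZeroSum_sum t) := by
  apply Continuous.subtype_mk
  apply Continuous.matrix_diagonal
  exact continuous_pi fun j => Real.continuous_exp.comp (continuous_extendZeroSum j)

theorem continuous_torusAct {n : ℕ} (x : XSpace n) :
    Continuous fun t : Fin (n - 1) → ℝ => torusAct t x := by
  obtain ⟨g, rfl⟩ := mk_surjective n x
  simp only [torusAct_mk]
  exact (continuous_mk n).comp (continuous_const.mul continuous_diagExp)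

theorem diagExp_extendZeroSum_zero {n : ℕ} :
    diagExp (extendZeroSum (0 : Fin (n - 1) → ℝ)) (extendZeroSum_sum 0) = 1 := by
  apply Subtype.ext
  change Matrix.diagonal (fun j => Real.exp (extendZeroSum (0 : Fin (n - 1) → ℝ) j)) = 1
  rw [extendZeroSum_zero]
  simp

/-- The identity is isolated in `SL_n(Z)`. -/
theorem gamma_eq_one_of_near {n : ℕ} {γ : SpecialLinearGroup (Fin n) ℝ} (hγ : γ ∈ GammaSL n)
    (h : ∀ i j, |(γ : Matrix (Fin n) (Fin n) ℝ) i j - (1 : Matrix (Fin n) (Fin n) ℝ) i j| < 1) :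
    γ = 1 := by
  obtain ⟨γ', rfl⟩ := hγ
  apply Subtype.ext
  change (γ' : Matrix (Fin n) (Fin n) ℤ).map (Int.castRingHom ℝ) = 1
  have h1 : ∀ i j, (γ' : Matrix (Fin n) (Fin n) ℤ) i j = (1 : Matrix (Fin n) (Fin n) ℤ) i j := by
    intro i j
    have h2 := h i j
    change |((γ' : Matrix (Fin n) (Fin n) ℤ) i j : ℝ) - (1 : Matrix (Fin n) (Fin n) ℝ) i j| < 1
      at h2
    have h3 : (1 : Matrix (Fin n) (Fin n) ℝ) i j =
        (((1 : Matrix (Fin n) (Fin n) ℤ) i j : ℤ) : ℝ) := by
      by_cases hij : i = j <;> simp [Matrix.one_apply, hij]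
    rw [h3, ← Int.cast_sub, ← Int.cast_abs] at h2
    have h4 : |(γ' : Matrix (Fin n) (Fin n) ℤ) i j - (1 : Matrix (Fin n) (Fin n) ℤ) i j| < 1 := by
      exact_mod_cast h2
    have := Int.abs_lt_one_iff.mp h4
    omega
  ext i j
  rw [Matrix.map_apply, h1 i j]
  by_cases hij : i = j <;> simp [Matrix.one_apply, hij]

/-- The stabiliser of any point of `X_n` in `A_n` is discrete. -/
theorem exists_ball_stab_trivial {n : ℕ} (x : XSpace n) :
    ∃ δ > 0, ∀ l ∈ torusStab x, l ∈ Metric.ball (0 : Fin (n - 1) → ℝ) δ → l = 0 := by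
  obtain ⟨g, rfl⟩ := mk_surjective n x
  let ψ : (Fin (n - 1) → ℝ) → SpecialLinearGroup (Fin n) ℝ :=
    fun t => g * diagExp (extendZeroSum t) (extendZeroSum_sum t) * g⁻¹
  have hψ : Continuous ψ := (continuous_const.mul continuous_diagExp).mul continuous_const
  let V : Set (SpecialLinearGroup (Fin n) ℝ) :=
    {h | ∀ i j, |(h : Matrix (Fin n) (Fin n) ℝ) i j - (1 : Matrix (Fin n) (Fin n) ℝ) i j| < 1}
  have hV : IsOpen V := by
    have hVeq : V = ⋂ i, ⋂ j, {h : SpecialLinearGroup (Fin n) ℝ |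
        |(h : Matrix (Fin n) (Fin n) ℝ) i j - (1 : Matrix (Fin n) (Fin n) ℝ) i j| < 1} := by
      ext h
      simp only [Set.mem_iInter]
      rfl
    rw [hVeq]
    refine isOpen_iInter_of_finite fun i => isOpen_iInter_of_finite fun j => ?_
    have hc0 : Continuous fun h : SpecialLinearGroup (Fin n) ℝ =>
        (h : Matrix (Fin n) (Fin n) ℝ) := continuous_subtype_val
    have hc1 : Continuous fun h : SpecialLinearGroup (Fin n) ℝ =>
        (h : Matrix (Fin n) (Fin n) ℝ) i j :=
      (continuous_apply j).comp ((continuous_apply i).comp hc0)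
    have hc : Continuous fun h : SpecialLinearGroup (Fin n) ℝ =>
        |(h : Matrix (Fin n) (Fin n) ℝ) i j - (1 : Matrix (Fin n) (Fin n) ℝ) i j| :=
      (hc1.sub continuous_const).abs
    exact isOpen_lt hc continuous_const
  have h0 : ψ 0 = 1 := by
    change g * diagExp (extendZeroSum 0) (extendZeroSum_sum 0) * g⁻¹ = 1
    rw [diagExp_extendZeroSum_zero, mul_one, mul_inv_cancel]
  have h0V : (0 : Fin (n - 1) → ℝ) ∈ ψ ⁻¹' V := by
    change ψ 0 ∈ V
    rw [h0]
    intro i j
    simp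
  obtain ⟨δ, hδ, hball⟩ := Metric.isOpen_iff.mp (hV.preimage hψ) 0 h0V
  refine ⟨δ, hδ, fun l hl hlb => ?_⟩
  have hlV : ψ l ∈ V := hball hlb
  have hl' : XSpace.mk (g * diagExp (extendZeroSum l) (extendZeroSum_sum l)) = XSpace.mk g := hl
  rw [mk_eq_mk_iff] at hl'
  obtain ⟨γ, hγ, hγg⟩ := hl'
  have hγψ : γ = ψ l := by
    change γ = g * diagExp (extendZeroSum l) (extendZeroSum_sum l) * g⁻¹
    rw [eq_mul_inv_iff_mul_eq]
    exact hγg
  have hγ1 : γ = 1 := gamma_eq_one_of_near hγ (by rw [hγψ]; exact hlV)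
  rw [hγ1, one_mul] at hγg
  have ha : diagExp (extendZeroSum l) (extendZeroSum_sum l) = 1 := by
    have h5 : g * diagExp (extendZeroSum l) (extendZeroSum_sum l) = g * 1 := by
      rw [mul_one]; exact hγg.symm
    exact mul_left_cancel h5
  have hexp : ∀ j, extendZeroSum l j = 0 := by
    intro j
    have h1 := congrArg
      (fun m : SpecialLinearGroup (Fin n) ℝ => (m : Matrix (Fin n) (Fin n) ℝ) j j) ha
    change Matrix.diagonal (fun j => Real.exp (extendZeroSum l j)) j j =
      (1 : Matrix (Fin n) (Fin n) ℝ) j j at h1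
    rw [Matrix.diagonal_apply_eq, Matrix.one_apply_eq] at h1
    exact (Real.exp_eq_one_iff _).mp h1
  funext k
  have hkn : (k : ℕ) < n := by have := k.2; omega
  have hk : ((⟨k, hkn⟩ : Fin n) : ℕ) < n - 1 := k.2
  have h6 := hexp ⟨k, hkn⟩
  simpa [extendZeroSum, hk] using h6

/-- The Dirichlet cell of the stabiliser of any point contains a ball around `0`. -/
theorem exists_ball_subset_dirichletCell {n : ℕ} (x : XSpace n) :
    ∃ η > 0, Metric.ball (0 : Fin (n - 1) → ℝ) η ⊆ dirichletCell x := by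
  obtain ⟨δ, hδ, hstab⟩ := exists_ball_stab_trivial x
  have hηpos : 0 < δ / ((n : ℝ) + 1) := by positivity
  refine ⟨δ / ((n : ℝ) + 1), hηpos, fun t ht l hl => ?_⟩
  set η := δ / ((n : ℝ) + 1) with hη
  by_cases hl0 : l = 0
  · simp [hl0]
  have hlδ : l ∉ Metric.ball (0 : Fin (n - 1) → ℝ) δ := fun h => hl0 (hstab l hl h)
  rw [Metric.mem_ball, dist_zero_right] at hlδ ht
  have ht' : ∀ j, |t j| < η := fun j => by
    have := (pi_norm_lt_iff hηpos).mp ht j
    simpa [Real.norm_eq_abs] using this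
  have hl' : ∃ k, δ ≤ |l k| := by
    by_contra hcon
    simp only [not_exists, not_le] at hcon
    exact hlδ ((pi_norm_lt_iff hδ).mpr fun j => by simpa [Real.norm_eq_abs] using hcon j)
  obtain ⟨k, hk⟩ := hl'
  have h1 : ∑ j, (t j) ^ 2 ≤ (n : ℝ) * η ^ 2 := by
    calc ∑ j, (t j) ^ 2 ≤ ∑ _j : Fin (n - 1), η ^ 2 := Finset.sum_le_sum fun j _ => by
            have := abs_lt.mp (ht' j)
            exact sq_le_sq' (by linarith) (by linarith)
      _ = ((n - 1 : ℕ) : ℝ) * η ^ 2 := by simp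
      _ ≤ (n : ℝ) * η ^ 2 := by
            apply mul_le_mul_of_nonneg_right _ (sq_nonneg η)
            exact_mod_cast Nat.sub_le n 1
  have h2 : ((n : ℝ) * η) ^ 2 ≤ ∑ j, (t j - l j) ^ 2 := by
    have h3 : (n : ℝ) * η ≤ |t k - l k| := by
      have hδη : δ = ((n : ℝ) + 1) * η := by rw [hη]; field_simp
      have h4 := abs_sub_abs_le_abs_sub (l k) (t k)
      rw [abs_sub_comm] at h4
      have h5 := ht' k
      linarith
    calc ((n : ℝ) * η) ^ 2 ≤ |t k - l k| ^ 2 := pow_le_pow_left₀ (by positivity) h3 2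
      _ = (t k - l k) ^ 2 := sq_abs _
      _ ≤ ∑ j, (t j - l j) ^ 2 :=
          Finset.single_le_sum (f := fun j => (t j - l j) ^ 2) (fun j _ => sq_nonneg _)
            (Finset.mem_univ k)
  have h4 : (n : ℝ) * η ^ 2 ≤ ((n : ℝ) * η) ^ 2 := by
    have h5 : (n : ℝ) ≤ (n : ℝ) ^ 2 := by
      rcases Nat.eq_zero_or_pos n with h | h
      · simp [h]
      · have : (1 : ℝ) ≤ n := by exact_mod_cast h
        nlinarith
    rw [mul_pow]
    exact mul_le_mul_of_nonneg_right h5 (sq_nonneg η)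
  linarith

theorem volume_dirichletCell_pos {n : ℕ} (x : XSpace n) : 0 < volume (dirichletCell x) := by
  obtain ⟨η, hη, hsub⟩ := exists_ball_subset_dirichletCell x
  exact lt_of_lt_of_le (Metric.measure_ball_pos volume 0 hη) (measure_mono hsub)

theorem orbitMeasure_univ {n : ℕ} (x : XSpace n) :
    orbitMeasure x Set.univ = volume (dirichletCell x) := by
  unfold orbitMeasure
  rw [Measure.map_apply (continuous_torusAct x).measurable MeasurableSet.univ, Set.preimage_univ,
    Measure.restrict_apply_univ]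

end Vale.Agent.Lib.P007
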