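import Vale.Agent.Lib.P007.Quartic

namespace Vale.Agent.Lib.P007

open NumberField Filter MeasureTheory

/-- Subfield obstruction: if `K` has a subfield `F` different from `Q` and `K`, one test
function of positive Haar integral vanishes on the packets of all orders containing the
integers of `F`, and such orders exist with discriminant tending to infinity. -/
theorem subfield_obstruction (n : ℕ) (K : Type*) [Field K] [NumberField K] (hn : 0 < n)
    (σ : Fin n ≃ (K →+* ℝ)) (F : IntermediateField ℚ K) (hF1 : F ≠ ⊥) (hF2 : F ≠ ⊤) :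
    ∃ f : XSpace n → ℝ, Continuous f ∧ HasCompactSupport f ∧ (∀ x, 0 ≤ f x) ∧
      (∀ m : Measure (XSpace n), IsProbabilityMeasure m →
        (∀ h, m.map (XSpace.rmul h) = m) → 0 < ∫ x, f x ∂m) ∧
      (∀ O : Subring (𝓞 K), (∀ b : 𝓞 K, (b : K) ∈ F → b ∈ O) →
        ∀ x ∈ packetSupport O σ, f x = 0) ∧
      ∃ O : ℕ → Subring (𝓞 K), (∀ i, ∀ b : 𝓞 K, (b : K) ∈ F → b ∈ O i) ∧
        (∀ i, (O i).toAddSubgroup.index ≠ 0) ∧
        Tendsto (fun i => discOrder (O i)) atTop atTop := by
  obtain ⟨β, hβF, hβ⟩ := exists_nonrational_integer F hF1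
  obtain ⟨f, hf1, hf2, hf3, hf4, hf5⟩ := exists_test_function_field n hn σ β hβ
  obtain ⟨O, hO1, hO2, hO3⟩ := exists_orders F hF2
  exact ⟨f, hf1, hf2, hf3, hf4, fun O' hO' x hx => hf5 O' (hO' β hβF) x hx,
    O, hO3, hO1, hO2⟩

/-- Degree four: an explicit totally real quartic field and a sequence of orders with
discriminant tending to infinity whose packets all avoid the support of a test function
of positive Haar integral. -/
theorem quartic_counterexample :
    ∃ (K : Type) (_ : Field K) (_ : NumberField K) (_ : IsTotallyReal K),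
      Module.finrank ℚ K = 4 ∧ Nonempty (Fin 4 ≃ (K →+* ℝ)) ∧
      ∃ O : ℕ → Subring (𝓞 K), (∀ i, (O i).toAddSubgroup.index ≠ 0) ∧
        Tendsto (fun i => discOrder (O i)) atTop atTop ∧
        ∀ σ : Fin 4 ≃ (K →+* ℝ), ∃ f : XSpace 4 → ℝ,
          Continuous f ∧ HasCompactSupport f ∧ (∀ x, 0 ≤ f x) ∧
          (∀ m : Measure (XSpace 4), IsProbabilityMeasure m →
            (∀ h, m.map (XSpace.rmul h) = m) → 0 < ∫ x, f x ∂m) ∧
          ∀ i, ∀ x ∈ packetSupport (O i) σ, f x = 0 := by
  refine ⟨QuarticField, inferInstance, inferInstance, inferInstance, finrank_quartic,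
    nonempty_sigma QuarticField finrank_quartic, ?_⟩
  obtain ⟨O, hO1, hO2, hO3⟩ := exists_orders (IntermediateField.adjoin ℚ {quarticBeta})
    quartic_subfield_ne_top
  refine ⟨O, hO1, hO2, fun σ => ?_⟩
  obtain ⟨β, hβF, hβ⟩ := exists_nonrational_integer (IntermediateField.adjoin ℚ {quarticBeta})
    quartic_subfield_ne_bot
  obtain ⟨f, hf1, hf2, hf3, hf4, hf5⟩ := exists_test_function_field 4 (by norm_num) σ β hβ
  exact ⟨f, hf1, hf2, hf3, hf4, fun i x hx => hf5 (O i) (hO3 i β hβF) x hx⟩

end Vale.Agent.Lib.P007
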