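import Vale.Agent.Lib.P007.PacketProof

namespace Vale.Agent.Lib.P007

open NumberField Filter MeasureTheory Topology

/-- If `f` is continuous and vanishes on the packets of all `O i`, then its integrals
against the packet measures vanish and do not tend to a positive number. -/
theorem packet_integrals {n : ℕ} {K : Type*} [Field K] [NumberField K]
    (O : ℕ → Subring (𝓞 K)) (σ : Fin n ≃ (K →+* ℝ)) {f : XSpace n → ℝ} (hfc : Continuous f)
    (hf : ∀ i, ∀ x ∈ packetSupport (O i) σ, f x = 0) :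
    (∀ i, ∫ x, f x ∂(packetMeasure (O i) σ) = 0) ∧
      ∀ c : ℝ, 0 < c →
        ¬ Tendsto (fun i => ∫ x, f x ∂(packetMeasure (O i) σ)) atTop (𝓝 c) := by
  have h0 : ∀ i, ∫ x, f x ∂(packetMeasure (O i) σ) = 0 :=
    fun i => integral_packetMeasure_eq_zero (O i) σ hfc (hf i)
  refine ⟨h0, fun c hc hT => ?_⟩
  have hfun : (fun i => ∫ x, f x ∂(packetMeasure (O i) σ)) = fun _ => (0 : ℝ) := funext h0
  rw [hfun] at hT
  have := tendsto_nhds_unique hT tendsto_const_nhds
  exact hc.ne this.symm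

/-- Degree four, with the packet measures: the integrals of a suitable `f` in `C_c(X_4)`
against `mu_{O_i,sigma}` are all zero and do not converge to its positive integral against
an invariant probability measure. -/
theorem quartic_counterexample_measure :
    ∃ (K : Type) (_ : Field K) (_ : NumberField K) (_ : IsTotallyReal K),
      Module.finrank ℚ K = 4 ∧ Nonempty (Fin 4 ≃ (K →+* ℝ)) ∧
      ∃ O : ℕ → Subring (𝓞 K), (∀ i, (O i).toAddSubgroup.index ≠ 0) ∧
        Tendsto (fun i => discOrder (O i)) atTop atTop ∧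
        ∀ σ : Fin 4 ≃ (K →+* ℝ), ∃ f : XSpace 4 → ℝ,
          Continuous f ∧ HasCompactSupport f ∧
          (∀ i, ∫ x, f x ∂(packetMeasure (O i) σ) = 0) ∧
          ∀ m : Measure (XSpace 4), IsProbabilityMeasure m →
            (∀ h, m.map (XSpace.rmul h) = m) →
            0 < ∫ x, f x ∂m ∧
            ¬ Tendsto (fun i => ∫ x, f x ∂(packetMeasure (O i) σ)) atTop
              (𝓝 (∫ x, f x ∂m)) := by
  obtain ⟨K, iF, iN, iT, hdeg, hσ, O, hO1, hO2, hmain⟩ := quartic_counterexample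
  refine ⟨K, iF, iN, iT, hdeg, hσ, O, hO1, hO2, fun σ => ?_⟩
  obtain ⟨f, hf1, hf2, _, hf4, hf5⟩ := hmain σ
  obtain ⟨h0, hT⟩ := packet_integrals O σ hf1 hf5
  exact ⟨f, hf1, hf2, h0, fun m hm hinv => ⟨hf4 m hm hinv, hT _ (hf4 m hm hinv)⟩⟩

/-- Every degree, with the packet measures: the subfield obstruction. -/
theorem subfield_obstruction_measure (n : ℕ) (K : Type*) [Field K] [NumberField K]
    (hn : 0 < n) (σ : Fin n ≃ (K →+* ℝ)) (F : IntermediateField ℚ K) (hF1 : F ≠ ⊥)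
    (hF2 : F ≠ ⊤) :
    ∃ f : XSpace n → ℝ, Continuous f ∧ HasCompactSupport f ∧
      (∀ m : Measure (XSpace n), IsProbabilityMeasure m →
        (∀ h, m.map (XSpace.rmul h) = m) → 0 < ∫ x, f x ∂m) ∧
      (∀ O : Subring (𝓞 K), (∀ b : 𝓞 K, (b : K) ∈ F → b ∈ O) →
        ∫ x, f x ∂(packetMeasure O σ) = 0) ∧
      ∃ O : ℕ → Subring (𝓞 K), (∀ i, ∀ b : 𝓞 K, (b : K) ∈ F → b ∈ O i) ∧
        (∀ i, (O i).toAddSubgroup.index ≠ 0) ∧
        Tendsto (fun i => discOrder (O i)) atTop atTop := by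
  obtain ⟨f, hf1, hf2, _, hf4, hf5, hO⟩ := subfield_obstruction n K hn σ F hF1 hF2
  exact ⟨f, hf1, hf2, hf4,
    fun O hOF => integral_packetMeasure_eq_zero O σ hf1 (hf5 O hOF), hO⟩

end Vale.Agent.Lib.P007
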