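import Vale.Agent.Lib.P007.Orders

namespace Vale.Agent.Lib.P007

open Polynomial NumberField Filter MeasureTheory

/-- The polynomial `x^4 - 4x^2 + 2` over the integers. -/
noncomputable def quarticZ : ℤ[X] := X ^ 4 - C 4 * X ^ 2 + C 2

theorem quarticZ_natDegree : quarticZ.natDegree = 4 := by
  unfold quarticZ; compute_degree!

theorem quarticZ_monic : quarticZ.Monic := by
  unfold quarticZ; monicity!

theorem quarticZ_irreducible : Irreducible quarticZ := by
  have hdeg : quarticZ.degree = 4 := by
    rw [degree_eq_natDegree quarticZ_monic.ne_zero, quarticZ_natDegree]; rfl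
  apply irreducible_of_eisenstein_criterion (P := Ideal.span {(2 : ℤ)})
  · exact (Ideal.span_singleton_prime (by norm_num)).mpr Int.prime_two
  · rw [quarticZ_monic.leadingCoeff, Ideal.mem_span_singleton]
    norm_num
  · intro n hn
    rw [hdeg] at hn
    have hn' : n < 4 := by exact_mod_cast hn
    rw [Ideal.mem_span_singleton]
    interval_cases n <;> simp [quarticZ, coeff_X_pow]
  · rw [hdeg]; norm_num
  · rw [Ideal.span_singleton_pow, Ideal.mem_span_singleton]
    simp [quarticZ, coeff_X_pow]
  · exact quarticZ_monic.isPrimitive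

/-- The polynomial `x^4 - 4x^2 + 2` over the rationals. -/
noncomputable def quarticQ : ℚ[X] := quarticZ.map (Int.castRingHom ℚ)

theorem quarticQ_irreducible : Irreducible quarticQ :=
  (IsPrimitive.Int.irreducible_iff_irreducible_map_cast quarticZ_monic.isPrimitive).mp
    quarticZ_irreducible

instance quarticQ_fact : Fact (Irreducible quarticQ) := ⟨quarticQ_irreducible⟩

theorem quarticQ_eq : quarticQ = X ^ 4 - 4 * X ^ 2 + 2 := by
  simp [quarticQ, quarticZ]

theorem eval₂_quarticQ {A : Type*} [CommRing A] (g : ℚ →+* A) (x : A) :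
    eval₂ g x quarticQ = x ^ 4 - 4 * x ^ 2 + 2 := by
  rw [quarticQ_eq]
  simp [eval₂_sub, eval₂_add, eval₂_mul, eval₂_pow, map_ofNat]

/-- The quartic field `Q[x]/(x^4 - 4x^2 + 2)`. -/
abbrev QuarticField : Type := AdjoinRoot quarticQ

theorem finrank_quartic : Module.finrank ℚ QuarticField = 4 := by
  have hne : quarticQ ≠ 0 := quarticQ_irreducible.ne_zero
  rw [(AdjoinRoot.powerBasis hne).finrank, AdjoinRoot.powerBasis_dim]
  rw [quarticQ_eq]
  compute_degree!

theorem root_eq : (AdjoinRoot.root quarticQ) ^ 4 - 4 * (AdjoinRoot.root quarticQ) ^ 2 + 2 = 0 := by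
  rw [← eval₂_quarticQ (AdjoinRoot.of quarticQ)]
  exact AdjoinRoot.eval₂_root quarticQ

theorem real_of_root (z : ℂ) (hz : z ^ 4 - 4 * z ^ 2 + 2 = 0) : (starRingEnd ℂ) z = z := by
  have hs2 : ((Real.sqrt 2 : ℝ) : ℂ) ^ 2 = 2 := by
    have : (Real.sqrt 2) ^ 2 = (2 : ℝ) := Real.sq_sqrt (by norm_num)
    exact_mod_cast this
  have hslt : Real.sqrt 2 < 2 := by
    rw [Real.sqrt_lt' (by norm_num)]; norm_num
  have hw : (z ^ 2 - 2 - (Real.sqrt 2 : ℝ)) * (z ^ 2 - 2 + (Real.sqrt 2 : ℝ)) = 0 := by
    linear_combination hz - hs2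
  have key : ∀ r : ℝ, 0 ≤ r → z ^ 2 = (r : ℂ) → (starRingEnd ℂ) z = z := by
    intro r hr hzr
    have ht : ((Real.sqrt r : ℝ) : ℂ) ^ 2 = (r : ℂ) := by
      have : (Real.sqrt r) ^ 2 = r := Real.sq_sqrt hr
      exact_mod_cast this
    have hprod : (z - (Real.sqrt r : ℝ)) * (z + (Real.sqrt r : ℝ)) = 0 := by
      linear_combination hzr - ht
    rcases mul_eq_zero.mp hprod with h | h
    · have : z = ((Real.sqrt r : ℝ) : ℂ) := by linear_combination h
      rw [this, Complex.conj_ofReal]
    · have : z = ((-Real.sqrt r : ℝ) : ℂ) := by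
        push_cast
        linear_combination h
      rw [this, Complex.conj_ofReal]
  rcases mul_eq_zero.mp hw with h | h
  · refine key (2 + Real.sqrt 2) (by positivity) ?_
    push_cast
    linear_combination h
  · refine key (2 - Real.sqrt 2) (by linarith) ?_
    push_cast
    linear_combination h

instance quartic_isTotallyReal : IsTotallyReal QuarticField := by
  rw [← maximalRealSubfield_eq_top_iff_isTotallyReal, eq_top_iff]
  intro x _
  rw [mem_maximalRealSubfield_iff]
  intro φ
  obtain ⟨p, rfl⟩ := AdjoinRoot.mk_surjective x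
  have hmk : AdjoinRoot.mk quarticQ p =
      eval₂ (AdjoinRoot.of quarticQ) (AdjoinRoot.root quarticQ) p := by
    rw [← AdjoinRoot.aeval_eq, aeval_def, AdjoinRoot.algebraMap_eq]
  have hz : (starRingEnd ℂ) (φ (AdjoinRoot.root quarticQ)) = φ (AdjoinRoot.root quarticQ) := by
    apply real_of_root
    have := congrArg φ root_eq
    simpa [map_ofNat] using this
  rw [hmk, hom_eval₂]
  change (starRingEnd ℂ) _ = _
  rw [hom_eval₂, hz]
  congr 1
  exact Subsingleton.elim _ _

/-- The element `beta = theta^2 - 2`, a square root of two. -/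
noncomputable def quarticBeta : QuarticField := (AdjoinRoot.root quarticQ) ^ 2 - 2

theorem quarticBeta_sq : quarticBeta ^ 2 = 2 := by
  unfold quarticBeta
  linear_combination root_eq

theorem quartic_subfield_ne_bot : IntermediateField.adjoin ℚ {quarticBeta} ≠ ⊥ := by
  intro h
  have hmem : quarticBeta ∈ IntermediateField.adjoin ℚ {quarticBeta} :=
    IntermediateField.mem_adjoin_simple_self ℚ quarticBeta
  rw [h, IntermediateField.mem_bot] at hmem
  obtain ⟨q, hq⟩ := hmem
  have hq2 : q ^ 2 = 2 := by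
    apply (algebraMap ℚ QuarticField).injective
    rw [map_pow, hq, quarticBeta_sq]
    simp
  have hq2' : ((q : ℝ)) ^ 2 = 2 := by exact_mod_cast hq2
  have hs : Real.sqrt 2 = |(q : ℝ)| := by
    rw [← hq2', Real.sqrt_sq_eq_abs]
  apply irrational_sqrt_two
  rw [hs]
  exact ⟨|q|, by push_cast; rfl⟩

theorem quartic_subfield_ne_top : IntermediateField.adjoin ℚ {quarticBeta} ≠ ⊤ := by
  intro h
  have hint : IsIntegral ℚ quarticBeta := Algebra.IsIntegral.isIntegral quarticBeta
  have h1 := IntermediateField.adjoin.finrank hint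
  rw [h, IntermediateField.finrank_top', finrank_quartic] at h1
  have hmon : (X ^ 2 - C 2 : ℚ[X]).Monic := monic_X_pow_sub_C 2 (by norm_num)
  have h2 := minpoly.min ℚ quarticBeta hmon (by simp [quarticBeta_sq])
  have h3 := natDegree_le_natDegree h2
  have h4 : (X ^ 2 - C 2 : ℚ[X]).natDegree = 2 := natDegree_X_pow_sub_C
  omega

/-- A totally real field of degree `n` has exactly `n` real embeddings, which can be ordered. -/
theorem nonempty_sigma (K : Type*) [Field K] [NumberField K] [IsTotallyReal K] {n : ℕ}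
    (hn : Module.finrank ℚ K = n) : Nonempty (Fin n ≃ (K →+* ℝ)) := by
  let e : (K →+* ℝ) ≃ (K →+* ℂ) := Equiv.ofBijective (fun ψ => Complex.ofRealHom.comp ψ) (by
    constructor
    · intro ψ1 ψ2 h
      ext x
      have := RingHom.congr_fun h x
      exact Complex.ofReal_injective this
    · intro φ
      refine ⟨(IsTotallyReal.complexEmbedding_isReal φ).embedding, ?_⟩
      ext x
      exact ComplexEmbedding.IsReal.coe_embedding_apply _ x)
  have hfin : Finite (K →+* ℝ) := Finite.of_equiv _ e.symm
  have hcard : Nat.card (K →+* ℝ) = n := by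
    rw [Nat.card_congr e, Nat.card_eq_fintype_card, NumberField.Embeddings.card K ℂ, hn]
  exact ⟨(Finite.equivFinOfCardEq hcard).symm⟩

end Vale.Agent.Lib.P007
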