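import Vale.Agent.Lib.P007.PacketProof
import Vale.Agent.Lib.P007.Quartic

namespace Vale.Agent.Lib.P007

open Matrix MeasureTheory NumberField

section

variable {K : Type*} [Field K] [NumberField K]

/-- The order `O`, as a subgroup of `K`. -/
def orderModule (O : Subring (𝓞 K)) : Submodule ℤ K where
  carrier := {x | ∃ a ∈ O, (a : K) = x}
  add_mem' := by
    rintro _ _ ⟨a, ha, rfl⟩ ⟨b, hb, rfl⟩
    exact ⟨a + b, O.add_mem ha hb, by simp⟩
  zero_mem' := ⟨0, O.zero_mem, by simp⟩
  smul_mem' := by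
    rintro m _ ⟨a, ha, rfl⟩
    exact ⟨m • a, O.toAddSubgroup.zsmul_mem ha m, by simp⟩

theorem isProperInvertible_orderModule (O : Subring (𝓞 K)) :
    IsProperInvertible O (orderModule O) := by
  have hstab : IsOModule O (orderModule O) := by
    rintro a ha _ ⟨b, hb, rfl⟩
    exact ⟨a * b, O.mul_mem ha hb, by simp⟩
  refine ⟨hstab, ?_, orderModule O, hstab, ?_⟩
  · intro α hα
    have := hα 1 ⟨1, O.one_mem, by simp⟩
    rwa [mul_one] at this
  · intro x
    constructor
    · intro hx
      refine Submodule.mul_induction_on hx ?_ ?_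
      · rintro _ ⟨a, ha, rfl⟩ _ ⟨b, hb, rfl⟩
        exact ⟨a * b, O.mul_mem ha hb, by simp⟩
      · rintro _ _ ⟨a, ha, rfl⟩ ⟨b, hb, rfl⟩
        exact ⟨a + b, O.add_mem ha hb, by simp⟩
    · rintro ⟨a, ha, rfl⟩
      have h1 : ((a : 𝓞 K) : K) = (a : K) * ((1 : 𝓞 K) : K) := by simp
      rw [h1]
      exact Submodule.mul_mem_mul ⟨a, ha, rfl⟩ ⟨1, O.one_mem, rfl⟩

/-- Every element of `K` has a nonzero integer multiple in the ring of integers. -/
theorem exists_int_mul_integer (y : K) :
    ∃ (a : 𝓞 K) (d : ℤ), d ≠ 0 ∧ (d : K) * y = (a : K) := by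
  obtain ⟨⟨a, _, d, hd, rfl⟩, h⟩ := IsLocalization.surj (Algebra.algebraMapSubmonoid (𝓞 K) (nonZeroDivisors ℤ)) y
  refine ⟨a, d, nonZeroDivisors.ne_zero hd, ?_⟩
  simp only [algebraMap_int_eq, eq_intCast, map_intCast] at h
  rw [mul_comm]
  exact h

/-- A totally real field has as many real embeddings as its degree. -/
theorem card_realEmbeddings (K : Type*) [Field K] [NumberField K] [IsTotallyReal K] :
    Nat.card (K →+* ℝ) = Module.finrank ℚ K := by
  let e : (K →+* ℝ) ≃ (K →+* ℂ) := Equiv.ofBijective (fun ψ => Complex.ofRealHom.comp ψ) (by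
    constructor
    · intro ψ1 ψ2 h
      ext x
      have := RingHom.congr_fun h x
      exact Complex.ofReal_injective this
    · intro φ
      refine ⟨(IsTotallyReal.complexEmbedding_isReal φ).embedding, ?_⟩
      ext x
      exact ComplexEmbedding.IsReal.coe_embedding_apply _ x)
  rw [Nat.card_congr e, Nat.card_eq_fintype_card, NumberField.Embeddings.card K ℂ]

theorem finrank_eq_of_sigma [IsTotallyReal K] {n : ℕ} (σ : Fin n ≃ (K →+* ℝ)) :
    Module.finrank ℚ K = n := by
  rw [← card_realEmbeddings K, Nat.card_congr σ.symm, Nat.card_eq_fintype_card, Fintype.card_fin]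

/-- An order of finite index has a family of `n = [K : Q]` generators as a group. -/
theorem exists_generators (O : Subring (𝓞 K)) (hO : O.toAddSubgroup.index ≠ 0) {n : ℕ}
    (hn : Module.finrank ℚ K = n) :
    ∃ b : Fin n → 𝓞 K, (∀ i, b i ∈ O) ∧ ∀ a ∈ O, ∃ c : Fin n → ℤ, ∑ i, c i • b i = a := by
  set Os : Submodule ℤ (𝓞 K) := AddSubgroup.toIntSubmodule O.toAddSubgroup with hOs
  have hrank : Module.finrank ℤ Os = n := by
    apply le_antisymm
    · rw [← hn, ← RingOfIntegers.rank K]
      exact Submodule.finrank_le Os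
    · rw [← hn, ← RingOfIntegers.rank K]
      let φ : 𝓞 K →ₗ[ℤ] Os :=
        { toFun := fun x => ⟨O.toAddSubgroup.index • x,
            show O.toAddSubgroup.index • x ∈ O.toAddSubgroup from
              AddSubgroup.nsmul_index_mem _ x⟩
          map_add' := fun x y => by
            apply Subtype.ext
            simp [smul_add]
          map_smul' := fun m x => by
            apply Subtype.ext
            simp only [nsmul_eq_mul, zsmul_eq_mul, RingHom.id_apply, Submodule.coe_smul]
            ring }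
      apply LinearMap.finrank_le_finrank_of_injective (f := φ)
      intro x y hxy
      have h1 : O.toAddSubgroup.index • x = O.toAddSubgroup.index • y := congrArg Subtype.val hxy
      simp only [nsmul_eq_mul] at h1
      exact mul_left_cancel₀ (Nat.cast_ne_zero.mpr hO) h1
  let B : Module.Basis (Fin n) ℤ Os := (Module.finBasis ℤ Os).reindex (finCongr hrank)
  refine ⟨fun i => (B i : 𝓞 K), fun i => (B i).2, fun a ha => ?_⟩
  have ha' : a ∈ Os := ha
  refine ⟨fun i => B.repr ⟨a, ha'⟩ i, ?_⟩
  have h1 := B.sum_repr ⟨a, ha'⟩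
  have h2 := congrArg (Subtype.val) h1
  simp only [Submodule.coe_sum, Submodule.coe_smul] at h2
  exact h2

/-- The matrix of the real embeddings on a generating family of an order of finite index is
invertible (independence of characters). -/
theorem det_embeddings_ne_zero {n : ℕ} (O : Subring (𝓞 K)) (hO : O.toAddSubgroup.index ≠ 0)
    (σ : Fin n ≃ (K →+* ℝ)) (b : Fin n → 𝓞 K)
    (hb : ∀ a ∈ O, ∃ c : Fin n → ℤ, ∑ i, c i • b i = a) :
    (Matrix.of fun i j => σ j (b i : K)).det ≠ 0 := by
  intro hdet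
  obtain ⟨v, hv0, hv⟩ := Matrix.exists_mulVec_eq_zero_iff.mpr hdet
  have hrow : ∀ i, ∑ j, v j * σ j (b i : K) = 0 := by
    intro i
    have := congrFun hv i
    simp only [Matrix.mulVec, dotProduct, Matrix.of_apply, Pi.zero_apply] at this
    rw [← this]
    exact Finset.sum_congr rfl fun j _ => mul_comm _ _
  have h1 : ∀ a ∈ O, ∑ j, v j * σ j (a : K) = 0 := by
    intro a ha
    obtain ⟨c, rfl⟩ := hb a ha
    have h2 : ∀ j, σ j ((∑ i, c i • b i : 𝓞 K) : K) = ∑ i, (c i : ℝ) * σ j (b i : K) := by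
      intro j
      simp [map_sum]
    simp only [h2, Finset.mul_sum]
    rw [Finset.sum_comm]
    refine Finset.sum_eq_zero fun i _ => ?_
    have h3 : ∀ j, v j * ((c i : ℝ) * σ j (b i : K)) = (c i : ℝ) * (v j * σ j (b i : K)) :=
      fun j => by ring
    simp only [h3, ← Finset.mul_sum, hrow i, mul_zero]
  have h2 : ∀ y : K, ∑ j, v j * σ j y = 0 := by
    intro y
    obtain ⟨a, d, hd, hda⟩ := exists_int_mul_integer y
    have ha' : O.toAddSubgroup.index • a ∈ O :=
      AddSubgroup.nsmul_index_mem O.toAddSubgroup a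
    have h3 := h1 _ ha'
    have h4 : ∀ j, σ j ((O.toAddSubgroup.index • a : 𝓞 K) : K) =
        ((O.toAddSubgroup.index : ℝ) * (d : ℝ)) * σ j y := by
      intro j
      have : ((O.toAddSubgroup.index • a : 𝓞 K) : K) =
          (O.toAddSubgroup.index : K) * ((d : K) * y) := by
        rw [hda]; simp
      rw [this]
      simp [mul_assoc]
    have h5 : ∀ j, v j * (((O.toAddSubgroup.index : ℝ) * (d : ℝ)) * σ j y) =
        ((O.toAddSubgroup.index : ℝ) * (d : ℝ)) * (v j * σ j y) := fun j => by ring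
    simp only [h4, h5, ← Finset.mul_sum] at h3
    have hne : ((O.toAddSubgroup.index : ℝ) * (d : ℝ)) ≠ 0 :=
      mul_ne_zero (Nat.cast_ne_zero.mpr hO) (Int.cast_ne_zero.mpr hd)
    exact (mul_eq_zero.mp h3).resolve_left hne
  have hli := linearIndependent_monoidHom K ℝ
  have hinj : Function.Injective (fun j : Fin n => ((σ j : K →+* ℝ) : K →* ℝ)) := by
    intro j k hjk
    apply σ.injective
    exact RingHom.coe_monoidHom_injective hjk
  have hli2 := hli.comp _ hinj
  rw [Fintype.linearIndependent_iff] at hli2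
  apply hv0
  funext j
  refine hli2 v ?_ j
  funext y
  simpa using h2 y

/-- The packet of an order of finite index in a totally real field is not empty: the order
itself is a proper invertible ideal and gives a point of `X_n`. -/
theorem packetSupport_nonempty [IsTotallyReal K] {n : ℕ} (O : Subring (𝓞 K))
    (hO : O.toAddSubgroup.index ≠ 0) (σ : Fin n ≃ (K →+* ℝ)) :
    (packetSupport O σ).Nonempty := by
  have hn : Module.finrank ℚ K = n := finrank_eq_of_sigma σ
  obtain ⟨b, hbO, hbspan⟩ := exists_generators O hO hn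
  set M : Matrix (Fin n) (Fin n) ℝ := Matrix.of fun i j => σ j (b i : K) with hM
  have hdet : M.det ≠ 0 := det_embeddings_ne_zero O hO σ b hbspan
  have hnpos : 0 < n := by rw [← hn]; exact Module.finrank_pos
  let j₀ : Fin n := ⟨0, hnpos⟩
  let s : ℝ := if 0 < M.det then 1 else -1
  let w : Fin n → ℝ := fun j => if j = j₀ then s else 1
  have hs : s = 1 ∨ s = -1 := by
    by_cases h : 0 < M.det
    · left; simp [s, h]
    · right; simp [s, h]
  have hw : ∀ j, w j = 1 ∨ w j = -1 := by
    intro j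
    by_cases h : j = j₀
    · simp only [w, h, if_true]; exact hs
    · left; simp [w, h]
  have hprod : ∏ j, w j = s := by
    simp [w]
  have hdet2 : (M * Matrix.diagonal w).det = |M.det| := by
    rw [Matrix.det_mul, Matrix.det_diagonal, hprod]
    by_cases h : 0 < M.det
    · simp [s, h, abs_of_pos h]
    · have h' : M.det < 0 := lt_of_le_of_ne (not_lt.mp h) hdet
      simp [s, h, abs_of_neg h']
  let c : ℝ := (|M.det|⁻¹) ^ ((n : ℝ)⁻¹)
  have hc : 0 < c := Real.rpow_pos_of_pos (inv_pos.mpr (abs_pos.mpr hdet)) _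
  have hcn : c ^ n = |M.det|⁻¹ :=
    Real.rpow_inv_natCast_pow (inv_nonneg.mpr (abs_nonneg _)) hnpos.ne'
  let g : SpecialLinearGroup (Fin n) ℝ := ⟨c • (M * Matrix.diagonal w), by
    rw [Matrix.det_smul, Fintype.card_fin, hcn, hdet2, inv_mul_cancel₀ (abs_ne_zero.mpr hdet)]⟩
  have hg : ∀ i j, (g : Matrix (Fin n) (Fin n) ℝ) i j = c * σ j (b i : K) * w j := by
    intro i j
    change (c • (M * Matrix.diagonal w)) i j = _
    rw [Matrix.smul_apply, Matrix.mul_diagonal, smul_eq_mul, hM, Matrix.of_apply, mul_assoc]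
  have key : ∀ (k : Fin n → ℤ) (j : Fin n),
      (∑ i, k i • (g : Matrix (Fin n) (Fin n) ℝ) i) j =
        c * σ j ((∑ i, k i • b i : 𝓞 K) : K) * w j * Real.exp ((fun _ : Fin n => (0 : ℝ)) j) := by
    intro k j
    have h2 : σ j ((∑ i, k i • b i : 𝓞 K) : K) = ∑ i, (k i : ℝ) * σ j (b i : K) := by
      simp [map_sum]
    rw [h2, Real.exp_zero, mul_one, Finset.sum_apply, Finset.mul_sum, Finset.sum_mul]
    refine Finset.sum_congr rfl fun i _ => ?_
    rw [Pi.smul_apply, hg, zsmul_eq_mul]
    ring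
  refine ⟨XSpace.mk g, orderModule O, w, fun _ => 0, c, isProperInvertible_orderModule O, hw,
    by simp, hc, g, rfl, ?_⟩
  ext v
  simp only [SetLike.mem_coe, packetLattice, Set.mem_setOf_eq]
  rw [Submodule.mem_span_range_iff_exists_fun]
  constructor
  · rintro ⟨k, rfl⟩
    exact ⟨((∑ i, k i • b i : 𝓞 K) : K),
      ⟨∑ i, k i • b i, O.toAddSubgroup.sum_mem fun i _ => O.toAddSubgroup.zsmul_mem (hbO i) _, rfl⟩,
      fun j => key k j⟩
  · rintro ⟨y, ⟨a, ha, rfl⟩, hv⟩
    obtain ⟨k, rfl⟩ := hbspan a ha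
    refine ⟨k, ?_⟩
    funext j
    rw [hv j]
    exact key k j

end

end Vale.Agent.Lib.P007
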