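import Vale.Agent.Lib.P007.Topo

namespace Vale.Agent.Lib.P007

open Matrix MeasureTheory Topology

/-- Matrices `g` in `SL_n(R)` with `g * diag(rho) * g⁻¹` integral. -/
def stableSet (n : ℕ) (ρ : Fin n → ℝ) : Set (SpecialLinearGroup (Fin n) ℝ) :=
  {g | ∀ i j, ((g : Matrix (Fin n) (Fin n) ℝ) * Matrix.diagonal ρ *
      ((g⁻¹ : SpecialLinearGroup (Fin n) ℝ) : Matrix (Fin n) (Fin n) ℝ)) i j ∈
      Set.range ((↑) : ℤ → ℝ)}

theorem isClosed_stableSet (n : ℕ) (ρ : Fin n → ℝ) : IsClosed (stableSet n ρ) := by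
  have hZ : IsClosed (Set.range ((↑) : ℤ → ℝ)) := Int.isClosedEmbedding_coe_real.isClosed_range
  have hset : stableSet n ρ = ⋂ i, ⋂ j, (fun g : SpecialLinearGroup (Fin n) ℝ =>
      ((g : Matrix (Fin n) (Fin n) ℝ) * Matrix.diagonal ρ *
      ((g⁻¹ : SpecialLinearGroup (Fin n) ℝ) : Matrix (Fin n) (Fin n) ℝ)) i j) ⁻¹'
      Set.range ((↑) : ℤ → ℝ) := by
    ext g
    simp [stableSet]
  rw [hset]
  refine isClosed_iInter fun i => isClosed_iInter fun j => hZ.preimage ?_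
  have h1 : Continuous fun g : SpecialLinearGroup (Fin n) ℝ =>
      (g : Matrix (Fin n) (Fin n) ℝ) := continuous_subtype_val
  have h2 : Continuous fun g : SpecialLinearGroup (Fin n) ℝ =>
      ((g⁻¹ : SpecialLinearGroup (Fin n) ℝ) : Matrix (Fin n) (Fin n) ℝ) :=
    continuous_subtype_val.comp continuous_inv
  have h3 : Continuous fun g : SpecialLinearGroup (Fin n) ℝ =>
      (g : Matrix (Fin n) (Fin n) ℝ) * Matrix.diagonal ρ *
      ((g⁻¹ : SpecialLinearGroup (Fin n) ℝ) : Matrix (Fin n) (Fin n) ℝ) :=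
    (h1.mul continuous_const).mul h2
  exact (continuous_apply j).comp ((continuous_apply i).comp h3)

theorem stableSet_mul_mem {n : ℕ} {ρ : Fin n → ℝ} {γ g : SpecialLinearGroup (Fin n) ℝ}
    (hγ : γ ∈ GammaSL n) (hg : g ∈ stableSet n ρ) : γ * g ∈ stableSet n ρ := by
  have hγi : γ⁻¹ ∈ GammaSL n := inv_mem hγ
  obtain ⟨γ', hγ'⟩ := hγ
  obtain ⟨γ'', hγ''⟩ := hγi
  have hg' : ∃ N : Matrix (Fin n) (Fin n) ℤ, (g : Matrix (Fin n) (Fin n) ℝ) * Matrix.diagonal ρ *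
      ((g⁻¹ : SpecialLinearGroup (Fin n) ℝ) : Matrix (Fin n) (Fin n) ℝ) =
      N.map (Int.castRingHom ℝ) := by
    choose N hN using hg
    exact ⟨Matrix.of N, by ext i j; simp [hN i j]⟩
  obtain ⟨N, hN⟩ := hg'
  have e1 : (γ : Matrix (Fin n) (Fin n) ℝ) =
      (γ' : Matrix (Fin n) (Fin n) ℤ).map (Int.castRingHom ℝ) := by
    rw [← hγ']; rfl
  have e2 : ((γ⁻¹ : SpecialLinearGroup (Fin n) ℝ) : Matrix (Fin n) (Fin n) ℝ) =
      (γ'' : Matrix (Fin n) (Fin n) ℤ).map (Int.castRingHom ℝ) := by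
    rw [← hγ'']; rfl
  have e : (γ * g)⁻¹ = g⁻¹ * γ⁻¹ := _root_.mul_inv_rev γ g
  have e' : (((γ * g)⁻¹ : SpecialLinearGroup (Fin n) ℝ) : Matrix (Fin n) (Fin n) ℝ) =
      ((g⁻¹ : SpecialLinearGroup (Fin n) ℝ) : Matrix (Fin n) (Fin n) ℝ) *
      ((γ⁻¹ : SpecialLinearGroup (Fin n) ℝ) : Matrix (Fin n) (Fin n) ℝ) :=
    congrArg Subtype.val e
  have key : ((γ * g : SpecialLinearGroup (Fin n) ℝ) : Matrix (Fin n) (Fin n) ℝ) *
      Matrix.diagonal ρ *
      (((γ * g)⁻¹ : SpecialLinearGroup (Fin n) ℝ) : Matrix (Fin n) (Fin n) ℝ) =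
      ((γ' : Matrix (Fin n) (Fin n) ℤ) * N * (γ'' : Matrix (Fin n) (Fin n) ℤ)).map
        (Int.castRingHom ℝ) := by
    calc ((γ * g : SpecialLinearGroup (Fin n) ℝ) : Matrix (Fin n) (Fin n) ℝ) *
          Matrix.diagonal ρ *
          (((γ * g)⁻¹ : SpecialLinearGroup (Fin n) ℝ) : Matrix (Fin n) (Fin n) ℝ)
        = ((γ : Matrix (Fin n) (Fin n) ℝ) * (g : Matrix (Fin n) (Fin n) ℝ)) *
          Matrix.diagonal ρ *
          (((g⁻¹ : SpecialLinearGroup (Fin n) ℝ) : Matrix (Fin n) (Fin n) ℝ) *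
          ((γ⁻¹ : SpecialLinearGroup (Fin n) ℝ) : Matrix (Fin n) (Fin n) ℝ)) :=
          congrArg (fun M => ((γ : Matrix (Fin n) (Fin n) ℝ) * (g : Matrix (Fin n) (Fin n) ℝ)) *
            Matrix.diagonal ρ * M) e'
      _ = (γ : Matrix (Fin n) (Fin n) ℝ) * ((g : Matrix (Fin n) (Fin n) ℝ) * Matrix.diagonal ρ *
          ((g⁻¹ : SpecialLinearGroup (Fin n) ℝ) : Matrix (Fin n) (Fin n) ℝ)) *
          ((γ⁻¹ : SpecialLinearGroup (Fin n) ℝ) : Matrix (Fin n) (Fin n) ℝ) := by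
          simp only [Matrix.mul_assoc]
      _ = ((γ' : Matrix (Fin n) (Fin n) ℤ) * N * (γ'' : Matrix (Fin n) (Fin n) ℤ)).map
          (Int.castRingHom ℝ) := by
          rw [hN, e1, e2, Matrix.map_mul, Matrix.map_mul]
  intro i j
  refine ⟨((γ' : Matrix (Fin n) (Fin n) ℤ) * N * (γ'' : Matrix (Fin n) (Fin n) ℤ)) i j, ?_⟩
  rw [key]
  simp

theorem one_notMem_stableSet {n : ℕ} {ρ : Fin n → ℝ}
    (hρ : ∃ j, ρ j ∉ Set.range ((↑) : ℤ → ℝ)) :
    (1 : SpecialLinearGroup (Fin n) ℝ) ∉ stableSet n ρ := by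
  obtain ⟨j, hj⟩ := hρ
  intro h
  have := h j j
  simp at this
  exact hj (by simpa using this)

/-- If the integer span of the rows of `g` is stable under coordinatewise multiplication
by `rho`, then `g` lies in the stable set. -/
theorem mem_stableSet_of_rows {n : ℕ} {ρ : Fin n → ℝ} {g : SpecialLinearGroup (Fin n) ℝ}
    (h : ∀ v ∈ Submodule.span ℤ (Set.range fun i : Fin n => (g : Matrix (Fin n) (Fin n) ℝ) i),
      (fun j => v j * ρ j) ∈
        Submodule.span ℤ (Set.range fun i : Fin n => (g : Matrix (Fin n) (Fin n) ℝ) i)) :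
    g ∈ stableSet n ρ := by
  have hrow : ∀ i : Fin n, ∃ c : Fin n → ℤ,
      ∑ k, c k • (g : Matrix (Fin n) (Fin n) ℝ) k = fun j => (g : Matrix (Fin n) (Fin n) ℝ) i j * ρ j := by
    intro i
    have hi := h ((g : Matrix (Fin n) (Fin n) ℝ) i) (Submodule.subset_span ⟨i, rfl⟩)
    exact (Submodule.mem_span_range_iff_exists_fun ℤ).mp hi
  choose N hN using hrow
  have hmat : (g : Matrix (Fin n) (Fin n) ℝ) * Matrix.diagonal ρ =
      (Matrix.of N).map ((↑) : ℤ → ℝ) * (g : Matrix (Fin n) (Fin n) ℝ) := by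
    ext i j
    have h1 := congrFun (hN i) j
    rw [Finset.sum_apply] at h1
    simp only [Pi.smul_apply] at h1
    simp only [zsmul_eq_mul] at h1
    rw [Matrix.mul_diagonal, Matrix.mul_apply]
    simp only [Matrix.map_apply, Matrix.of_apply]
    rw [h1]
  intro i j
  refine ⟨N i j, ?_⟩
  rw [hmat, Matrix.mul_assoc]
  have hinv : (g : Matrix (Fin n) (Fin n) ℝ) *
      ((g⁻¹ : SpecialLinearGroup (Fin n) ℝ) : Matrix (Fin n) (Fin n) ℝ) = 1 :=
    congrArg Subtype.val (mul_inv_cancel g)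
  rw [hinv, Matrix.mul_one]
  simp

/-- The obstruction: a test function vanishing at every point of `X_n` whose lattice is
stable under coordinatewise multiplication by `rho`. -/
theorem exists_test_function (n : ℕ) (ρ : Fin n → ℝ)
    (hρ : ∃ j, ρ j ∉ Set.range ((↑) : ℤ → ℝ)) :
    ∃ f : XSpace n → ℝ, Continuous f ∧ HasCompactSupport f ∧ (∀ x, 0 ≤ f x) ∧
      (∀ m : Measure (XSpace n), IsProbabilityMeasure m →
        (∀ h, m.map (XSpace.rmul h) = m) → 0 < ∫ x, f x ∂m) ∧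
      ∀ (x : XSpace n) (L : Set (Fin n → ℝ)), IsLatticeOf x L →
        (∀ v ∈ L, (fun j => v j * ρ j) ∈ L) → f x = 0 := by
  set U : Set (XSpace n) := XSpace.mk '' (stableSet n ρ)ᶜ with hU
  have hUo : IsOpen U :=
    (isOpenQuotientMap_mk n).isOpenMap _ (isClosed_stableSet n ρ).isOpen_compl
  have hUmem : ∀ g : SpecialLinearGroup (Fin n) ℝ, XSpace.mk g ∈ U → g ∉ stableSet n ρ := by
    rintro g ⟨g', hg', hgg'⟩ hg
    obtain ⟨γ, hγ, rfl⟩ := (mk_eq_mk_iff g' g).mp hgg'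
    exact hg' (stableSet_mul_mem hγ hg)
  have hx0 : XSpace.mk (1 : SpecialLinearGroup (Fin n) ℝ) ∈ U :=
    ⟨1, one_notMem_stableSet hρ, rfl⟩
  obtain ⟨f, hf1, hf0, hfc, hf01⟩ := exists_continuous_one_zero_of_isCompact
    (isCompact_singleton (x := XSpace.mk (1 : SpecialLinearGroup (Fin n) ℝ)))
    hUo.isClosed_compl (Set.disjoint_singleton_left.mpr (fun h => h hx0))
  refine ⟨f, f.continuous, hfc, fun x => (hf01 x).1, ?_, ?_⟩
  · intro m hm hinv
    have hint : Integrable f m := f.continuous.integrable_of_hasCompactSupport hfc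
    rw [integral_pos_iff_support_of_nonneg (fun x => (hf01 x).1) hint]
    have hopen : IsOpen (Function.support f) := f.continuous.isOpen_support
    refine measure_pos_of_isOpen m hinv hopen ⟨XSpace.mk 1, ?_⟩
    have : f (XSpace.mk 1) = 1 := hf1 (Set.mem_singleton _)
    simp [Function.mem_support, this]
  · rintro x L ⟨g, rfl, hL⟩ hstab
    apply hf0
    intro hmem
    refine hUmem g hmem (mem_stableSet_of_rows ?_)
    intro v hv
    have hv' : v ∈ L := by rw [← hL]; exact hv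
    have := hstab v hv'
    rw [← hL] at this
    exact this

end Vale.Agent.Lib.P007
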