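import Vale.Agent.Lib.P007.Obstruction

namespace Vale.Agent.Lib.P007

open NumberField Filter MeasureTheory

variable {K : Type*} [Field K] [NumberField K]

/-- The order `O_F + m * O_K`, where `O_F` is the set of integers of `K` lying in the
subfield `F`. -/
def subfieldOrder (F : IntermediateField ℚ K) (m : ℕ) : Subring (𝓞 K) where
  carrier := {x | ∃ y z : 𝓞 K, (y : K) ∈ F ∧ x = y + (m : 𝓞 K) * z}
  mul_mem' := by
    rintro _ _ ⟨y, z, hy, rfl⟩ ⟨y', z', hy', rfl⟩
    refine ⟨y * y', y * z' + z * y' + (m : 𝓞 K) * z * z', ?_, by ring⟩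
    have : ((y * y' : 𝓞 K) : K) = (y : K) * (y' : K) := map_mul _ _ _
    rw [this]
    exact F.mul_mem hy hy'
  one_mem' := ⟨1, 0, by
    have : ((1 : 𝓞 K) : K) = 1 := map_one _
    rw [this]
    exact F.one_mem, by simp⟩
  add_mem' := by
    rintro _ _ ⟨y, z, hy, rfl⟩ ⟨y', z', hy', rfl⟩
    refine ⟨y + y', z + z', ?_, by ring⟩
    have : ((y + y' : 𝓞 K) : K) = (y : K) + (y' : K) := map_add _ _ _
    rw [this]
    exact F.add_mem hy hy'
  zero_mem' := ⟨0, 0, by
    have : ((0 : 𝓞 K) : K) = 0 := map_zero _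
    rw [this]
    exact F.zero_mem, by simp⟩
  neg_mem' := by
    rintro _ ⟨y, z, hy, rfl⟩
    refine ⟨-y, -z, ?_, by ring⟩
    have : ((-y : 𝓞 K) : K) = -(y : K) := map_neg _ _
    rw [this]
    exact F.neg_mem hy

theorem mem_subfieldOrder_of_mem (F : IntermediateField ℚ K) (m : ℕ) {b : 𝓞 K}
    (hb : (b : K) ∈ F) : b ∈ subfieldOrder F m :=
  ⟨b, 0, hb, by simp⟩

theorem subfieldOrder_index_ne_zero (F : IntermediateField ℚ K) {m : ℕ} (hm : m ≠ 0) :
    (subfieldOrder F m).toAddSubgroup.index ≠ 0 := by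
  set I : Ideal (𝓞 K) := Ideal.span {(m : 𝓞 K)} with hI
  have hIne : I ≠ ⊥ := by
    rw [hI, Ne, Ideal.span_singleton_eq_bot]
    exact_mod_cast hm
  have hfin : Finite (𝓞 K ⧸ I) := Ideal.finiteQuotientOfFreeOfNeBot I hIne
  have hfin' : Finite (𝓞 K ⧸ I.toAddSubgroup) := hfin
  have h1 : I.toAddSubgroup.index ≠ 0 := AddSubgroup.index_ne_zero_of_finite
  have hle : I.toAddSubgroup ≤ (subfieldOrder F m).toAddSubgroup := by
    intro x hx
    obtain ⟨z, rfl⟩ := Ideal.mem_span_singleton'.mp hx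
    exact ⟨0, z, by
      have : ((0 : 𝓞 K) : K) = 0 := map_zero _
      rw [this]
      exact F.zero_mem, by ring⟩
  intro h0
  have := AddSubgroup.index_dvd_of_le hle
  rw [h0] at this
  exact h1 (zero_dvd_iff.mp this)

/-- A rational functional vanishing on a proper subfield, integral on integers, and
nonzero at some integer. -/
theorem exists_functional (F : IntermediateField ℚ K) (hF : F ≠ ⊤) :
    ∃ (l : K →ₗ[ℚ] ℚ) (θ : 𝓞 K) (A : ℤ), A ≠ 0 ∧ (∀ x : K, x ∈ F → l x = 0) ∧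
      l (θ : K) = A ∧ ∀ x : 𝓞 K, ∃ k : ℤ, l (x : K) = k := by
  have hlt : F.toSubalgebra.toSubmodule < ⊤ := by
    rw [lt_top_iff_ne_top]
    intro h
    apply hF
    rw [eq_top_iff]
    intro x _
    have : x ∈ F.toSubalgebra.toSubmodule := by rw [h]; trivial
    exact this
  obtain ⟨l0, hl0, hker⟩ := Submodule.exists_le_ker_of_lt_top _ hlt
  obtain ⟨S, hS⟩ := (Module.Finite.fg_top : (⊤ : Submodule ℤ (𝓞 K)).FG)
  set d : ℕ := ∏ s ∈ S, (l0 (s : K)).den with hd
  have hdpos : d ≠ 0 := by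
    rw [hd]
    exact Finset.prod_ne_zero_iff.mpr (fun s _ => (l0 (s : K)).den_ne_zero)
  set l : K →ₗ[ℚ] ℚ := (d : ℚ) • l0 with hl
  have hlapp : ∀ x : K, l x = (d : ℚ) * l0 x := fun x => by simp [hl]
  have hint : ∀ x : 𝓞 K, ∃ k : ℤ, l (x : K) = k := by
    intro x
    have hx : x ∈ Submodule.span ℤ (S : Set (𝓞 K)) := by rw [hS]; trivial
    induction hx using Submodule.span_induction with
    | mem s hs =>
      obtain ⟨e, he⟩ := Finset.dvd_prod_of_mem (fun s : 𝓞 K => (l0 (s : K)).den) hs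
      refine ⟨(e : ℤ) * (l0 (s : K)).num, ?_⟩
      rw [hlapp, hd, he]
      push_cast
      rw [← Rat.mul_den_eq_num]
      ring
    | zero => exact ⟨0, by simp⟩
    | add x y _ _ hx hy =>
      obtain ⟨a, ha⟩ := hx
      obtain ⟨b, hb⟩ := hy
      refine ⟨a + b, ?_⟩
      have : ((x + y : 𝓞 K) : K) = (x : K) + (y : K) := map_add _ _ _
      rw [this, map_add, ha, hb]
      push_cast
      ring
    | smul a x _ hx =>
      obtain ⟨b, hb⟩ := hx
      refine ⟨a * b, ?_⟩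
      have : ((a • x : 𝓞 K) : K) = (a : K) * (x : K) := by
        rw [zsmul_eq_mul]
        simp
      rw [this]
      have h2 : (a : K) * (x : K) = (a : ℚ) • (x : K) := by
        rw [Algebra.smul_def]; simp
      rw [h2, map_smul, hb]
      simp
  have hex : ∃ θ0 : K, l0 θ0 ≠ 0 := by
    by_contra h
    exact hl0 (LinearMap.ext fun x => by
      by_contra hx
      exact h ⟨x, hx⟩)
  obtain ⟨θ0, hθ0⟩ := hex
  have halg : IsAlgebraic ℤ θ0 :=
    (IsFractionRing.isAlgebraic_iff ℤ ℚ K).mpr (Algebra.IsAlgebraic.isAlgebraic θ0)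
  obtain ⟨y, hy, hyint⟩ := halg.exists_integral_multiple
  set θ : 𝓞 K := ⟨y • θ0, hyint⟩ with hθ
  have hθK : (θ : K) = (y : ℚ) • θ0 := by
    change y • θ0 = (y : ℚ) • θ0
    simp [Algebra.smul_def]
  obtain ⟨A, hA⟩ := hint θ
  refine ⟨l, θ, A, ?_, ?_, hA, hint⟩
  · intro hA0
    rw [hA0, hθK, map_smul, hlapp] at hA
    simp only [smul_eq_mul, Int.cast_zero, mul_eq_zero, Int.cast_eq_zero, Nat.cast_eq_zero] at hA
    rcases hA with h | h | h
    · exact hy h
    · exact hdpos h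
    · exact hθ0 h
  · intro x hx
    rw [hlapp]
    have : l0 x = 0 := hker hx
    rw [this, mul_zero]

theorem le_index_subfieldOrder (F : IntermediateField ℚ K) (l : K →ₗ[ℚ] ℚ) (θ : 𝓞 K) (A : ℤ)
    (hA : A ≠ 0) (hF : ∀ x : K, x ∈ F → l x = 0) (hθ : l (θ : K) = A)
    (hint : ∀ x : 𝓞 K, ∃ k : ℤ, l (x : K) = k) (a : ℕ) (ha : (a : ℤ) = A ∨ (a : ℤ) = -A)
    (i : ℕ) :
    i + 1 ≤ (subfieldOrder F (a * (i + 1))).toAddSubgroup.index := by
  set H := (subfieldOrder F (a * (i + 1))).toAddSubgroup with hH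
  have ha0 : a ≠ 0 := by
    rintro rfl
    rcases ha with h | h
    · exact hA (by simpa using h.symm)
    · exact hA (by simpa using h)
  have hm : a * (i + 1) ≠ 0 := Nat.mul_ne_zero ha0 (Nat.succ_ne_zero i)
  have hfin : H.index ≠ 0 := subfieldOrder_index_ne_zero F hm
  have : Finite (𝓞 K ⧸ H) := (AddSubgroup.fintypeOfIndexNeZero hfin).finite
  let φ : Fin (i + 1) → 𝓞 K ⧸ H := fun k => QuotientAddGroup.mk ((k : ℕ) • θ)
  have hinj : Function.Injective φ := by
    intro k k' hkk'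
    have hmem : -((k : ℕ) • θ) + (k' : ℕ) • θ ∈ H := QuotientAddGroup.eq.mp hkk'
    obtain ⟨y, z, hy, hyz⟩ := hmem
    obtain ⟨kz, hkz⟩ := hint z
    have h1 : (((k' : ℕ) : ℤ) - ((k : ℕ) : ℤ)) * A = ((a : ℤ) * ((i : ℤ) + 1)) * kz := by
      have h0 : l ((-((k : ℕ) • θ) + (k' : ℕ) • θ : 𝓞 K) : K) =
          l ((y + ((a * (i + 1) : ℕ) : 𝓞 K) * z : 𝓞 K) : K) := by rw [hyz]
      have e1 : ((-((k : ℕ) • θ) + (k' : ℕ) • θ : 𝓞 K) : K) =
          (((k' : ℕ) : ℚ) - ((k : ℕ) : ℚ)) • (θ : K) := by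
        have a1 : ((-((k : ℕ) • θ) + (k' : ℕ) • θ : 𝓞 K) : K) =
            -(((k : ℕ) : K) * (θ : K)) + ((k' : ℕ) : K) * (θ : K) := by
          simp [nsmul_eq_mul]
        rw [a1, Algebra.smul_def, map_sub, map_natCast, map_natCast]
        ring
      have e2 : ((y + ((a * (i + 1) : ℕ) : 𝓞 K) * z : 𝓞 K) : K) =
          (y : K) + (((a : ℚ) * ((i : ℚ) + 1))) • (z : K) := by
        have a2 : ((y + ((a * (i + 1) : ℕ) : 𝓞 K) * z : 𝓞 K) : K) =
            (y : K) + ((a : K) * ((i : K) + 1)) * (z : K) := by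
          simp
        rw [a2, Algebra.smul_def, map_mul, map_add, map_natCast, map_natCast, map_one]
      rw [e1, e2, map_smul, map_add, map_smul, hθ, hF _ hy, hkz] at h0
      simp only [smul_eq_mul, zero_add] at h0
      have h0' : (((((k' : ℕ) : ℤ) - ((k : ℕ) : ℤ)) * A : ℤ) : ℚ) =
          ((((a : ℤ) * ((i : ℤ) + 1)) * kz : ℤ) : ℚ) := by
        push_cast
        exact h0
      exact Int.cast_injective h0'
    have h2 : ((i : ℤ) + 1) ∣ ((k' : ℕ) : ℤ) - ((k : ℕ) : ℤ) := by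
      rcases ha with hA' | hA'
      · refine ⟨kz, ?_⟩
        rw [hA'] at h1
        have : (((k' : ℕ) : ℤ) - ((k : ℕ) : ℤ)) * A = (((i : ℤ) + 1) * kz) * A := by
          rw [h1]; ring
        exact mul_right_cancel₀ hA this
      · refine ⟨-kz, ?_⟩
        rw [hA'] at h1
        have : (((k' : ℕ) : ℤ) - ((k : ℕ) : ℤ)) * A = (((i : ℤ) + 1) * -kz) * A := by
          rw [h1]; ring
        exact mul_right_cancel₀ hA this
    have h3 : |((k' : ℕ) : ℤ) - ((k : ℕ) : ℤ)| < (i : ℤ) + 1 := by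
      have hk := k.isLt
      have hk' := k'.isLt
      rw [abs_lt]
      constructor <;> omega
    have h4 := Int.eq_zero_of_abs_lt_dvd h2 h3
    apply Fin.ext
    omega
  calc i + 1 = Nat.card (Fin (i + 1)) := by simp
    _ ≤ Nat.card (𝓞 K ⧸ H) := Nat.card_le_card_of_injective φ hinj
    _ = H.index := rfl

/-- For a proper subfield `F`, there is a sequence of orders containing the integers of
`F`, of finite index, with discriminants tending to infinity. -/
theorem exists_orders (F : IntermediateField ℚ K) (hF : F ≠ ⊤) :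
    ∃ O : ℕ → Subring (𝓞 K), (∀ i, (O i).toAddSubgroup.index ≠ 0) ∧
      Tendsto (fun i => discOrder (O i)) atTop atTop ∧
      ∀ i, ∀ b : 𝓞 K, (b : K) ∈ F → b ∈ O i := by
  obtain ⟨l, θ, A, hA, hlF, hθ, hint⟩ := exists_functional F hF
  refine ⟨fun i => subfieldOrder F (A.natAbs * (i + 1)), ?_, ?_, ?_⟩
  · intro i
    exact subfieldOrder_index_ne_zero F
      (Nat.mul_ne_zero (Int.natAbs_ne_zero.mpr hA) (Nat.succ_ne_zero i))
  · refine tendsto_atTop_mono (fun i => ?_) tendsto_id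
    have h1 := le_index_subfieldOrder F l θ A hA hlF hθ hint A.natAbs
      ((Int.natAbs_eq A).imp (fun h => h.symm) (fun h => by rw [h]; simp)) i
    have h2 : 1 ≤ (NumberField.discr K).natAbs :=
      Nat.one_le_iff_ne_zero.mpr (Int.natAbs_ne_zero.mpr (NumberField.discr_ne_zero K))
    unfold discOrder
    have h3 : (subfieldOrder F (A.natAbs * (i + 1))).toAddSubgroup.index ≤
        (subfieldOrder F (A.natAbs * (i + 1))).toAddSubgroup.index ^ 2 :=
      Nat.le_self_pow (by norm_num) _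
    calc id i ≤ i + 1 := Nat.le_succ i
      _ ≤ (subfieldOrder F (A.natAbs * (i + 1))).toAddSubgroup.index := h1
      _ ≤ (subfieldOrder F (A.natAbs * (i + 1))).toAddSubgroup.index ^ 2 := h3
      _ = 1 * (subfieldOrder F (A.natAbs * (i + 1))).toAddSubgroup.index ^ 2 := (one_mul _).symm
      _ ≤ (NumberField.discr K).natAbs *
          (subfieldOrder F (A.natAbs * (i + 1))).toAddSubgroup.index ^ 2 :=
          Nat.mul_le_mul_right _ h2
  · intro i b hb
    exact mem_subfieldOrder_of_mem F _ hb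

/-- A nonrational integer in a nontrivial subfield. -/
theorem exists_nonrational_integer (F : IntermediateField ℚ K) (hF : F ≠ ⊥) :
    ∃ β : 𝓞 K, (β : K) ∈ F ∧ ∀ k : ℤ, (β : K) ≠ (k : K) := by
  have hex : ∃ b : K, b ∈ F ∧ b ∉ (⊥ : IntermediateField ℚ K) := by
    by_contra h
    exact hF (le_bot_iff.mp (fun b hb => by
      by_contra hb'
      exact h ⟨b, hb, hb'⟩))
  obtain ⟨b, hbF, hb⟩ := hex
  have halg : IsAlgebraic ℤ b :=
    (IsFractionRing.isAlgebraic_iff ℤ ℚ K).mpr (Algebra.IsAlgebraic.isAlgebraic b)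
  obtain ⟨y, hy, hyint⟩ := halg.exists_integral_multiple
  have hyb : y • b = algebraMap ℚ K (y : ℚ) * b := by
    simp [zsmul_eq_mul]
  refine ⟨⟨y • b, hyint⟩, ?_, ?_⟩
  · change y • b ∈ F
    rw [hyb]
    exact F.mul_mem (F.algebraMap_mem _) hbF
  · intro k hk
    change y • b = (k : K) at hk
    apply hb
    rw [IntermediateField.mem_bot]
    refine ⟨(k : ℚ) / (y : ℚ), ?_⟩
    have hy' : (y : K) ≠ 0 := by exact_mod_cast hy
    rw [zsmul_eq_mul] at hk
    rw [map_div₀]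
    simp only [map_intCast]
    rw [div_eq_iff hy', mul_comm]
    exact hk.symm

omit [NumberField K] in
theorem packetSupport_stable {n : ℕ} (σ : Fin n ≃ (K →+* ℝ)) (O : Subring (𝓞 K)) (β : 𝓞 K)
    (hβ : β ∈ O) {x : XSpace n} (hx : x ∈ packetSupport O σ) :
    ∃ L : Set (Fin n → ℝ), IsLatticeOf x L ∧
      ∀ v ∈ L, (fun j => v j * σ j (β : K)) ∈ L := by
  obtain ⟨I, w, u, c, hI, _, _, _, hL⟩ := hx
  refine ⟨_, hL, ?_⟩
  rintro v ⟨y, hy, hv⟩
  refine ⟨(β : K) * y, hI.1 β hβ y hy, fun j => ?_⟩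
  simp only [hv j, map_mul]
  ring

omit [NumberField K] in
/-- The packets of all orders containing a fixed nonrational integer avoid the support of
a fixed test function of positive Haar integral. -/
theorem exists_test_function_field (n : ℕ) (hn : 0 < n) (σ : Fin n ≃ (K →+* ℝ)) (β : 𝓞 K)
    (hβ : ∀ k : ℤ, (β : K) ≠ (k : K)) :
    ∃ f : XSpace n → ℝ, Continuous f ∧ HasCompactSupport f ∧ (∀ x, 0 ≤ f x) ∧
      (∀ m : Measure (XSpace n), IsProbabilityMeasure m →
        (∀ h, m.map (XSpace.rmul h) = m) → 0 < ∫ x, f x ∂m) ∧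
      ∀ O : Subring (𝓞 K), β ∈ O → ∀ x ∈ packetSupport O σ, f x = 0 := by
  have hρ : ∃ j, (fun j => σ j (β : K)) j ∉ Set.range ((↑) : ℤ → ℝ) := by
    refine ⟨⟨0, hn⟩, ?_⟩
    rintro ⟨k, hk⟩
    apply hβ k
    apply (σ ⟨0, hn⟩).injective
    simp only [map_intCast]
    exact hk.symm
  obtain ⟨f, hf1, hf2, hf3, hf4, hf5⟩ := exists_test_function n (fun j => σ j (β : K)) hρ
  refine ⟨f, hf1, hf2, hf3, hf4, ?_⟩
  intro O hO x hx
  obtain ⟨L, hL, hstab⟩ := packetSupport_stable σ O β hO hx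
  exact hf5 x L hL hstab

end Vale.Agent.Lib.P007
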