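import Vale.Agent.Lib.P007.Defs

namespace Vale.Agent.Lib.P007

open Matrix MeasureTheory

/-- The element `a(u) = diag(exp u_1, ..., exp u_n)` of `A_n`, for `u` of coordinate sum
zero. -/
noncomputable def diagExp {n : ℕ} (u : Fin n → ℝ) (hu : ∑ j, u j = 0) :
    SpecialLinearGroup (Fin n) ℝ :=
  ⟨Matrix.diagonal fun j => Real.exp (u j), by
    rw [Matrix.det_diagonal, ← Real.exp_sum, hu, Real.exp_zero]⟩

/-- Coordinates `(t_1, ..., t_{n-1})` on `A_n`: the vector
`(t_1, ..., t_{n-1}, -(t_1 + ... + t_{n-1}))` of coordinate sum zero. -/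
def extendZeroSum {n : ℕ} (t : Fin (n - 1) → ℝ) : Fin n → ℝ :=
  fun j => if h : (j : ℕ) < n - 1 then t ⟨j, h⟩ else -∑ k, t k

theorem extendZeroSum_sum {n : ℕ} (t : Fin (n - 1) → ℝ) : ∑ j, extendZeroSum t j = 0 := by
  cases n with
  | zero => simp
  | succ m =>
    rw [Fin.sum_univ_castSucc]
    have h1 : ∀ i : Fin m, extendZeroSum (n := m + 1) t (Fin.castSucc i) = t i := by
      intro i
      have hi : ((Fin.castSucc i : Fin (m + 1)) : ℕ) < m + 1 - 1 := by simp
      simp only [extendZeroSum, hi, dif_pos]
      rfl
    have h2 : extendZeroSum (n := m + 1) t (Fin.last m) = -∑ k, t k := by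
      have hl : ¬ ((Fin.last m : Fin (m + 1)) : ℕ) < m + 1 - 1 := by simp
      simp only [extendZeroSum, hl, dif_neg, not_false_eq_true]
    rw [h2]
    simp only [h1]
    exact add_neg_cancel _

/-- The action of `a(t)` on `X_n`, in the coordinates `t = (t_1, ..., t_{n-1})` of `A_n`. -/
noncomputable def torusAct {n : ℕ} (t : Fin (n - 1) → ℝ) : XSpace n → XSpace n :=
  XSpace.rmul (diagExp (extendZeroSum t) (extendZeroSum_sum t))

/-- The stabiliser of `x` in `A_n`, in the coordinates `t`. -/
def torusStab {n : ℕ} (x : XSpace n) : Set (Fin (n - 1) → ℝ) :=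
  {t | torusAct t x = x}

/-- The Dirichlet cell of the stabiliser of `x`: the parameters `t` that are at least as
close to `0` as to any other point of the stabiliser, for the Euclidean distance. -/
def dirichletCell {n : ℕ} (x : XSpace n) : Set (Fin (n - 1) → ℝ) :=
  {t | ∀ l ∈ torusStab x, ∑ j, (t j) ^ 2 ≤ ∑ j, (t j - l j) ^ 2}

/-- The orbit measure of `x`: the image under `t ↦ x a(t)` of Lebesgue measure
`dt_1 ... dt_{n-1}` restricted to the Dirichlet cell of the stabiliser. For a compact
orbit it equals `vol(orbit)` times the invariant probability measure of the orbit. -/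
noncomputable def orbitMeasure {n : ℕ} (x : XSpace n) : Measure (XSpace n) :=
  Measure.map (fun t : Fin (n - 1) → ℝ => torusAct t x) (volume.restrict (dirichletCell x))

/-- The orbit `x A_n`. -/
def torusOrbit {n : ℕ} (x : XSpace n) : Set (XSpace n) :=
  Set.range fun t : Fin (n - 1) → ℝ => torusAct t x

section NumberFieldPart

variable {K : Type*} [Field K] [NumberField K]

/-- The packet of `(O, sigma)`: the set of distinct orbits `Lambda_I w A_n`. -/
def packet {n : ℕ} (O : Subring (NumberField.RingOfIntegers K)) (σ : Fin n ≃ (K →+* ℝ)) :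
    Set (Set (XSpace n)) :=
  {S | ∃ x ∈ packetSupport O σ, S = torusOrbit x}

/-- The sum over the orbits `S` of the packet of their orbit measures (`vol(S)` times the
invariant probability measure of `S`), each computed from a base point of `S`. -/
noncomputable def packetSum {n : ℕ} (O : Subring (NumberField.RingOfIntegers K))
    (σ : Fin n ≃ (K →+* ℝ)) : Measure (XSpace n) :=
  Measure.sum fun S : packet O σ => orbitMeasure (Classical.choose S.2)

/-- The packet measure `mu_{O,sigma}`: the sum of `vol(S)` times the invariant probability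
measure of `S` over the orbits `S` of the packet, divided by its total mass. -/
noncomputable def packetMeasure {n : ℕ} (O : Subring (NumberField.RingOfIntegers K))
    (σ : Fin n ≃ (K →+* ℝ)) : Measure (XSpace n) :=
  (packetSum O σ Set.univ)⁻¹ • packetSum O σ

end NumberFieldPart

end Vale.Agent.Lib.P007
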