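import Vale.Agent.Lib.P007.PacketMeasure
import Vale.Agent.Lib.P007.Main

namespace Vale.Agent.Lib.P007

open Matrix MeasureTheory NumberField Filter Topology

theorem isLatticeOf_rmul_diagExp {n : ℕ} {x : XSpace n} {L : Set (Fin n → ℝ)}
    (hx : IsLatticeOf x L) (e : Fin n → ℝ) (he : ∑ j, e j = 0) :
    IsLatticeOf (XSpace.rmul (diagExp e he) x)
      {v | ∃ l ∈ L, v = fun j => l j * Real.exp (e j)} := by
  obtain ⟨g, rfl, hL⟩ := hx
  refine ⟨g * diagExp e he, rfl, ?_⟩
  let T : (Fin n → ℝ) →ₗ[ℤ] (Fin n → ℝ) :=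
    { toFun := fun v j => v j * Real.exp (e j)
      map_add' := fun v v' => by funext j; simp [add_mul]
      map_smul' := fun a v => by funext j; simp [mul_assoc] }
  have hrows : (fun i : Fin n => ((g * diagExp e he : SpecialLinearGroup (Fin n) ℝ) :
      Matrix (Fin n) (Fin n) ℝ) i) =
      T ∘ (fun i : Fin n => (g : Matrix (Fin n) (Fin n) ℝ) i) := by
    funext i j
    change ((g : Matrix (Fin n) (Fin n) ℝ) * Matrix.diagonal fun j => Real.exp (e j)) i j = _
    rw [Matrix.mul_diagonal]
    rfl
  rw [hrows, Set.range_comp, ← Submodule.map_span]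
  ext v
  rw [SetLike.mem_coe, Submodule.mem_map]
  constructor
  · rintro ⟨l, hl, rfl⟩
    exact ⟨l, by rw [← hL]; exact hl, rfl⟩
  · rintro ⟨l, hl, rfl⟩
    exact ⟨l, by rw [← hL] at hl; exact hl, rfl⟩

section

variable {K : Type*} [Field K] [NumberField K]

omit [NumberField K] in
theorem torusAct_mem_packetSupport {n : ℕ} (O : Subring (𝓞 K)) (σ : Fin n ≃ (K →+* ℝ))
    {x : XSpace n} (hx : x ∈ packetSupport O σ) (t : Fin (n - 1) → ℝ) :
    torusAct t x ∈ packetSupport O σ := by
  obtain ⟨I, w, u, c, hI, hw, hu, hc, hL⟩ := hx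
  refine ⟨I, w, fun j => u j + extendZeroSum t j, c, hI, hw, ?_, hc, ?_⟩
  · rw [Finset.sum_add_distrib, hu, extendZeroSum_sum, add_zero]
  · have h := isLatticeOf_rmul_diagExp hL (extendZeroSum t) (extendZeroSum_sum t)
    have hset : {v | ∃ l ∈ packetLattice σ I w u c, v = fun j => l j * Real.exp (extendZeroSum t j)} =
        packetLattice σ I w (fun j => u j + extendZeroSum t j) c := by
      ext v
      constructor
      · rintro ⟨l, ⟨y, hy, hl⟩, rfl⟩
        refine ⟨y, hy, fun j => ?_⟩
        simp only [hl j, Real.exp_add]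
        ring
      · rintro ⟨y, hy, hv⟩
        refine ⟨fun j => c * σ j y * w j * Real.exp (u j), ⟨y, hy, fun j => rfl⟩, ?_⟩
        funext j
        rw [hv j, Real.exp_add]
        ring
    rw [← hset]
    exact h

omit [NumberField K] in
theorem packetMeasure_null {n : ℕ} (O : Subring (𝓞 K)) (σ : Fin n ≃ (K →+* ℝ))
    {Z : Set (XSpace n)} (hZ : MeasurableSet Z) (hdisj : ∀ x ∈ packetSupport O σ, x ∉ Z) :
    packetMeasure O σ Z = 0 := by
  have hsum : packetSum O σ Z = 0 := by
    unfold packetSum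
    rw [Measure.sum_apply _ hZ]
    refine ENNReal.tsum_eq_zero.mpr fun S => ?_
    have hx : Classical.choose S.2 ∈ packetSupport O σ := (Classical.choose_spec S.2).1
    unfold orbitMeasure
    by_cases hφ : AEMeasurable (fun t : Fin (n - 1) → ℝ => torusAct t (Classical.choose S.2))
        (volume.restrict (dirichletCell (Classical.choose S.2)))
    · rw [Measure.map_apply_of_aemeasurable hφ hZ]
      have hempty : (fun t : Fin (n - 1) → ℝ => torusAct t (Classical.choose S.2)) ⁻¹' Z = ∅ := by
        ext t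
        simp only [Set.mem_preimage, Set.mem_empty_iff_false, iff_false]
        exact hdisj _ (torusAct_mem_packetSupport O σ hx t)
      rw [hempty, measure_empty]
    · rw [Measure.map_of_not_aemeasurable hφ]
      rfl
  unfold packetMeasure
  rw [Measure.smul_apply, hsum, smul_zero]

omit [NumberField K] in
theorem integral_packetMeasure_eq_zero {n : ℕ} (O : Subring (𝓞 K)) (σ : Fin n ≃ (K →+* ℝ))
    {f : XSpace n → ℝ} (hfc : Continuous f) (hf : ∀ x ∈ packetSupport O σ, f x = 0) :
    ∫ x, f x ∂(packetMeasure O σ) = 0 := by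
  have hZ : MeasurableSet {x : XSpace n | f x ≠ 0} :=
    (isOpen_ne_fun hfc continuous_const).measurableSet
  have hnull := packetMeasure_null O σ hZ (fun x hx hxZ => hxZ (hf x hx))
  apply integral_eq_zero_of_ae
  rw [Filter.EventuallyEq, ae_iff]
  exact hnull

end

end Vale.Agent.Lib.P007
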