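import Vale.Agent.Lib.P007.Finite

namespace Vale.Agent.Lib.P007

open Matrix MeasureTheory NumberField

section

variable {K : Type*} [Field K] [NumberField K]

theorem packet_nonempty [IsTotallyReal K] {n : ℕ} (O : Subring (𝓞 K))
    (hO : O.toAddSubgroup.index ≠ 0) (σ : Fin n ≃ (K →+* ℝ)) : (packet O σ).Nonempty := by
  obtain ⟨x, hx⟩ := packetSupport_nonempty O hO σ
  exact ⟨torusOrbit x, x, hx, rfl⟩

/-- The total mass of the sum of the orbit measures of the packet is positive and finite. -/
theorem packetSum_univ [IsTotallyReal K] {n : ℕ} (O : Subring (𝓞 K))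
    (hO : O.toAddSubgroup.index ≠ 0) (σ : Fin n ≃ (K →+* ℝ)) :
    packetSum O σ Set.univ ≠ 0 ∧ packetSum O σ Set.univ ≠ ⊤ := by
  have hfin : (packet O σ).Finite := packet_finite O hO σ
  haveI : Finite (packet O σ) := hfin.to_subtype
  haveI : Fintype (packet O σ) := Fintype.ofFinite _
  have hmass : packetSum O σ Set.univ =
      ∑ S : packet O σ, volume (dirichletCell (Classical.choose S.2)) := by
    unfold packetSum
    rw [Measure.sum_apply _ MeasurableSet.univ, tsum_fintype]
    exact Finset.sum_congr rfl fun S _ => orbitMeasure_univ _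
  constructor
  · obtain ⟨S, hS⟩ := packet_nonempty O hO σ
    rw [hmass]
    intro h0
    have h1 := (Finset.sum_eq_zero_iff.mp h0) ⟨S, hS⟩ (Finset.mem_univ _)
    exact (volume_dirichletCell_pos _).ne' h1
  · rw [hmass]
    exact (ENNReal.sum_lt_top.mpr fun S _ =>
      volume_dirichletCell_lt_top O hO σ (Classical.choose_spec S.2).1).ne

/-- The packet measure of an order of finite index in a totally real field is a probability
measure: the packet is finite and not empty, and each of its orbits has positive finite
volume. -/
theorem isProbabilityMeasure_packetMeasure [IsTotallyReal K] {n : ℕ} (O : Subring (𝓞 K))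
    (hO : O.toAddSubgroup.index ≠ 0) (σ : Fin n ≃ (K →+* ℝ)) :
    IsProbabilityMeasure (packetMeasure O σ) := by
  obtain ⟨h0, htop⟩ := packetSum_univ O hO σ
  constructor
  unfold packetMeasure
  rw [Measure.smul_apply, smul_eq_mul, ENNReal.inv_mul_cancel h0 htop]

end

end Vale.Agent.Lib.P007
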