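import Vale.Agent.Lib.P007.Defs

namespace Vale.Agent.Lib.P007

open Matrix MeasureTheory Topology

theorem isClosed_GammaSL (n : ℕ) :
    IsClosed ((GammaSL n : Subgroup (SpecialLinearGroup (Fin n) ℝ)) :
      Set (SpecialLinearGroup (Fin n) ℝ)) := by
  have h := (Int.isClosedEmbedding_coe_real).specialLinearGroup_map (n := Fin n)
    (f := Int.castRingHom ℝ)
  exact h.isClosed_range

instance instIsClosedGammaSL (n : ℕ) :
    IsClosed ((GammaSL n : Subgroup (SpecialLinearGroup (Fin n) ℝ)) :
      Set (SpecialLinearGroup (Fin n) ℝ)) := isClosed_GammaSL n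

instance instLocallyCompactSL (n : ℕ) : LocallyCompactSpace (SpecialLinearGroup (Fin n) ℝ) :=
  haveI : LocallyCompactSpace (Matrix (Fin n) (Fin n) ℝ) :=
    inferInstanceAs (LocallyCompactSpace (Fin n → Fin n → ℝ))
  (SpecialLinearGroup.isClosedEmbedding_val (n := Fin n) (R := ℝ)).locallyCompactSpace

instance instSecondCountableSL (n : ℕ) :
    SecondCountableTopology (SpecialLinearGroup (Fin n) ℝ) :=
  haveI : SecondCountableTopology (Matrix (Fin n) (Fin n) ℝ) :=
    inferInstanceAs (SecondCountableTopology (Fin n → Fin n → ℝ))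
  (SpecialLinearGroup.isClosedEmbedding_val (n := Fin n) (R := ℝ)).isEmbedding.secondCountableTopology

instance instT2XSpace (n : ℕ) : T2Space (XSpace n) :=
  inferInstanceAs (T2Space
    (Quotient (MulAction.orbitRel (GammaSL n) (SpecialLinearGroup (Fin n) ℝ))))

theorem isOpenQuotientMap_mk (n : ℕ) : IsOpenQuotientMap (XSpace.mk (n := n)) :=
  MulAction.isOpenQuotientMap_quotientMk

instance instLocallyCompactXSpace (n : ℕ) : LocallyCompactSpace (XSpace n) :=
  (isOpenQuotientMap_mk n).locallyCompactSpace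

instance instSecondCountableXSpace (n : ℕ) : SecondCountableTopology (XSpace n) :=
  ContinuousConstSMul.secondCountableTopology (Γ := GammaSL n)
    (T := SpecialLinearGroup (Fin n) ℝ)

theorem mk_surjective (n : ℕ) : Function.Surjective (XSpace.mk (n := n)) :=
  (isOpenQuotientMap_mk n).surjective

theorem continuous_mk (n : ℕ) : Continuous (XSpace.mk (n := n)) :=
  (isOpenQuotientMap_mk n).continuous

theorem mk_eq_mk_iff {n : ℕ} (g g' : SpecialLinearGroup (Fin n) ℝ) :
    XSpace.mk g = XSpace.mk g' ↔ ∃ γ ∈ GammaSL n, γ * g' = g := by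
  change Quotient.mk (MulAction.orbitRel (GammaSL n) (SpecialLinearGroup (Fin n) ℝ)) g =
    Quotient.mk (MulAction.orbitRel (GammaSL n) (SpecialLinearGroup (Fin n) ℝ)) g' ↔ _
  rw [Quotient.eq]
  constructor
  · rintro ⟨γ, hγ⟩
    exact ⟨γ.1, γ.2, hγ⟩
  · rintro ⟨γ, hγ, h⟩
    exact ⟨⟨γ, hγ⟩, h⟩

@[simp] theorem rmul_mk {n : ℕ} (h g : SpecialLinearGroup (Fin n) ℝ) :
    XSpace.rmul h (XSpace.mk g) = XSpace.mk (g * h) := rfl

theorem continuous_rmul {n : ℕ} (h : SpecialLinearGroup (Fin n) ℝ) :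
    Continuous (XSpace.rmul h) := by
  rw [← (isOpenQuotientMap_mk n).continuous_comp_iff]
  have : XSpace.rmul h ∘ XSpace.mk = XSpace.mk ∘ (fun g => g * h) := by
    funext g; rfl
  rw [this]
  exact (continuous_mk n).comp (continuous_mul_const h)

/-- A right-invariant probability measure gives positive mass to nonempty open sets. -/
theorem measure_pos_of_isOpen {n : ℕ} (m : Measure (XSpace n)) [IsProbabilityMeasure m]
    (hm : ∀ h, m.map (XSpace.rmul h) = m) {W : Set (XSpace n)} (hW : IsOpen W)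
    (hne : W.Nonempty) : 0 < m W := by
  by_contra h0
  have h0' : m W = 0 := by simpa using h0
  obtain ⟨w0, hw0⟩ := hne
  obtain ⟨g0, rfl⟩ := mk_surjective n w0
  have hopen : ∀ h : SpecialLinearGroup (Fin n) ℝ, IsOpen (XSpace.rmul h ⁻¹' W) :=
    fun h => hW.preimage (continuous_rmul h)
  have hzero : ∀ h : SpecialLinearGroup (Fin n) ℝ, m (XSpace.rmul h ⁻¹' W) = 0 := by
    intro h
    have h1 : (m.map (XSpace.rmul h)) W = m W := by rw [hm h]
    rw [Measure.map_apply (continuous_rmul h).measurable hW.measurableSet] at h1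
    rw [h1, h0']
  have hcover : (⋃ h : SpecialLinearGroup (Fin n) ℝ, XSpace.rmul h ⁻¹' W) = Set.univ := by
    apply Set.eq_univ_of_forall
    intro x
    obtain ⟨g, rfl⟩ := mk_surjective n x
    refine Set.mem_iUnion.mpr ⟨g⁻¹ * g0, ?_⟩
    simp only [Set.mem_preimage, rmul_mk]
    rw [← mul_assoc, mul_inv_cancel, one_mul]
    exact hw0
  obtain ⟨T, hT, hTU⟩ := TopologicalSpace.isOpen_iUnion_countable
    (fun h : SpecialLinearGroup (Fin n) ℝ => XSpace.rmul h ⁻¹' W) hopen
  have : m Set.univ = 0 := by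
    rw [← hcover, ← hTU]
    exact (measure_biUnion_null_iff hT).mpr (fun h _ => hzero h)
  rw [measure_univ] at this
  exact one_ne_zero this

end Vale.Agent.Lib.P007
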