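import Vale.Agent.Lib.P007.MainMeasure

namespace Vale.Agent.Lib.P007

open Matrix MeasureTheory Topology NumberField Polynomial

/-- The obstruction for finitely many multipliers at once: a test function vanishing at
every point of `X_n` whose lattice is stable under coordinatewise multiplication by one of
the vectors `rho` of the finite set `S`. -/
theorem exists_test_function_finite (n : ℕ) (S : Set (Fin n → ℝ)) (hS : S.Finite)
    (hρ : ∀ ρ ∈ S, ∃ j, ρ j ∉ Set.range ((↑) : ℤ → ℝ)) :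
    ∃ f : XSpace n → ℝ, Continuous f ∧ HasCompactSupport f ∧ (∀ x, 0 ≤ f x) ∧
      (∀ m : Measure (XSpace n), IsProbabilityMeasure m →
        (∀ h, m.map (XSpace.rmul h) = m) → 0 < ∫ x, f x ∂m) ∧
      ∀ (x : XSpace n) (L : Set (Fin n → ℝ)), IsLatticeOf x L →
        (∃ ρ ∈ S, ∀ v ∈ L, (fun j => v j * ρ j) ∈ L) → f x = 0 := by
  set C : Set (SpecialLinearGroup (Fin n) ℝ) := ⋃ ρ ∈ S, stableSet n ρ with hC
  have hCc : IsClosed C := hS.isClosed_biUnion fun ρ _ => isClosed_stableSet n ρ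
  set U : Set (XSpace n) := XSpace.mk '' Cᶜ with hU
  have hUo : IsOpen U := (isOpenQuotientMap_mk n).isOpenMap _ hCc.isOpen_compl
  have hUmem : ∀ g : SpecialLinearGroup (Fin n) ℝ, XSpace.mk g ∈ U → g ∉ C := by
    rintro g ⟨g', hg', hgg'⟩ hg
    obtain ⟨γ, hγ, rfl⟩ := (mk_eq_mk_iff g' g).mp hgg'
    apply hg'
    rw [hC, Set.mem_iUnion₂] at hg ⊢
    obtain ⟨ρ, hρS, hgρ⟩ := hg
    exact ⟨ρ, hρS, stableSet_mul_mem hγ hgρ⟩
  have hx0 : XSpace.mk (1 : SpecialLinearGroup (Fin n) ℝ) ∈ U := by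
    refine ⟨1, ?_, rfl⟩
    intro h1
    rw [hC, Set.mem_iUnion₂] at h1
    obtain ⟨ρ, hρS, h1ρ⟩ := h1
    exact one_notMem_stableSet (hρ ρ hρS) h1ρ
  obtain ⟨f, hf1, hf0, hfc, hf01⟩ := exists_continuous_one_zero_of_isCompact
    (isCompact_singleton (x := XSpace.mk (1 : SpecialLinearGroup (Fin n) ℝ)))
    hUo.isClosed_compl (Set.disjoint_singleton_left.mpr (fun h => h hx0))
  refine ⟨f, f.continuous, hfc, fun x => (hf01 x).1, ?_, ?_⟩
  · intro m hm hinv
    have hint : Integrable f m := f.continuous.integrable_of_hasCompactSupport hfc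
    rw [integral_pos_iff_support_of_nonneg (fun x => (hf01 x).1) hint]
    have hopen : IsOpen (Function.support f) := f.continuous.isOpen_support
    refine measure_pos_of_isOpen m hinv hopen ⟨XSpace.mk 1, ?_⟩
    have : f (XSpace.mk 1) = 1 := hf1 (Set.mem_singleton _)
    simp [Function.mem_support, this]
  · rintro x L ⟨g, rfl, hL⟩ ⟨ρ, hρS, hstab⟩
    apply hf0
    intro hmem
    refine hUmem g hmem ?_
    rw [hC, Set.mem_iUnion₂]
    refine ⟨ρ, hρS, mem_stableSet_of_rows ?_⟩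
    intro v hv
    have hv' : v ∈ L := by rw [← hL]; exact hv
    have := hstab v hv'
    rw [← hL] at this
    exact this

/-- One test function for all fields, orders and orderings: if the integer polynomial `P`
is nonzero and has no integer root, some `f` in `C_c(X_n)` of positive Haar integral
vanishes on the packets of all orders (of all number fields, with all orderings of the real
embeddings) that contain a root of `P`. -/
theorem common_root_obstruction (n : ℕ) (hn : 0 < n) (P : ℤ[X]) (hP : P ≠ 0)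
    (hroot : ∀ z : ℤ, P.eval z ≠ 0) :
    ∃ f : XSpace n → ℝ, Continuous f ∧ HasCompactSupport f ∧ (∀ x, 0 ≤ f x) ∧
      (∀ m : Measure (XSpace n), IsProbabilityMeasure m →
        (∀ h, m.map (XSpace.rmul h) = m) → 0 < ∫ x, f x ∂m) ∧
      ∀ (K : Type) [Field K] [NumberField K] (σ : Fin n ≃ (K →+* ℝ)) (O : Subring (𝓞 K))
        (β : 𝓞 K), β ∈ O → Polynomial.aeval (β : K) P = 0 →
        ∀ x ∈ packetSupport O σ, f x = 0 := by
  set S : Set (Fin n → ℝ) := {ρ | ∀ j, ρ j ∈ P.rootSet ℝ} with hS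
  have hSfin : S.Finite :=
    Set.Finite.pi' (ι := Fin n) fun _ => Polynomial.rootSet_finite P ℝ
  have hSρ : ∀ ρ ∈ S, ∃ j, ρ j ∉ Set.range ((↑) : ℤ → ℝ) := by
    intro ρ hρ
    refine ⟨⟨0, hn⟩, ?_⟩
    rintro ⟨k, hk⟩
    have h1 := hρ ⟨0, hn⟩
    rw [Polynomial.mem_rootSet] at h1
    have h2 : Polynomial.aeval (ρ ⟨0, hn⟩) P = 0 := h1.2
    rw [← hk] at h2
    apply hroot k
    have h3 : Polynomial.aeval ((k : ℤ) : ℝ) P = ((P.eval k : ℤ) : ℝ) := by
      rw [Polynomial.aeval_def, Polynomial.eval₂_at_intCast]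
      simp
    rw [h3] at h2
    exact_mod_cast h2
  obtain ⟨f, hf1, hf2, hf3, hf4, hf5⟩ := exists_test_function_finite n S hSfin hSρ
  refine ⟨f, hf1, hf2, hf3, hf4, ?_⟩
  intro K _ _ σ O β hβ hPβ x hx
  obtain ⟨L, hL, hstab⟩ := packetSupport_stable σ O β hβ hx
  refine hf5 x L hL ⟨fun j => σ j (β : K), ?_, hstab⟩
  intro j
  rw [Polynomial.mem_rootSet]
  refine ⟨hP, ?_⟩
  have h1 : Polynomial.aeval (σ j (β : K)) P = σ j (Polynomial.aeval (β : K) P) := by
    rw [Polynomial.aeval_def, Polynomial.aeval_def, Polynomial.hom_eval₂]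
    congr 1
    exact Subsingleton.elim _ _
  rw [h1, hPβ, map_zero]

end Vale.Agent.Lib.P007
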