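import Vale.Agent.Lib.P007.Lattice
import Vale.Agent.Lib.P007.NonEmpty

namespace Vale.Agent.Lib.P007

open Matrix MeasureTheory NumberField

/-- A vector of coordinate sum zero is the extension of its first `n - 1` coordinates. -/
theorem extendZeroSum_restrict {n : ℕ} (ℓ : Fin n → ℝ) (hℓ : ∑ j, ℓ j = 0) :
    extendZeroSum (fun k : Fin (n - 1) => ℓ ⟨k, by have := k.2; omega⟩) = ℓ := by
  cases n with
  | zero => funext j; exact j.elim0
  | succ m =>
    rw [Fin.sum_univ_castSucc] at hℓ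
    funext j
    by_cases h : (j : ℕ) < m + 1 - 1
    · simp only [extendZeroSum, h, dif_pos]
    · have hj : j = Fin.last m := by
        apply Fin.ext
        have := j.2
        simp only [Fin.val_last]
        omega
      simp only [extendZeroSum, h, dif_neg, not_false_eq_true]
      subst hj
      have h1 : ∑ k : Fin (m + 1 - 1), ℓ ⟨k, by have := k.2; omega⟩ =
          ∑ i : Fin m, ℓ (Fin.castSucc i) := rfl
      rw [h1]
      linarith

section

variable {K : Type*} [Field K] [NumberField K]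

/-- The infinite place of a real embedding. -/
noncomputable def placeOf (ψ : K →+* ℝ) : InfinitePlace K :=
  InfinitePlace.mk (Complex.ofRealHom.comp ψ)

omit [NumberField K] in
theorem placeOf_apply (ψ : K →+* ℝ) (y : K) : placeOf ψ y = |ψ y| := by
  unfold placeOf
  rw [InfinitePlace.apply]
  simp

theorem placeOf_bijective [IsTotallyReal K] {n : ℕ} (σ : Fin n ≃ (K →+* ℝ)) :
    Function.Bijective fun j => placeOf (σ j) := by
  constructor
  · intro j k hjk
    have h1 : InfinitePlace.mk (Complex.ofRealHom.comp (σ j)) =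
        InfinitePlace.mk (Complex.ofRealHom.comp (σ k)) := hjk
    rw [InfinitePlace.mk_eq_iff] at h1
    have h2 : Complex.ofRealHom.comp (σ j) = Complex.ofRealHom.comp (σ k) := by
      rcases h1 with h1 | h1
      · exact h1
      · rw [← h1]
        ext y
        simp [ComplexEmbedding.conjugate]
    apply σ.injective
    ext y
    have := RingHom.congr_fun h2 y
    exact Complex.ofReal_injective this
  · intro w
    have hφ := IsTotallyReal.complexEmbedding_isReal w.embedding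
    refine ⟨σ.symm hφ.embedding, ?_⟩
    change InfinitePlace.mk (Complex.ofRealHom.comp (σ (σ.symm hφ.embedding))) = w
    rw [Equiv.apply_symm_apply]
    have : Complex.ofRealHom.comp hφ.embedding = w.embedding := by
      ext y
      exact ComplexEmbedding.IsReal.coe_embedding_apply _ y
    rw [this, InfinitePlace.mk_embedding]

theorem mult_eq_one [IsTotallyReal K] (w : InfinitePlace K) : w.mult = 1 :=
  InfinitePlace.mult_isReal ⟨w, IsTotallyReal.isReal w⟩

/-- For a unit, the logarithms of the squares of its real conjugates sum to zero. -/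
theorem sum_log_sq_unit [IsTotallyReal K] {n : ℕ} (σ : Fin n ≃ (K →+* ℝ)) (ν : (𝓞 K)ˣ) :
    ∑ j, Real.log ((σ j ((ν : 𝓞 K) : K)) ^ 2) = 0 := by
  have h := Units.sum_mult_mul_log ν
  rw [← (placeOf_bijective σ).sum_comp] at h
  have h1 : ∀ j, Real.log ((σ j ((ν : 𝓞 K) : K)) ^ 2) =
      2 * (((placeOf (σ j)).mult : ℝ) *
        Real.log (placeOf (σ j) (algebraMap (𝓞 K) K ν))) := by
    intro j
    rw [placeOf_apply, Real.log_abs, Real.log_pow, mult_eq_one]
    push_cast
    ring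
  simp only [h1, ← Finset.mul_sum]
  rw [h, mul_zero]

/-- A fixed power of every unit of the maximal order lies in the order `O`. -/
theorem exists_pow_mem_order (O : Subring (𝓞 K)) (hO : O.toAddSubgroup.index ≠ 0) :
    ∃ N : ℕ, 0 < N ∧ ∀ η : (𝓞 K)ˣ, ((η ^ N : (𝓞 K)ˣ) : 𝓞 K) ∈ O := by
  set f : ℕ := O.toAddSubgroup.index with hf
  set I : Ideal (𝓞 K) := Ideal.span {(f : 𝓞 K)} with hI
  have hI0 : I ≠ ⊥ := by
    rw [hI, Ne, Ideal.span_singleton_eq_bot]
    exact Nat.cast_ne_zero.mpr hO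
  have hfin : Finite (𝓞 K ⧸ I) := Ideal.finiteQuotientOfFreeOfNeBot I hI0
  refine ⟨Nat.card (𝓞 K ⧸ I)ˣ, Nat.card_pos, fun η => ?_⟩
  have h1 : (Units.map (Ideal.Quotient.mk I).toMonoidHom η) ^ Nat.card (𝓞 K ⧸ I)ˣ = 1 :=
    pow_card_eq_one'
  have h2 : Ideal.Quotient.mk I ((η ^ Nat.card (𝓞 K ⧸ I)ˣ : (𝓞 K)ˣ) : 𝓞 K) = 1 := by
    have h5 := congrArg Units.val h1
    rw [Units.val_pow_eq_pow_val, Units.coe_map, Units.val_one] at h5
    rw [Units.val_pow_eq_pow_val, map_pow]
    exact h5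
  have h3 : ((η ^ Nat.card (𝓞 K ⧸ I)ˣ : (𝓞 K)ˣ) : 𝓞 K) - 1 ∈ I := by
    rw [← Ideal.Quotient.eq_zero_iff_mem, map_sub, h2, map_one, sub_self]
  rw [hI, Ideal.mem_span_singleton'] at h3
  obtain ⟨z, hz⟩ := h3
  have h4 : ((η ^ Nat.card (𝓞 K ⧸ I)ˣ : (𝓞 K)ˣ) : 𝓞 K) = 1 + f • z := by
    rw [nsmul_eq_mul, mul_comm, hz]
    ring
  rw [h4]
  exact O.add_mem O.one_mem (AddSubgroup.nsmul_index_mem O.toAddSubgroup z)

omit [NumberField K] in
/-- Multiplication by an element `ε` with `ε I = I` whose conjugates are the entries of `a(t)`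
fixes the point of the lattice of `I`. -/
theorem torusAct_eq_self_of_mul {n : ℕ} (σ : Fin n ≃ (K →+* ℝ)) {I : Submodule ℤ K}
    {w u : Fin n → ℝ} {c : ℝ} {x : XSpace n} (hL : IsLatticeOf x (packetLattice σ I w u c))
    (ε ε' : K) (hεε' : ε * ε' = 1) (hε : ∀ y ∈ I, ε * y ∈ I) (hε' : ∀ y ∈ I, ε' * y ∈ I)
    (t : Fin (n - 1) → ℝ) (ht : ∀ j, Real.exp (extendZeroSum t j) = σ j ε) :
    torusAct t x = x := by
  have h := isLatticeOf_rmul_diagExp hL (extendZeroSum t) (extendZeroSum_sum t)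
  have hset : {v | ∃ l ∈ packetLattice σ I w u c,
      v = fun j => l j * Real.exp (extendZeroSum t j)} = packetLattice σ I w u c := by
    ext v
    constructor
    · rintro ⟨l, ⟨y, hy, hl⟩, rfl⟩
      refine ⟨ε * y, hε y hy, fun j => ?_⟩
      simp only [hl j, ht j, map_mul]
      ring
    · rintro ⟨y, hy, hv⟩
      refine ⟨fun j => c * σ j (ε' * y) * w j * Real.exp (u j),
        ⟨ε' * y, hε' y hy, fun j => rfl⟩, ?_⟩
      funext j
      have h1 : σ j ε' * σ j ε = 1 := by rw [← map_mul, mul_comm, hεε', map_one]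
      rw [hv j, ht j]
      change c * σ j y * w j * Real.exp (u j) =
        c * σ j (ε' * y) * w j * Real.exp (u j) * σ j ε
      rw [map_mul]
      calc c * σ j y * w j * Real.exp (u j)
          = c * ((σ j ε' * σ j ε) * σ j y) * w j * Real.exp (u j) := by rw [h1, one_mul]
        _ = c * (σ j ε' * σ j y) * w j * Real.exp (u j) * σ j ε := by ring
  rw [hset] at h
  exact eq_of_isLatticeOf h hL

theorem coe_unit_inv (ν : (𝓞 K)ˣ) :
    (((ν⁻¹ : (𝓞 K)ˣ) : 𝓞 K) : K) = (((ν : 𝓞 K) : K))⁻¹ := by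
  apply eq_inv_of_mul_eq_one_left
  rw [← map_mul, Units.inv_mul, map_one]

theorem algebraMap_unit_inv (ν : (𝓞 K)ˣ) :
    algebraMap (𝓞 K) K ((ν⁻¹ : (𝓞 K)ˣ) : 𝓞 K) = (algebraMap (𝓞 K) K (ν : 𝓞 K))⁻¹ :=
  coe_unit_inv ν

theorem coe_unit_ne_zero (ν : (𝓞 K)ˣ) : ((ν : 𝓞 K) : K) ≠ 0 := by
  intro h
  have h1 : (((ν : 𝓞 K) : K)) * (((ν⁻¹ : (𝓞 K)ˣ) : 𝓞 K) : K) = 1 := by
    rw [← map_mul, Units.mul_inv, map_one]
  rw [h, zero_mul] at h1
  exact zero_ne_one h1

/-- The parameter `t` of the element of `A_n` given by the squares of the conjugates of a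
unit. -/
noncomputable def unitVec {n : ℕ} (σ : Fin n ≃ (K →+* ℝ)) (ν : (𝓞 K)ˣ) : Fin (n - 1) → ℝ :=
  fun k => Real.log ((σ ⟨k, by have := k.2; omega⟩ ((ν : 𝓞 K) : K)) ^ 2)

/-- Units of the order `O` give elements of the stabiliser of every point of the packet. -/
theorem unitVec_mem_torusStab [IsTotallyReal K] {n : ℕ} (O : Subring (𝓞 K))
    (σ : Fin n ≃ (K →+* ℝ)) {x : XSpace n} (hx : x ∈ packetSupport O σ) (ν : (𝓞 K)ˣ)
    (hν : (ν : 𝓞 K) ∈ O) (hν' : ((ν⁻¹ : (𝓞 K)ˣ) : 𝓞 K) ∈ O) :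
    unitVec σ ν ∈ torusStab x := by
  obtain ⟨I, w, u, c, hI, hw, hu, hc, hL⟩ := hx
  have hext : extendZeroSum (unitVec σ ν) = fun j => Real.log ((σ j ((ν : 𝓞 K) : K)) ^ 2) :=
    extendZeroSum_restrict _ (sum_log_sq_unit σ ν)
  have hne : ∀ j, σ j ((ν : 𝓞 K) : K) ≠ 0 := by
    intro j
    rw [Ne, map_eq_zero]
    exact coe_unit_ne_zero ν
  refine torusAct_eq_self_of_mul σ hL (((ν : 𝓞 K) : K) ^ 2)
    ((((ν⁻¹ : (𝓞 K)ˣ) : 𝓞 K) : K) ^ 2) ?_ ?_ ?_ _ ?_
  · rw [← mul_pow, ← map_mul, Units.mul_inv, map_one, one_pow]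
  · intro y hy
    have := hI.1 ((ν : 𝓞 K) ^ 2) (O.pow_mem hν 2) y hy
    simpa using this
  · intro y hy
    have := hI.1 (((ν⁻¹ : (𝓞 K)ˣ) : 𝓞 K) ^ 2) (O.pow_mem hν' 2) y hy
    simpa using this
  · intro j
    rw [hext, map_pow]
    have := hne j
    exact Real.exp_log (by positivity)

/-- Dirichlet's unit theorem, in the coordinates of `A_n`: there are `n - 1` units whose
logarithmic vectors, without the last coordinate, are linearly independent. -/
theorem exists_units_matrix [IsTotallyReal K] {n : ℕ} (σ : Fin n ≃ (K →+* ℝ)) :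
    ∃ ε : Fin (n - 1) → (𝓞 K)ˣ,
      (Matrix.of fun (k k' : Fin (n - 1)) =>
        Real.log |σ ⟨k', by have := k'.2; omega⟩ ((ε k : 𝓞 K) : K)|).det ≠ 0 := by
  classical
  have hn : Module.finrank ℚ K = n := finrank_eq_of_sigma σ
  have hnpos : 0 < n := by rw [← hn]; exact Module.finrank_pos
  set w' : InfinitePlace K := placeOf (σ ⟨n - 1, by omega⟩) with hw'
  have hbij := placeOf_bijective σ
  have hcard : Fintype.card {w : InfinitePlace K // w ≠ w'} = Units.rank K := by
    rw [Fintype.card_subtype_compl, Fintype.card_subtype_eq]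
    rfl
  let e : {w : InfinitePlace K // w ≠ w'} ≃ Fin (Units.rank K) := Fintype.equivFinOfCardEq hcard
  have hrow : ∀ k : Fin (n - 1), placeOf (σ ⟨k, by have := k.2; omega⟩) ≠ w' := by
    intro k h
    have h1 := hbij.1 h
    have h2 := congrArg Fin.val h1
    have h3 := k.2
    simp only at h2
    omega
  let rowE : Fin (n - 1) ≃ {w : InfinitePlace K // w ≠ w'} := Equiv.ofBijective
    (fun k => ⟨placeOf (σ ⟨k, by have := k.2; omega⟩), hrow k⟩) (by
      constructor
      · intro k k' hkk'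
        have h1 := congrArg Subtype.val hkk'
        have h2 := hbij.1 h1
        have h3 := congrArg Fin.val h2
        exact Fin.ext h3
      · rintro ⟨w, hw⟩
        obtain ⟨j, rfl⟩ := hbij.2 w
        have hj : (j : ℕ) < n - 1 := by
          by_contra hcon
          apply hw
          have hj' : j = ⟨n - 1, by omega⟩ := by
            apply Fin.ext
            have := j.2
            simp only
            omega
          rw [hj']
        exact ⟨⟨j, hj⟩, rfl⟩)
  refine ⟨fun k => Units.fundSystem K (e (rowE k)), ?_⟩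
  have hreg := Units.regulator_eq_det K w' e
  have hpos := Units.regulator_pos K
  rw [hreg] at hpos
  have hdetR := abs_pos.mp hpos
  rw [← Matrix.det_submatrix_equiv_self rowE] at hdetR
  convert hdetR using 2
  ext k k'
  simp only [Matrix.of_apply, Matrix.submatrix_apply]
  have h1 : (rowE k' : InfinitePlace K) = placeOf (σ ⟨k', by have := k'.2; omega⟩) := rfl
  rw [h1, mult_eq_one, placeOf_apply]
  simp

/-- If the stabiliser of `x` contains `n - 1` linearly independent vectors and their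
negatives, the Dirichlet cell of `x` is bounded. -/
theorem dirichletCell_bounded {n : ℕ} (x : XSpace n) (M : Matrix (Fin (n - 1)) (Fin (n - 1)) ℝ)
    (hM : M.det ≠ 0) (a : ℝ) (ha : 0 < a)
    (h1 : ∀ k, (fun k' => a * M k k') ∈ torusStab x)
    (h2 : ∀ k, (fun k' => -(a * M k k')) ∈ torusStab x) :
    Bornology.IsBounded (dirichletCell x) := by
  set β : Fin (n - 1) → ℝ := fun k => (∑ k', (a * M k k') ^ 2) / (2 * a) with hβ
  have hβ0 : ∀ k, 0 ≤ β k := fun k =>
    div_nonneg (Finset.sum_nonneg fun k' _ => sq_nonneg _) (by positivity)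
  have key : ∀ t ∈ dirichletCell x, ∀ k, |(M *ᵥ t) k| ≤ β k := by
    intro t ht k
    have e1 := ht _ (h1 k)
    have e2 := ht _ (h2 k)
    have hexp1 : ∑ k', (t k' - a * M k k') ^ 2 =
        ∑ k', (t k') ^ 2 - 2 * a * (M *ᵥ t) k + ∑ k', (a * M k k') ^ 2 := by
      simp only [Matrix.mulVec, dotProduct, Finset.mul_sum, ← Finset.sum_sub_distrib,
        ← Finset.sum_add_distrib]
      exact Finset.sum_congr rfl fun k' _ => by ring
    have hexp2 : ∑ k', (t k' - -(a * M k k')) ^ 2 =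
        ∑ k', (t k') ^ 2 + 2 * a * (M *ᵥ t) k + ∑ k', (a * M k k') ^ 2 := by
      simp only [Matrix.mulVec, dotProduct, Finset.mul_sum, ← Finset.sum_add_distrib]
      exact Finset.sum_congr rfl fun k' _ => by ring
    rw [hexp1] at e1
    rw [hexp2] at e2
    rw [hβ, le_div_iff₀ (by positivity : (0 : ℝ) < 2 * a)]
    have h3 : |(M *ᵥ t) k| * (2 * a) = |2 * a * (M *ᵥ t) k| := by
      rw [abs_mul, abs_of_pos (by positivity : (0 : ℝ) < 2 * a), mul_comm]
    rw [h3, abs_le]
    constructor <;> linarith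
  have hinv : M⁻¹ * M = 1 := Matrix.nonsing_inv_mul M (isUnit_iff_ne_zero.mpr hM)
  set C : ℝ := ∑ k, ∑ i, |M⁻¹ k i| * β i with hC
  have hC0 : 0 ≤ C := Finset.sum_nonneg fun k _ => Finset.sum_nonneg fun i _ =>
    mul_nonneg (abs_nonneg _) (hβ0 i)
  refine (Metric.isBounded_closedBall (x := (0 : Fin (n - 1) → ℝ)) (r := C)).subset
    fun t ht => ?_
  rw [mem_closedBall_zero_iff, pi_norm_le_iff_of_nonneg hC0]
  intro k
  have ht_eq : t = M⁻¹ *ᵥ (M *ᵥ t) := by
    rw [Matrix.mulVec_mulVec, hinv, Matrix.one_mulVec]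
  rw [Real.norm_eq_abs]
  calc |t k| = |∑ i, M⁻¹ k i * (M *ᵥ t) i| := by
        conv_lhs => rw [ht_eq]
        rfl
    _ ≤ ∑ i, |M⁻¹ k i * (M *ᵥ t) i| := Finset.abs_sum_le_sum_abs _ _
    _ ≤ ∑ i, |M⁻¹ k i| * β i := Finset.sum_le_sum fun i _ => by
        rw [abs_mul]
        exact mul_le_mul_of_nonneg_left (key t ht i) (abs_nonneg _)
    _ ≤ C := Finset.single_le_sum (f := fun k => ∑ i, |M⁻¹ k i| * β i)
        (fun k _ => Finset.sum_nonneg fun i _ => mul_nonneg (abs_nonneg _) (hβ0 i))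
        (Finset.mem_univ k)

/-- The Dirichlet cell of every point of the packet has finite volume: its orbit is
compact. -/
theorem volume_dirichletCell_lt_top [IsTotallyReal K] {n : ℕ} (O : Subring (𝓞 K))
    (hO : O.toAddSubgroup.index ≠ 0) (σ : Fin n ≃ (K →+* ℝ)) {x : XSpace n}
    (hx : x ∈ packetSupport O σ) : volume (dirichletCell x) < ⊤ := by
  obtain ⟨N, hNpos, hN⟩ := exists_pow_mem_order O hO
  obtain ⟨ε, hε⟩ := exists_units_matrix σ
  apply Bornology.IsBounded.measure_lt_top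
  have hNr : (0 : ℝ) < 2 * (N : ℝ) := by
    have : (0 : ℝ) < N := by exact_mod_cast hNpos
    linarith
  refine dirichletCell_bounded x _ hε (2 * (N : ℝ)) hNr ?_ ?_
  · intro k
    have hmem := unitVec_mem_torusStab O σ hx (ε k ^ N) (hN _)
      (by rw [← inv_pow]; exact hN _)
    have heq : (fun k' : Fin (n - 1) => 2 * (N : ℝ) *
        (Matrix.of fun (k k' : Fin (n - 1)) =>
          Real.log |σ ⟨k', by have := k'.2; omega⟩ ((ε k : 𝓞 K) : K)|) k k') =
        unitVec σ (ε k ^ N) := by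
      funext k'
      simp only [unitVec, Matrix.of_apply, Units.val_pow_eq_pow_val, map_pow]
      rw [← pow_mul, Real.log_pow, Real.log_abs]
      push_cast
      ring
    rw [heq]
    exact hmem
  · intro k
    have hmem := unitVec_mem_torusStab O σ hx ((ε k)⁻¹ ^ N) (hN _)
      (by rw [← inv_pow, inv_inv]; exact hN _)
    have heq : (fun k' : Fin (n - 1) => -(2 * (N : ℝ) *
        (Matrix.of fun (k k' : Fin (n - 1)) =>
          Real.log |σ ⟨k', by have := k'.2; omega⟩ ((ε k : 𝓞 K) : K)|) k k')) =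
        unitVec σ ((ε k)⁻¹ ^ N) := by
      funext k'
      simp only [unitVec, Matrix.of_apply, Units.val_pow_eq_pow_val, map_pow,
        RingOfIntegers.coe_eq_algebraMap]
      rw [algebraMap_unit_inv, map_inv₀, ← pow_mul, inv_pow, Real.log_inv, Real.log_pow,
        Real.log_abs]
      push_cast
      ring
    rw [heq]
    exact hmem

end

end Vale.Agent.Lib.P007
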